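import Mathlib

/-!
# P207: a measurable solution of the cohomological equation from bounded exponential moments

`φ` measure preserving and invertible, `w` bounded with `∫ w = 0` and
`sup_n ∫ exp (S_n w) < ∞`; then `w = ψ ∘ φ - ψ` a.e. with `ψ` integrable.
-/

open MeasureTheory Filter Set Topology
open scoped ENNReal NNReal

noncomputable section

namespace Vale.Agent.P207.Q

/-! ### Convex combinations of a bounded sequence of a Hilbert space -/

section Hilbert

variable {H : Type*} [NormedAddCommGroup H] [InnerProductSpace ℝ H] [CompleteSpace H]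

/-- A bounded sequence has strongly convergent convex combinations of its tails. -/
theorem exists_conv_tendsto (a : ℕ → H) (C : ℝ) (h : ∀ n, ‖a n‖ ≤ C) :
    ∃ (y : ℕ → H) (x : H), (∀ N, y N ∈ convexHull ℝ (a '' Ici N)) ∧
      Tendsto y atTop (𝓝 x) := by
  set K : ℕ → Set H := fun N => convexHull ℝ (a '' Ici N) with hK
  have hKne : ∀ N, (K N).Nonempty := fun N =>
    ⟨a N, subset_convexHull ℝ _ ⟨N, self_mem_Ici, rfl⟩⟩
  have hKanti : ∀ {N M}, N ≤ M → K M ⊆ K N := fun {N M} hNM =>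
    convexHull_mono (image_mono (Ici_subset_Ici.2 hNM))
  set d : ℕ → ℝ := fun N => sInf ((fun y : H => ‖y‖) '' K N) with hd
  have hbdd : ∀ N, BddBelow ((fun y : H => ‖y‖) '' K N) := fun N =>
    ⟨0, by rintro _ ⟨y, -, rfl⟩; exact norm_nonneg y⟩
  have hdle : ∀ N, ∀ y ∈ K N, d N ≤ ‖y‖ := fun N y hy => csInf_le (hbdd N) ⟨y, hy, rfl⟩
  have hd0 : ∀ N, 0 ≤ d N := fun N =>
    le_csInf ((hKne N).image _) (by rintro _ ⟨y, -, rfl⟩; exact norm_nonneg y)
  have hmono : Monotone d := fun N M hNM =>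
    le_csInf ((hKne M).image _) (by rintro _ ⟨y, hy, rfl⟩; exact hdle N y (hKanti hNM hy))
  have hdC : ∀ N, d N ≤ C := fun N =>
    (hdle N _ (subset_convexHull ℝ _ ⟨N, self_mem_Ici, rfl⟩)).trans (h N)
  -- approximate minimisers
  have hex : ∀ N : ℕ, ∃ y ∈ K N, ‖y‖ ^ 2 ≤ d N ^ 2 + 1 / ((N : ℝ) + 1) := by
    intro N
    have hpos : (0 : ℝ) < 1 / ((N : ℝ) + 1) := by positivity
    have hlt : d N < Real.sqrt (d N ^ 2 + 1 / ((N : ℝ) + 1)) := by
      apply Real.lt_sqrt_of_sq_lt
      linarith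
    obtain ⟨_, ⟨y, hy, rfl⟩, hy2⟩ := exists_lt_of_csInf_lt ((hKne N).image _) hlt
    refine ⟨y, hy, ?_⟩
    have h0 : 0 ≤ d N ^ 2 + 1 / ((N : ℝ) + 1) := by positivity
    have := pow_le_pow_left₀ (norm_nonneg y) hy2.le 2
    rwa [Real.sq_sqrt h0] at this
  choose y hyK hy using hex
  -- the limit of d
  obtain ⟨l, hl⟩ : ∃ l, Tendsto d atTop (𝓝 l) :=
    ⟨_, tendsto_atTop_ciSup hmono ⟨C, by rintro _ ⟨N, rfl⟩; exact hdC N⟩⟩
  have hdl : ∀ N, d N ≤ l := fun N => hmono.ge_of_tendsto hl N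
  -- Cauchy
  have key : ∀ N M, N ≤ M →
      ‖y N - y M‖ ^ 2 ≤ 2 * (l ^ 2 - d N ^ 2) + 4 * (1 / ((N : ℝ) + 1)) := by
    intro N M hNM
    have hmid : (2⁻¹ : ℝ) • (y N + y M) ∈ K N := by
      have hc : Convex ℝ (K N) := convex_convexHull ℝ _
      have := hc (hyK N) (hKanti hNM (hyK M)) (show (0 : ℝ) ≤ 2⁻¹ by norm_num)
        (show (0 : ℝ) ≤ 2⁻¹ by norm_num) (by norm_num)
      rwa [← smul_add] at this
    have h1 : 2 * d N ≤ ‖y N + y M‖ := by
      have := hdle N _ hmid
      rw [norm_smul, Real.norm_of_nonneg (by norm_num)] at this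
      linarith
    have h2 : (2 * d N) ^ 2 ≤ ‖y N + y M‖ ^ 2 :=
      pow_le_pow_left₀ (by have := hd0 N; linarith) h1 2
    have hpar := parallelogram_law_with_norm ℝ (y N) (y M)
    have h3 := hy N
    have h4 := hy M
    have h5 : d M ^ 2 ≤ l ^ 2 := pow_le_pow_left₀ (hd0 M) (hdl M) 2
    have h6 : 1 / ((M : ℝ) + 1) ≤ 1 / ((N : ℝ) + 1) := by
      apply one_div_le_one_div_of_le (by positivity)
      have : (N : ℝ) ≤ M := by exact_mod_cast hNM
      linarith
    nlinarith
  have hb0 : Tendsto (fun N : ℕ => 2 * (l ^ 2 - d N ^ 2) + 4 * (1 / ((N : ℝ) + 1))) atTop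
      (𝓝 0) := by
    have h1 : Tendsto (fun N : ℕ => 2 * (l ^ 2 - d N ^ 2)) atTop (𝓝 (2 * (l ^ 2 - l ^ 2))) :=
      ((tendsto_const_nhds.sub (hl.pow 2)).const_mul 2)
    have h2 : Tendsto (fun N : ℕ => 4 * (1 / ((N : ℝ) + 1))) atTop (𝓝 (4 * 0)) :=
      tendsto_one_div_add_atTop_nhds_zero_nat.const_mul 4
    simpa using h1.add h2
  have hCau : CauchySeq y := by
    apply cauchySeq_of_le_tendsto_0
      (fun N : ℕ => 2 * Real.sqrt (2 * (l ^ 2 - d N ^ 2) + 4 * (1 / ((N : ℝ) + 1))))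
    · intro n m N hn hm
      have e1 : ∀ k, N ≤ k → dist (y N) (y k) ≤
          Real.sqrt (2 * (l ^ 2 - d N ^ 2) + 4 * (1 / ((N : ℝ) + 1))) := fun k hk => by
        rw [dist_eq_norm]
        exact Real.le_sqrt_of_sq_le (key N k hk)
      calc dist (y n) (y m) ≤ dist (y n) (y N) + dist (y N) (y m) := dist_triangle _ _ _
        _ ≤ _ := by
          rw [dist_comm (y n)]
          have := e1 n hn
          have := e1 m hm
          linarith
    · have := (hb0.sqrt).const_mul 2
      simpa using this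
  obtain ⟨x, hx⟩ := cauchySeq_tendsto_of_complete hCau
  exact ⟨y, x, hyK, hx⟩

end Hilbert

/-! ### The cohomological equation -/

section Cob

variable {Ω : Type*} [MeasurableSpace Ω] {m : Measure Ω} [IsProbabilityMeasure m]

/-- The set of positive `L²` functions whose logarithm has nonnegative integral. -/
def LogPos (m : Measure Ω) : Set (Lp ℝ 2 m) :=
  {y | (∀ᵐ x ∂m, 0 < y x) ∧ Integrable (fun x => Real.log (y x)) m ∧
    0 ≤ ∫ x, Real.log (y x) ∂m}

theorem integrable_Lp2 (y : Lp ℝ 2 m) : Integrable (fun x => y x) m :=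
  (Lp.memLp y).integrable (by norm_num)

theorem integral_Lp2_le (y : Lp ℝ 2 m) : ∫ x, y x ∂m ≤ ‖y‖ := by
  have h1 : ∫ x, y x ∂m ≤ ∫ x, ‖y x‖ ∂m :=
    integral_mono (integrable_Lp2 y) (integrable_Lp2 y).norm fun x => Real.le_norm_self _
  refine h1.trans ?_
  have h2 : ∫ x, ‖y x‖ ∂m = (eLpNorm (fun x => y x) 1 m).toReal := by
    rw [integral_norm_eq_lintegral_enorm (Lp.aestronglyMeasurable y), eLpNorm_one_eq_lintegral_enorm]
  rw [h2, Lp.norm_def]
  exact ENNReal.toReal_mono (Lp.eLpNorm_ne_top y)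
    (eLpNorm_le_eLpNorm_of_exponent_le (by norm_num) (Lp.aestronglyMeasurable y))

theorem convex_logPos : Convex ℝ (LogPos m) := by
  rintro y ⟨hy0, hy1, hy2⟩ z ⟨hz0, hz1, hz2⟩ s t hs ht hst
  have hco : ((s • y + t • z : Lp ℝ 2 m) : Ω → ℝ) =ᵐ[m] fun x => s * y x + t * z x := by
    filter_upwards [Lp.coeFn_add (s • y) (t • z), Lp.coeFn_smul s y, Lp.coeFn_smul t z]
      with x h1 h2 h3
    rw [h1, Pi.add_apply, h2, h3]; rfl
  have hpos : ∀ᵐ x ∂m, 0 < s * y x + t * z x := by
    filter_upwards [hy0, hz0] with x h1 h2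
    rcases eq_or_lt_of_le hs with h | h
    · have : t = 1 := by linarith
      rw [← h, this]; simpa using h2
    · have := mul_pos h h1
      have := mul_nonneg ht h2.le
      linarith
  have hlow : ∀ᵐ x ∂m, s * Real.log (y x) + t * Real.log (z x) ≤
      Real.log (s * y x + t * z x) := by
    filter_upwards [hy0, hz0] with x h1 h2
    have := strictConcaveOn_log_Ioi.concaveOn.2 (x := y x) (y := z x) h1 h2 hs ht hst
    simpa using this
  have hup : ∀ᵐ x ∂m, Real.log (s * y x + t * z x) ≤ s * y x + t * z x := by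
    filter_upwards [hpos] with x h1
    exact (Real.log_le_sub_one_of_pos h1).trans (by linarith)
  have hI : Integrable (fun x => Real.log (s * y x + t * z x)) m := by
    have hlowI : Integrable (fun x => s * Real.log (y x) + t * Real.log (z x)) m :=
      (hy1.const_mul s).add (hz1.const_mul t)
    have hupI : Integrable (fun x => s * y x + t * z x) m :=
      ((integrable_Lp2 y).const_mul s).add ((integrable_Lp2 z).const_mul t)
    refine Integrable.mono' (hlowI.norm.add hupI.norm) ?_ ?_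
    · exact (Real.measurable_log.comp_aemeasurable hupI.aestronglyMeasurable.aemeasurable
        ).aestronglyMeasurable
    · filter_upwards [hlow, hup] with x h1 h2
      rw [Real.norm_eq_abs, abs_le]
      simp only [Pi.add_apply, Real.norm_eq_abs]
      constructor
      · have h3 := neg_abs_le (s * Real.log (y x) + t * Real.log (z x))
        have h4 := abs_nonneg (s * y x + t * z x)
        linarith
      · have h3 := le_abs_self (s * y x + t * z x)
        have h4 := abs_nonneg (s * Real.log (y x) + t * Real.log (z x))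
        linarith
  have hlogco : (fun x => Real.log ((s • y + t • z : Lp ℝ 2 m) x)) =ᵐ[m]
      fun x => Real.log (s * y x + t * z x) := by
    filter_upwards [hco] with x h1
    rw [h1]
  refine ⟨?_, ?_, ?_⟩
  · filter_upwards [hco, hpos] with x h1 h2
    rwa [h1]
  · exact hI.congr hlogco.symm
  · rw [integral_congr_ae hlogco]
    have h1 : ∫ x, (s * Real.log (y x) + t * Real.log (z x)) ∂m ≤
        ∫ x, Real.log (s * y x + t * z x) ∂m :=
      integral_mono_ae ((hy1.const_mul s).add (hz1.const_mul t)) hI hlow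
    rw [integral_add (hy1.const_mul s) (hz1.const_mul t), integral_const_mul,
      integral_const_mul] at h1
    have := mul_nonneg hs hy2
    have := mul_nonneg ht hz2
    linarith

/-- Strong limits of elements of `LogPos` are a.e. positive with integrable logarithm. -/
theorem logPos_lim {y : ℕ → Lp ℝ 2 m} {x : Lp ℝ 2 m} (hy : ∀ n, y n ∈ LogPos m)
    (C : ℝ) (hC : ∀ n, ‖y n‖ ≤ C)
    (hae : ∀ᵐ ω ∂m, Tendsto (fun n => y n ω) atTop (𝓝 (x ω))) :
    (∀ᵐ ω ∂m, 0 < x ω) ∧ Integrable (fun ω => Real.log (x ω)) m := by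
  set g : ℕ → Ω → ℝ≥0∞ := fun n ω => ENNReal.ofReal (y n ω - 1 - Real.log (y n ω)) with hg
  have hgm : ∀ n, Measurable (g n) := fun n => by
    have h1 : Measurable (fun ω => y n ω) := (Lp.stronglyMeasurable (y n)).measurable
    exact ((h1.sub_const 1).sub (Real.measurable_log.comp h1)).ennreal_ofReal
  have hgI : ∀ n, Integrable (fun ω => y n ω - 1 - Real.log (y n ω)) m := fun n =>
    ((integrable_Lp2 (y n)).sub (integrable_const 1)).sub (hy n).2.1
  have hg0 : ∀ n, 0 ≤ᵐ[m] fun ω => y n ω - 1 - Real.log (y n ω) := fun n => by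
    filter_upwards [(hy n).1] with ω h1
    have := Real.log_le_sub_one_of_pos h1
    simp only [Pi.zero_apply]; linarith
  have hgle : ∀ n, ∫⁻ ω, g n ω ∂m ≤ ENNReal.ofReal C := fun n => by
    rw [← ofReal_integral_eq_lintegral_ofReal (hgI n) (hg0 n)]
    apply ENNReal.ofReal_le_ofReal
    have e1 : ∫ ω, (y n ω - 1 - Real.log (y n ω)) ∂m =
        ∫ ω, (y n ω - 1) ∂m - ∫ ω, Real.log (y n ω) ∂m :=
      integral_sub ((integrable_Lp2 (y n)).sub (integrable_const 1)) (hy n).2.1
    have e2 : ∫ ω, (y n ω - 1) ∂m = ∫ ω, y n ω ∂m - ∫ _ω, (1 : ℝ) ∂m :=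
      integral_sub (integrable_Lp2 (y n)) (integrable_const 1)
    rw [e1, e2]
    have h1 := integral_Lp2_le (y n)
    have h2 := hC n
    have h3 := (hy n).2.2
    simp only [integral_const, probReal_univ, smul_eq_mul, one_mul]
    linarith
  have hfat : ∫⁻ ω, liminf (fun n => g n ω) atTop ∂m ≤ ENNReal.ofReal C := by
    refine (lintegral_liminf_le hgm).trans ?_
    refine liminf_le_of_frequently_le' ?_
    exact Frequently.of_forall hgle
  have hfin : ∀ᵐ ω ∂m, liminf (fun n => g n ω) atTop < ∞ := by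
    apply ae_lt_top (Measurable.liminf hgm)
    exact ne_top_of_le_ne_top ENNReal.ofReal_ne_top hfat
  have hall : ∀ᵐ ω ∂m, ∀ n, 0 < y n ω := ae_all_iff.2 fun n => (hy n).1
  have hpos : ∀ᵐ ω ∂m, 0 < x ω := by
    filter_upwards [hfin, hall, hae] with ω h1 h2 h3
    have hx0 : 0 ≤ x ω := ge_of_tendsto' h3 fun n => (h2 n).le
    rcases eq_or_lt_of_le hx0 with h | h
    · exfalso
      have h4 : Tendsto (fun n => Real.log (y n ω)) atTop atBot := by
        apply Real.tendsto_log_nhdsGT_zero.comp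
        rw [tendsto_nhdsWithin_iff]
        exact ⟨h ▸ h3, Eventually.of_forall fun n => h2 n⟩
      have h5 : Tendsto (fun n => y n ω - 1 - Real.log (y n ω)) atTop atTop := by
        have e1 : Tendsto (fun n => y n ω - 1) atTop (𝓝 (x ω - 1)) := h3.sub_const 1
        have e2 : Tendsto (fun n => - Real.log (y n ω)) atTop atTop := tendsto_neg_atBot_atTop.comp h4
        simpa [sub_eq_add_neg] using e1.add_atTop e2
      have h6 : Tendsto (fun n => g n ω) atTop (𝓝 ∞) := ENNReal.tendsto_ofReal_atTop.comp h5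
      rw [h6.liminf_eq] at h1
      exact lt_irrefl _ h1
    · exact h
  refine ⟨hpos, ?_⟩
  have hxm : AEMeasurable (fun ω => x ω) m := (Lp.aestronglyMeasurable x).aemeasurable
  have hlogm : AEStronglyMeasurable (fun ω => Real.log (x ω)) m :=
    (Real.measurable_log.comp_aemeasurable hxm).aestronglyMeasurable
  have hI : Integrable (fun ω => x ω - 1 - Real.log (x ω)) m := by
    refine ⟨((integrable_Lp2 x).aestronglyMeasurable.sub
      aestronglyMeasurable_const).sub hlogm, ?_⟩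
    rw [hasFiniteIntegral_iff_ofReal]
    · refine lt_of_le_of_lt ?_ (hfat.trans_lt ENNReal.ofReal_lt_top)
      apply lintegral_mono_ae
      filter_upwards [hpos, hae] with ω h1 h3
      have h4 : Tendsto (fun n => y n ω - 1 - Real.log (y n ω)) atTop
          (𝓝 (x ω - 1 - Real.log (x ω))) :=
        (h3.sub_const 1).sub (h3.log h1.ne')
      have h5 : Tendsto (fun n => g n ω) atTop
          (𝓝 (ENNReal.ofReal (x ω - 1 - Real.log (x ω)))) :=
        (ENNReal.continuous_ofReal.tendsto _).comp h4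
      rw [h5.liminf_eq]
    · filter_upwards [hpos] with ω h1
      have := Real.log_le_sub_one_of_pos h1
      simp only [Pi.zero_apply]; linarith
  have : Integrable (fun ω => (x ω - 1) - (x ω - 1 - Real.log (x ω))) m :=
    ((integrable_Lp2 x).sub (integrable_const 1)).sub hI
  refine this.congr (Eventually.of_forall fun ω => ?_)
  simp

variable (φ : Ω ≃ᵐ Ω) (w : Ω → ℝ)

/-- `exp (½ Σ_{i=1}^n w (φ^{-i} x))`. -/
def FF (n : ℕ) (x : Ω) : ℝ := Real.exp (2⁻¹ * birkhoffSum φ w n (φ.symm^[n] x))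

omit [IsProbabilityMeasure m] in
theorem symm_iter_mp (hφ : MeasurePreserving φ m m) (n : ℕ) :
    MeasurePreserving (φ.symm^[n]) m m := (hφ.symm φ).iterate n

theorem iter_symm (n : ℕ) (x : Ω) : φ^[n] (φ.symm^[n] x) = x :=
  Function.RightInverse.iterate (f := φ) (g := φ.symm) φ.apply_symm_apply n x

theorem FF_succ (n : ℕ) (x : Ω) :
    FF φ w (n + 1) x = Real.exp (2⁻¹ * w (φ.symm x)) * FF φ w n (φ.symm x) := by
  unfold FF
  rw [← Real.exp_add]
  congr 1
  rw [Function.iterate_succ_apply, birkhoffSum_succ, iter_symm]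
  ring

theorem measurable_birkhoffSum {f : Ω → Ω} (hf : Measurable f) (hw : Measurable w) (n : ℕ) :
    Measurable (birkhoffSum f w n) :=
  Finset.measurable_sum _ fun i _ => hw.comp (hf.iterate i)

omit [MeasurableSpace Ω] in
theorem abs_birkhoffSum_le {f : Ω → Ω} {K : ℝ} (hK : ∀ x, |w x| ≤ K) (n : ℕ) (x : Ω) :
    |birkhoffSum f w n x| ≤ n * K := by
  unfold birkhoffSum
  refine (Finset.abs_sum_le_sum_abs _ _).trans ?_
  refine (Finset.sum_le_sum fun i _ => hK _).trans ?_
  simp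

theorem measurable_FF (hw : Measurable w) (n : ℕ) : Measurable (FF φ w n) :=
  (((measurable_birkhoffSum w φ.measurable hw n).comp (φ.symm.measurable.iterate n)).const_mul
    _).exp

theorem FF_pos (n : ℕ) (x : Ω) : 0 < FF φ w n x := Real.exp_pos _

theorem FF_le {K : ℝ} (hK : ∀ x, |w x| ≤ K) (n : ℕ) (x : Ω) :
    FF φ w n x ≤ Real.exp (2⁻¹ * (n * K)) := by
  apply Real.exp_le_exp.2
  have := (le_abs_self _).trans (abs_birkhoffSum_le w (f := φ) hK n (φ.symm^[n] x))
  linarith

theorem memLp_FF {K : ℝ} (hw : Measurable w) (hK : ∀ x, |w x| ≤ K) (n : ℕ) :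
    MemLp (FF φ w n) 2 m := by
  refine MemLp.of_bound (measurable_FF φ w hw n).aestronglyMeasurable
    (Real.exp (2⁻¹ * (n * K))) (Eventually.of_forall fun x => ?_)
  rw [Real.norm_of_nonneg (FF_pos φ w n x).le]
  exact FF_le φ w hK n x

theorem norm_FF_sq {K C : ℝ} (hφ : MeasurePreserving φ m m) (hw : Measurable w)
    (hK : ∀ x, |w x| ≤ K) (hC : ∀ n, ∫ x, Real.exp (birkhoffSum φ w n x) ∂m ≤ C) (n : ℕ) :
    ‖(memLp_FF (m := m) φ w hw hK n).toLp‖ ^ 2 ≤ C := by
  have h1 : ‖(memLp_FF (m := m) φ w hw hK n).toLp‖ ^ 2 = ∫ x, (FF φ w n x) ^ 2 ∂m := by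
    rw [← real_inner_self_eq_norm_sq, L2.inner_def]
    apply integral_congr_ae
    filter_upwards [(memLp_FF (m := m) φ w hw hK n).coeFn_toLp] with x hx
    rw [hx]
    simp [pow_two]
  rw [h1]
  have h2 : (fun x => (FF φ w n x) ^ 2) =
      fun x => (fun z => Real.exp (birkhoffSum φ w n z)) (φ.symm^[n] x) := by
    funext x
    simp only [FF]
    rw [← Real.exp_nat_mul]
    congr 1
    push_cast; ring
  rw [h2]
  have h3 : MeasurePreserving (φ.symm^[n]) m m := symm_iter_mp φ hφ n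
  have h4 : ∫ x, (fun z => Real.exp (birkhoffSum φ w n z)) (φ.symm^[n] x) ∂m =
      ∫ z, Real.exp (birkhoffSum φ w n z) ∂m := by
    have h5 := integral_map (μ := m) (φ := φ.symm^[n]) h3.measurable.aemeasurable
      (f := fun z => Real.exp (birkhoffSum φ w n z))
      ((measurable_birkhoffSum w φ.measurable hw n).exp.aestronglyMeasurable)
    rw [h3.map_eq] at h5
    exact h5.symm
  rw [h4]
  exact hC n

theorem integrable_w {K : ℝ} (hw : Measurable w) (hK : ∀ x, |w x| ≤ K) : Integrable w m :=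
  Integrable.of_bound hw.aestronglyMeasurable K (Eventually.of_forall hK)

theorem integral_birkhoffSum {K : ℝ} (hφ : MeasurePreserving φ m m) (hw : Measurable w)
    (hK : ∀ x, |w x| ≤ K) (h0 : ∫ x, w x ∂m = 0) (n : ℕ) :
    ∫ x, birkhoffSum φ w n x ∂m = 0 := by
  unfold birkhoffSum
  have hit : ∀ i, MeasurePreserving (φ^[i]) m m := fun i => hφ.iterate i
  rw [integral_finsetSum]
  · apply Finset.sum_eq_zero
    intro i _
    have h5 := integral_map (μ := m) (φ := φ^[i]) (hit i).measurable.aemeasurable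
      (f := w) hw.aestronglyMeasurable
    rw [(hit i).map_eq] at h5
    rw [← h5, h0]
  · intro i _
    exact (hit i).integrable_comp_of_integrable (integrable_w w hw hK)

theorem FF_mem_logPos {K : ℝ} (hφ : MeasurePreserving φ m m) (hw : Measurable w)
    (hK : ∀ x, |w x| ≤ K) (h0 : ∫ x, w x ∂m = 0) (n : ℕ) :
    (memLp_FF (m := m) φ w hw hK n).toLp ∈ LogPos m := by
  have hco := (memLp_FF (m := m) φ w hw hK n).coeFn_toLp
  have hlog : (fun x => Real.log ((memLp_FF (m := m) φ w hw hK n).toLp _ x)) =ᵐ[m]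
      fun x => 2⁻¹ * birkhoffSum φ w n (φ.symm^[n] x) := by
    filter_upwards [hco] with x hx
    rw [hx, FF, Real.log_exp]
  have h3 : MeasurePreserving (φ.symm^[n]) m m := symm_iter_mp φ hφ n
  have hmS := measurable_birkhoffSum w φ.measurable hw n
  refine ⟨?_, ?_, ?_⟩
  · filter_upwards [hco] with x hx
    rw [hx]; exact FF_pos φ w n x
  · refine Integrable.congr ?_ hlog.symm
    refine Integrable.of_bound
      (((hmS.comp h3.measurable).const_mul _).aestronglyMeasurable) (2⁻¹ * (n * K))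
      (Eventually.of_forall fun x => ?_)
    rw [Real.norm_eq_abs, abs_mul, abs_of_pos (by norm_num : (0 : ℝ) < 2⁻¹)]
    have := abs_birkhoffSum_le w (f := φ) hK n (φ.symm^[n] x)
    linarith
  · rw [integral_congr_ae hlog, integral_const_mul]
    have h5 := integral_map (μ := m) (φ := φ.symm^[n]) h3.measurable.aemeasurable
      (f := birkhoffSum φ w n) hmS.aestronglyMeasurable
    rw [h3.map_eq] at h5
    rw [← h5, integral_birkhoffSum φ w hφ hw hK h0, mul_zero]

omit [IsProbabilityMeasure m] in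
/-- The weight `exp (½ w (φ⁻¹ x))` as an element of `L^∞`. -/
theorem memLp_g {K : ℝ} (hw : Measurable w) (hK : ∀ x, |w x| ≤ K) :
    MemLp (fun x => Real.exp (2⁻¹ * w (φ.symm x))) ∞ m := by
  refine memLp_top_of_bound
    (((hw.comp φ.symm.measurable).const_mul _).exp.aestronglyMeasurable) (Real.exp (2⁻¹ * K))
    (Eventually.of_forall fun x => ?_)
  rw [Real.norm_of_nonneg (Real.exp_pos _).le]
  apply Real.exp_le_exp.2
  have := (le_abs_self _).trans (hK (φ.symm x))
  linarith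

/-- The weighted composition operator `U u (x) = exp (½ w (φ⁻¹ x)) u (φ⁻¹ x)`. -/
def UU {K : ℝ} (hφ : MeasurePreserving φ m m) (hw : Measurable w) (hK : ∀ x, |w x| ≤ K) :
    Lp ℝ 2 m →L[ℝ] Lp ℝ 2 m :=
  ((ContinuousLinearMap.mul ℝ ℝ).holderL m ∞ 2 2 (memLp_g (m := m) φ w hw hK).toLp).comp
    (Lp.compMeasurePreservingₗᵢ ℝ φ.symm (hφ.symm φ)).toContinuousLinearMap

omit [IsProbabilityMeasure m] in
theorem UU_coe {K : ℝ} (hφ : MeasurePreserving φ m m) (hw : Measurable w)
    (hK : ∀ x, |w x| ≤ K) (y : Lp ℝ 2 m) :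
    (UU φ w hφ hw hK y : Ω → ℝ) =ᵐ[m]
      fun x => Real.exp (2⁻¹ * w (φ.symm x)) * y (φ.symm x) := by
  have h1 := ContinuousLinearMap.coeFn_holder (r := 2) (ContinuousLinearMap.mul ℝ ℝ)
    (memLp_g (m := m) φ w hw hK).toLp (Lp.compMeasurePreserving φ.symm (hφ.symm φ) y)
  have h2 := (memLp_g (m := m) φ w hw hK).coeFn_toLp
  have h3 := Lp.coeFn_compMeasurePreserving y (hφ.symm φ)
  filter_upwards [h1, h2, h3] with x e1 e2 e3
  refine e1.trans ?_
  rw [e2, e3]
  rfl

theorem UU_FF {K : ℝ} (hφ : MeasurePreserving φ m m) (hw : Measurable w)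
    (hK : ∀ x, |w x| ≤ K) (n : ℕ) :
    UU φ w hφ hw hK (memLp_FF (m := m) φ w hw hK n).toLp =
      (memLp_FF (m := m) φ w hw hK (n + 1)).toLp := by
  apply Lp.ext
  have h1 := UU_coe φ w hφ hw hK (memLp_FF (m := m) φ w hw hK n).toLp
  have h2 := (memLp_FF (m := m) φ w hw hK (n + 1)).coeFn_toLp
  have h3 := (hφ.symm φ).quasiMeasurePreserving.ae ((memLp_FF (m := m) φ w hw hK n).coeFn_toLp)
  filter_upwards [h1, h2, h3] with x e1 e2 e3
  rw [e1, e2, e3, FF_succ]

section Tau

omit [MeasurableSpace Ω] in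
theorem birkhoffSum_tau {f τ : Ω → Ω} (hc : ∀ x, τ (f x) = f (τ x)) (hwτ : ∀ x, w (τ x) = w x)
    (n : ℕ) (x : Ω) : birkhoffSum f w n (τ x) = birkhoffSum f w n x := by
  unfold birkhoffSum
  apply Finset.sum_congr rfl
  intro i _
  have h : f^[i] (τ x) = τ (f^[i] x) :=
    (Function.Commute.iterate_left (f := f) (g := τ) (fun z => (hc z).symm) i) x
  rw [h, hwτ]

theorem symm_tau {τ : Ω → Ω} (hc : ∀ x, τ (φ x) = φ (τ x)) (x : Ω) :
    τ (φ.symm x) = φ.symm (τ x) := by
  apply φ.injective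
  rw [φ.apply_symm_apply, ← hc, φ.apply_symm_apply]

theorem FF_tau {τ : Ω → Ω} (hc : ∀ x, τ (φ x) = φ (τ x)) (hwτ : ∀ x, w (τ x) = w x)
    (n : ℕ) (x : Ω) : FF φ w n (τ x) = FF φ w n x := by
  unfold FF
  have h : φ.symm^[n] (τ x) = τ (φ.symm^[n] x) :=
    (Function.Commute.iterate_left (f := φ.symm) (g := τ)
      (fun z => (symm_tau φ hc z).symm) n) x
  rw [h, birkhoffSum_tau w hc hwτ]

end Tau

/-- **A measurable solution of the cohomological equation.**  If `φ` is an invertible measure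
preserving map, `w` is bounded with integral `0` and the integrals of `exp (S_n w)` are bounded,
then `w = ψ ∘ φ - ψ` almost everywhere, for an integrable `ψ`, which is invariant under every
symmetry `τ` of `(m, φ, w)`. -/
theorem exists_coboundary_symm {K C : ℝ} (hφ : MeasurePreserving φ m m) (hw : Measurable w)
    (hK : ∀ x, |w x| ≤ K) (h0 : ∫ x, w x ∂m = 0)
    (hC : ∀ n, ∫ x, Real.exp (birkhoffSum φ w n x) ∂m ≤ C) :
    ∃ ψ : Ω → ℝ, Measurable ψ ∧ Integrable ψ m ∧ (∀ᵐ x ∂m, ψ (φ x) - ψ x = w x) ∧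
      ∀ τ : Ω → Ω, MeasurePreserving τ m m → (∀ x, τ (φ x) = φ (τ x)) →
        (∀ x, w (τ x) = w x) → ∀ᵐ x ∂m, ψ (τ x) = ψ x := by
  set U := UU φ w hφ hw hK with hU
  set f : ℕ → Lp ℝ 2 m := fun n => (memLp_FF (m := m) φ w hw hK n).toLp with hf
  have hfU : ∀ n, U (f n) = f (n + 1) := UU_FF φ w hφ hw hK
  have hC0 : 0 ≤ C := (integral_nonneg fun x => (Real.exp_pos _).le).trans (hC 0)
  have hfn : ∀ n, ‖f n‖ ≤ Real.sqrt C := fun n =>
    Real.le_sqrt_of_sq_le (norm_FF_sq φ w hφ hw hK hC n)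
  set a : ℕ → Lp ℝ 2 m := fun N => ((N : ℝ) + 1)⁻¹ • ∑ i ∈ Finset.range (N + 1), f i with ha
  have hN0 : ∀ N : ℕ, (0 : ℝ) < (N : ℝ) + 1 := fun N => by positivity
  have han : ∀ N, ‖a N‖ ≤ Real.sqrt C := fun N => by
    rw [ha]; simp only
    rw [norm_smul, norm_inv, Real.norm_of_nonneg (hN0 N).le]
    have h1 : ‖∑ i ∈ Finset.range (N + 1), f i‖ ≤ ((N : ℝ) + 1) * Real.sqrt C := by
      refine (norm_sum_le _ _).trans ?_
      refine (Finset.sum_le_sum fun i _ => hfn i).trans ?_
      simp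
    calc ((N : ℝ) + 1)⁻¹ * ‖∑ i ∈ Finset.range (N + 1), f i‖ ≤
        ((N : ℝ) + 1)⁻¹ * (((N : ℝ) + 1) * Real.sqrt C) :=
          mul_le_mul_of_nonneg_left h1 (inv_nonneg.2 (hN0 N).le)
      _ = Real.sqrt C := by
          rw [← mul_assoc, inv_mul_cancel₀ (hN0 N).ne', one_mul]
  have haU : ∀ N, ‖U (a N) - a N‖ ≤ ((N : ℝ) + 1)⁻¹ * (2 * Real.sqrt C) := fun N => by
    have h1 : U (a N) - a N = ((N : ℝ) + 1)⁻¹ • (f (N + 1) - f 0) := by
      rw [ha]; simp only
      rw [map_smul, map_sum, ← smul_sub]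
      congr 1
      simp only [hfU]
      rw [← Finset.sum_sub_distrib, Finset.sum_range_sub]
    rw [h1, norm_smul, norm_inv, Real.norm_of_nonneg (hN0 N).le]
    apply mul_le_mul_of_nonneg_left _ (inv_nonneg.2 (hN0 N).le)
    have := norm_sub_le (f (N + 1)) (f 0)
    have := hfn (N + 1)
    have := hfn 0
    linarith
  have haL : ∀ N, a N ∈ LogPos m := fun N => by
    have h1 : a N = ∑ i ∈ Finset.range (N + 1), ((N : ℝ) + 1)⁻¹ • f i := by
      rw [ha]; simp only
      rw [Finset.smul_sum]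
    rw [h1]
    apply convex_logPos.sum_mem
    · intro i _; exact inv_nonneg.2 (hN0 N).le
    · rw [Finset.sum_const, Finset.card_range, nsmul_eq_mul]
      push_cast
      exact mul_inv_cancel₀ (hN0 N).ne'
    · intro i _; exact FF_mem_logPos φ w hφ hw hK h0 i
  obtain ⟨y, x, hy, hyx⟩ := exists_conv_tendsto a (Real.sqrt C) han
  have hyL : ∀ N, y N ∈ LogPos m := fun N => by
    have : convexHull ℝ (a '' Ici N) ⊆ LogPos m :=
      convexHull_min (by rintro _ ⟨n, -, rfl⟩; exact haL n) convex_logPos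
    exact this (hy N)
  have hyn : ∀ N, ‖y N‖ ≤ Real.sqrt C := fun N => by
    have : convexHull ℝ (a '' Ici N) ⊆ Metric.closedBall 0 (Real.sqrt C) :=
      convexHull_min (by rintro _ ⟨n, -, rfl⟩; simpa using han n) (convex_closedBall _ _)
    simpa using this (hy N)
  have hyU : ∀ N, ‖U (y N) - y N‖ ≤ ((N : ℝ) + 1)⁻¹ * (2 * Real.sqrt C) := fun N => by
    have h1 : convexHull ℝ (a '' Ici N) ⊆
        (U - ContinuousLinearMap.id ℝ _).toLinearMap ⁻¹'
          Metric.closedBall 0 (((N : ℝ) + 1)⁻¹ * (2 * Real.sqrt C)) := by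
      apply convexHull_min
      · rintro _ ⟨n, hn, rfl⟩
        have h2 := haU n
        have h3 : ((n : ℝ) + 1)⁻¹ ≤ ((N : ℝ) + 1)⁻¹ := by
          apply inv_anti₀ (hN0 N)
          have : (N : ℝ) ≤ n := by exact_mod_cast (mem_Ici.1 hn)
          linarith
        have h4 : ((n : ℝ) + 1)⁻¹ * (2 * Real.sqrt C) ≤ ((N : ℝ) + 1)⁻¹ * (2 * Real.sqrt C) :=
          mul_le_mul_of_nonneg_right h3 (by positivity)
        simpa using h2.trans h4
      · exact (convex_closedBall _ _).linear_preimage _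
    simpa using h1 (hy N)
  have hUx : U x = x := by
    have h1 : Tendsto (fun N => U (y N) - y N) atTop (𝓝 (U x - x)) :=
      ((U.continuous.tendsto x).comp hyx).sub hyx
    have h2 : Tendsto (fun N : ℕ => ((N : ℝ) + 1)⁻¹ * (2 * Real.sqrt C)) atTop (𝓝 0) := by
      have h3 : Tendsto (fun N : ℕ => ((N : ℝ) + 1)⁻¹) atTop (𝓝 0) := by
        simpa [one_div] using (tendsto_one_div_add_atTop_nhds_zero_nat (𝕜 := ℝ))
      simpa using h3.mul_const (2 * Real.sqrt C)
    have h3 : Tendsto (fun N => U (y N) - y N) atTop (𝓝 0) :=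
      squeeze_zero_norm hyU h2
    exact sub_eq_zero.1 (tendsto_nhds_unique h1 h3)
  -- almost everywhere convergence along a subsequence
  have hmeas : TendstoInMeasure m (fun n => (y n : Ω → ℝ)) atTop x :=
    tendstoInMeasure_of_tendsto_Lp hyx
  obtain ⟨ns, hns, hae⟩ := hmeas.exists_seq_tendsto_ae
  obtain ⟨hpos, hlogI⟩ := logPos_lim (m := m) (y := fun k => y (ns k)) (x := x)
    (fun k => hyL _) (Real.sqrt C) (fun k => hyn _) hae
  refine ⟨fun ω => 2 * Real.log (x ω), ?_, hlogI.const_mul 2, ?_, ?_⟩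
  · exact ((Lp.stronglyMeasurable x).measurable.log).const_mul 2
  · have h1 := UU_coe φ w hφ hw hK x
    rw [← hU, hUx] at h1
    have h2 := hφ.quasiMeasurePreserving.ae h1
    filter_upwards [h2, hpos] with ω e1 e2
    rw [φ.symm_apply_apply] at e1
    rw [e1, Real.log_mul (Real.exp_pos _).ne' e2.ne', Real.log_exp]
    ring
  · intro τ hτ hc hwτ
    set T := Lp.compMeasurePreservingₗᵢ ℝ (E := ℝ) (p := 2) τ hτ with hT
    have hTf : ∀ n, T (f n) = f n := fun n => by
      apply Lp.ext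
      have h1 := Lp.coeFn_compMeasurePreserving (f n) hτ
      have h2 := (memLp_FF (m := m) φ w hw hK n).coeFn_toLp
      have h3 := hτ.quasiMeasurePreserving.ae h2
      filter_upwards [h1, h2, h3] with ω e1 e2 e3
      refine e1.trans ?_
      rw [Function.comp_apply, e3, e2]
      exact FF_tau φ w hc hwτ n ω
    have hTa : ∀ n, T (a n) = a n := fun n => by
      rw [ha]; simp only
      rw [map_smul, map_sum]
      simp only [hTf]
    have hTy : ∀ N, T (y N) = y N := fun N => by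
      have h1 : convexHull ℝ (a '' Ici N) ⊆ {z : Lp ℝ 2 m | T z = z} := by
        apply convexHull_min
        · rintro _ ⟨n, -, rfl⟩
          exact hTa n
        · intro z hz z' hz' s t _ _ _
          simp only [Set.mem_ofPred_eq] at hz hz' ⊢
          rw [map_add, map_smul, map_smul, hz, hz']
      exact h1 (hy N)
    have hTx : T x = x := by
      have h1 : Tendsto (fun N => T (y N)) atTop (𝓝 (T x)) := (T.continuous.tendsto x).comp hyx
      simp only [hTy] at h1
      exact tendsto_nhds_unique h1 hyx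
    have h4 := Lp.coeFn_compMeasurePreserving x hτ
    have h5 : (T x : Ω → ℝ) =ᵐ[m] (x : Ω → ℝ) ∘ τ := h4
    rw [hTx] at h5
    filter_upwards [h5] with ω e1
    rw [e1]; rfl

/-- `exists_coboundary_symm` without the symmetries. -/
theorem exists_coboundary {K C : ℝ} (hφ : MeasurePreserving φ m m) (hw : Measurable w)
    (hK : ∀ x, |w x| ≤ K) (h0 : ∫ x, w x ∂m = 0)
    (hC : ∀ n, ∫ x, Real.exp (birkhoffSum φ w n x) ∂m ≤ C) :
    ∃ ψ : Ω → ℝ, Measurable ψ ∧ Integrable ψ m ∧ ∀ᵐ x ∂m, ψ (φ x) - ψ x = w x :=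
  let ⟨ψ, h1, h2, h3, _⟩ := exists_coboundary_symm φ w hφ hw hK h0 hC
  ⟨ψ, h1, h2, h3⟩

end Cob

end Vale.Agent.P207.Q
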