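import Vale.Agent.P207.Q.Cob

/-!
# P207: a measurable solution of the cohomological equation, flow version
-/

open MeasureTheory Filter Set Topology intervalIntegral
open scoped ENNReal NNReal

noncomputable section

namespace Vale.Agent.P207.Q

variable {Ω : Type*} [MeasurableSpace Ω]

/-- A jointly measurable measure preserving flow. -/
structure MFlow (m : Measure Ω) (φ : ℝ → Ω → Ω) : Prop where
  meas : Measurable fun p : ℝ × Ω => φ p.1 p.2
  zero : ∀ x, φ 0 x = x
  add : ∀ s t x, φ (s + t) x = φ s (φ t x)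
  mp : ∀ t, MeasurePreserving (φ t) m m

/-- The cocycle of `w` over the flow `φ`. -/
def WW (φ : ℝ → Ω → Ω) (w : Ω → ℝ) (t : ℝ) (x : Ω) : ℝ := ∫ s in (0 : ℝ)..t, w (φ s x)

namespace MFlow

variable {m : Measure Ω} {φ : ℝ → Ω → Ω} (hφ : MFlow m φ) {w : Ω → ℝ} (hw : Measurable w)
  {K : ℝ} (hK : ∀ x, |w x| ≤ K)

include hφ

theorem meas_t (t : ℝ) : Measurable (φ t) := (hφ.mp t).measurable

theorem meas_x (x : Ω) : Measurable fun s => φ s x :=
  hφ.meas.comp (measurable_id.prodMk measurable_const)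

include hw hK in
theorem intervalIntegrable_w (a b : ℝ) (x : Ω) :
    IntervalIntegrable (fun s => w (φ s x)) volume a b := by
  have hm : Measurable fun s => w (φ s x) := hw.comp (hφ.meas_x x)
  constructor
  · exact Integrable.of_bound hm.aestronglyMeasurable K (Eventually.of_forall fun s => hK _)
  · exact Integrable.of_bound hm.aestronglyMeasurable K (Eventually.of_forall fun s => hK _)

include hw hK in
theorem WW_add (s t : ℝ) (x : Ω) : WW φ w (s + t) x = WW φ w t x + WW φ w s (φ t x) := by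
  unfold WW
  rw [← integral_add_adjacent_intervals (hφ.intervalIntegrable_w hw hK 0 t x)
    (hφ.intervalIntegrable_w hw hK t (s + t) x)]
  congr 1
  have h := intervalIntegral.integral_comp_add_right (a := 0) (b := s)
    (fun u => w (φ u x)) t
  rw [zero_add] at h
  rw [← h]
  simp only [hφ.add]

omit hφ [MeasurableSpace Ω] in
theorem WW_zero (x : Ω) : WW φ w 0 x = 0 := by simp [WW]

include hw in
theorem WW_meas : Measurable fun p : ℝ × Ω => WW φ w p.1 p.2 := by
  have h1 : (fun p : ℝ × Ω => WW φ w p.1 p.2) =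
      fun p : ℝ × Ω => p.1 * ∫ u in (0 : ℝ)..1, w (φ (p.1 * u) p.2) := by
    funext p
    have h := intervalIntegral.mul_integral_comp_mul_left (a := 0) (b := 1)
      (f := fun u => w (φ u p.2)) p.1
    rw [h]
    simp [WW]
  rw [h1]
  apply measurable_fst.mul
  simp only [intervalIntegral.integral_of_le zero_le_one]
  have h2 : Measurable fun q : (ℝ × Ω) × ℝ => w (φ (q.1.1 * q.2) q.1.2) :=
    hw.comp (hφ.meas.comp (((measurable_fst.comp measurable_fst).mul measurable_snd).prodMk
      (measurable_snd.comp measurable_fst)))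
  exact (h2.stronglyMeasurable.integral_prod_right' (ν := volume.restrict (Ioc (0 : ℝ) 1))
    ).measurable

include hw in
theorem WW_meas_t (t : ℝ) : Measurable (WW φ w t) :=
  (hφ.WW_meas hw).comp (measurable_const.prodMk measurable_id)

omit hφ [MeasurableSpace Ω] in
include hK in
theorem WW_bound (t : ℝ) (x : Ω) : |WW φ w t x| ≤ K * |t| := by
  have := intervalIntegral.norm_integral_le_of_norm_le_const (a := 0) (b := t)
    (f := fun s => w (φ s x)) (C := K) (fun s _ => hK _)
  simpa [WW] using this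

/-- The time-one map. -/
def one : Ω ≃ᵐ Ω where
  toFun := φ 1
  invFun := φ (-1)
  left_inv x := by
    rw [← hφ.add]; simp [hφ.zero]
  right_inv x := by
    rw [← hφ.add]; simp [hφ.zero]
  measurable_toFun := hφ.meas_t 1
  measurable_invFun := hφ.meas_t (-1)

@[simp] theorem one_apply (x : Ω) : hφ.one x = φ 1 x := rfl

theorem one_iter (n : ℕ) (x : Ω) : hφ.one^[n] x = φ n x := by
  induction n with
  | zero => simp [hφ.zero]
  | succ n ih =>
    rw [Function.iterate_succ_apply', ih, one_apply, ← hφ.add]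
    congr 1; push_cast; ring

include hw hK in
theorem birkhoffSum_WW (n : ℕ) (x : Ω) :
    birkhoffSum hφ.one (WW φ w 1) n x = WW φ w n x := by
  induction n with
  | zero => simp [WW_zero]
  | succ n ih =>
    rw [birkhoffSum_succ, ih, hφ.one_iter]
    have := hφ.WW_add hw hK 1 n x
    rw [add_comm] at this
    push_cast
    exact this.symm

theorem integral_comp (t : ℝ) {f : Ω → ℝ} (hf : AEStronglyMeasurable f m) :
    ∫ x, f (φ t x) ∂m = ∫ x, f x ∂m := by
  have h5 := integral_map (μ := m) (φ := φ t) (hφ.meas_t t).aemeasurable (f := f)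
    (by rw [(hφ.mp t).map_eq]; exact hf)
  rw [(hφ.mp t).map_eq] at h5
  exact h5.symm

variable [IsProbabilityMeasure m]

include hw hK in
theorem integral_WW (h0 : ∫ x, w x ∂m = 0) (t : ℝ) : ∫ x, WW φ w t x ∂m = 0 := by
  unfold WW
  rw [← intervalIntegral_integral_swap]
  · have : ∀ s, ∫ x, w (φ s x) ∂m = 0 := fun s => by
      rw [hφ.integral_comp s hw.aestronglyMeasurable, h0]
    simp [this]
  · have : IsFiniteMeasure (volume.restrict (uIoc 0 t)) := by
      rw [uIoc]; infer_instance
    refine Integrable.of_bound ?_ K (Eventually.of_forall fun p => hK _)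
    exact (hw.comp hφ.meas).aestronglyMeasurable

/-- Fubini for a flow and an integrable function. -/
theorem integrable_prod {ψ : Ω → ℝ} (hψm : Measurable ψ) (hψ : Integrable ψ m) (a b : ℝ) :
    Integrable (fun p : ℝ × Ω => ψ (φ p.1 p.2)) ((volume.restrict (Ioc a b)).prod m) := by
  have hm : Measurable fun p : ℝ × Ω => ψ (φ p.1 p.2) := hψm.comp hφ.meas
  rw [integrable_prod_iff hm.aestronglyMeasurable]
  constructor
  · exact Eventually.of_forall fun s => (hφ.mp s).integrable_comp_of_integrable hψ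
  · have : (fun s => ∫ x, ‖ψ (φ s x)‖ ∂m) = fun _ => ∫ x, ‖ψ x‖ ∂m := by
      funext s
      exact hφ.integral_comp s hψm.norm.aestronglyMeasurable
    change Integrable (fun s => ∫ x, ‖ψ (φ s x)‖ ∂m) _
    rw [this]
    exact integrable_const _

theorem ae_integrableOn {ψ : Ω → ℝ} (hψm : Measurable ψ) (hψ : Integrable ψ m) :
    ∀ᵐ x ∂m, ∀ a b : ℝ, IntervalIntegrable (fun s => ψ (φ s x)) volume a b := by
  have h1 : ∀ᵐ x ∂m, ∀ N : ℕ, IntegrableOn (fun s => ψ (φ s x)) (Ioc (-(N : ℝ)) N) volume := by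
    rw [ae_all_iff]
    intro N
    have h := (hφ.integrable_prod hψm hψ (-(N : ℝ)) N).prod_left_ae
    exact h
  filter_upwards [h1] with x hx a b
  obtain ⟨N, hN⟩ := exists_nat_ge (max |a| |b|)
  have ha := (le_max_left |a| |b|).trans hN
  have hb := (le_max_right |a| |b|).trans hN
  rw [abs_le] at ha hb
  rw [intervalIntegrable_iff]
  refine (hx N).mono_set ?_
  intro s hs
  rw [uIoc, mem_Ioc] at hs
  refine ⟨lt_of_le_of_lt (le_min ha.1 hb.1) hs.1, hs.2.trans (max_le ha.2 hb.2)⟩

omit [IsProbabilityMeasure m] in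
include hw hK in
/-- The shifted integral of an almost periodic function `s ↦ ψ (φ_s x) - W_s x`. -/
theorem shift_eq {ψ : Ω → ℝ} {x : Ω}
    (hx : ∀ a b : ℝ, IntervalIntegrable (fun s => ψ (φ s x)) volume a b)
    (hp : ∀ᵐ s, ψ (φ 1 (φ s x)) - ψ (φ s x) = WW φ w 1 (φ s x)) (r : ℝ) :
    ∫ s in (0 : ℝ)..1, (ψ (φ s (φ r x)) - WW φ w s (φ r x)) =
      (∫ s in (0 : ℝ)..1, (ψ (φ s x) - WW φ w s x)) + WW φ w r x := by
  set θ : ℝ → ℝ := fun s => ψ (φ s x) - WW φ w s x with hθ
  have hWI : ∀ a b, IntervalIntegrable (fun s => WW φ w s x) volume a b := fun a b => by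
    apply Continuous.intervalIntegrable
    exact intervalIntegral.continuous_primitive
      (fun a b => hφ.intervalIntegrable_w hw hK a b x) 0
  have hθI : ∀ a b, IntervalIntegrable θ volume a b := fun a b => (hx a b).sub (hWI a b)
  have h1 : ∫ s in (0 : ℝ)..1, (ψ (φ s (φ r x)) - WW φ w s (φ r x)) =
      ∫ s in (0 : ℝ)..1, (θ (s + r) + WW φ w r x) := by
    congr 1
    funext s
    have := hφ.WW_add hw hK s r x
    simp only [hθ]
    rw [hφ.add]
    linarith
  have hθr : IntervalIntegrable (fun s => θ (s + r)) volume 0 1 := by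
    have := (hθI (0 + r) (1 + r)).comp_add_right r
    simpa using this
  rw [h1, intervalIntegral.integral_add hθr intervalIntegrable_const,
    intervalIntegral.integral_const]
  have h2 : ∫ s in (0 : ℝ)..1, θ (s + r) = ∫ s in r..(1 + r), θ s := by
    rw [intervalIntegral.integral_comp_add_right θ r, zero_add]
  have hper : ∀ᵐ s, θ (s + 1) = θ s := by
    filter_upwards [hp] with s hs
    have e1 := hφ.WW_add hw hK 1 s x
    have e2 : φ (s + 1) x = φ 1 (φ s x) := by rw [add_comm, hφ.add]
    simp only [hθ]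
    rw [e2, add_comm s 1, e1]
    linarith
  have h3 : ∫ s in (1 : ℝ)..(1 + r), θ s = ∫ s in (0 : ℝ)..r, θ s := by
    have e1 := intervalIntegral.integral_comp_add_right (a := 0) (b := r) θ 1
    rw [zero_add, add_comm r 1] at e1
    rw [← e1]
    apply intervalIntegral.integral_congr_ae
    filter_upwards [hper] with s hs _ using hs
  have h4 : ∫ s in r..(1 + r), θ s = ∫ s in (0 : ℝ)..1, θ s := by
    have e1 := integral_add_adjacent_intervals (hθI 0 r) (hθI r (1 + r))
    have e2 := integral_add_adjacent_intervals (hθI 0 1) (hθI 1 (1 + r))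
    linarith
  rw [h2, h4]
  simp

include hw hK in
/-- **A measurable solution of the cohomological equation of a flow.** -/
theorem exists_coboundary {C : ℝ} (h0 : ∫ x, w x ∂m = 0)
    (hC : ∀ n : ℕ, ∫ x, Real.exp (WW φ w n x) ∂m ≤ C) :
    ∃ ψ : Ω → ℝ, Measurable ψ ∧ Integrable ψ m ∧
      (∀ t, ∀ᵐ x ∂m, ψ (φ t x) - ψ x = WW φ w t x) ∧
      ∀ τ : Ω → Ω, MeasurePreserving τ m m → (∀ t x, τ (φ t x) = φ t (τ x)) →
        (∀ x, w (τ x) = w x) → ∀ᵐ x ∂m, ψ (τ x) = ψ x := by
  have hbirk : ∀ n x, birkhoffSum hφ.one (WW φ w 1) n x = WW φ w n x :=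
    hφ.birkhoffSum_WW hw hK
  obtain ⟨ψ, hψm, hψI, hψ, hτψ⟩ := exists_coboundary_symm (m := m) hφ.one (WW φ w 1)
    (K := K * |1|) (C := C) (hφ.mp 1) (hφ.WW_meas_t hw 1) (fun x => WW_bound hK 1 x)
    (hφ.integral_WW hw hK h0 1) (fun n => by simpa only [hbirk] using hC n)
  have hJ : Measurable fun p : ℝ × Ω => ψ (φ p.1 p.2) - WW φ w p.1 p.2 :=
    (hψm.comp hφ.meas).sub (hφ.WW_meas hw)
  have hmeq : MeasurableSet {p : ℝ × Ω |
      ψ (φ 1 (φ p.1 p.2)) - ψ (φ p.1 p.2) = WW φ w 1 (φ p.1 p.2)} := by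
    apply measurableSet_eq_fun
    · exact (hψm.comp ((hφ.meas_t 1).comp hφ.meas)).sub (hψm.comp hφ.meas)
    · exact (hφ.WW_meas_t hw 1).comp hφ.meas
  have hae : ∀ᵐ x ∂m, ∀ᵐ s, ψ (φ 1 (φ s x)) - ψ (φ s x) = WW φ w 1 (φ s x) := by
    rw [← Measure.ae_ae_comm hmeq]
    exact Eventually.of_forall fun s => (hφ.mp s).quasiMeasurePreserving.ae hψ
  have hint := hφ.ae_integrableOn hψm hψI
  refine ⟨fun x => ∫ s in (0 : ℝ)..1, (ψ (φ s x) - WW φ w s x), ?_, ?_, ?_, ?_⟩
  · simp only [intervalIntegral.integral_of_le zero_le_one]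
    exact ((hJ.comp measurable_swap).stronglyMeasurable.integral_prod_right'
      (ν := volume.restrict (Ioc (0 : ℝ) 1))).measurable
  · have h1 := hφ.integrable_prod hψm hψI 0 1
    have h2 : Integrable (fun p : ℝ × Ω => WW φ w p.1 p.2)
        ((volume.restrict (Ioc (0 : ℝ) 1)).prod m) := by
      refine Integrable.mono' (g := fun _ => K * 1) (integrable_const _)
        (hφ.WW_meas hw).aestronglyMeasurable ?_
      have h3 : ∀ᵐ s ∂(volume.restrict (Ioc (0 : ℝ) 1)), s ∈ Ioc (0 : ℝ) 1 :=
        ae_restrict_mem measurableSet_Ioc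
      have hK0 : 0 ≤ K := by
        obtain ⟨x⟩ : Nonempty Ω := by
          by_contra h
          rw [not_nonempty_iff] at h
          have : m univ = 0 := by simp [Subsingleton.elim (univ : Set Ω) ∅]
          simp at this
        exact (abs_nonneg _).trans (hK x)
      rw [Measure.ae_prod_iff_ae_ae]
      · filter_upwards [h3] with s hs
        refine Eventually.of_forall fun x => ?_
        refine (WW_bound hK s x).trans ?_
        apply mul_le_mul_of_nonneg_left _ hK0
        rw [abs_of_pos hs.1]; exact hs.2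
      · exact measurableSet_le (hφ.WW_meas hw).norm measurable_const
    have h3 := (h1.sub h2).swap.integral_prod_left
    simp only [intervalIntegral.integral_of_le zero_le_one]
    exact h3
  · intro r
    filter_upwards [hae, hint] with x h1 h2
    rw [hφ.shift_eq hw hK h2 h1 r]
    ring
  · intro τ hτ hc hwτ
    have h1 := hτψ τ hτ (fun x => hc 1 x) (fun x => by
      unfold WW
      congr 1; funext s; rw [← hc, hwτ])
    have hmeq2 : MeasurableSet {p : ℝ × Ω | ψ (τ (φ p.1 p.2)) = ψ (φ p.1 p.2)} :=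
      measurableSet_eq_fun (hψm.comp (hτ.measurable.comp hφ.meas)) (hψm.comp hφ.meas)
    have h2 : ∀ᵐ x ∂m, ∀ᵐ s, ψ (τ (φ s x)) = ψ (φ s x) := by
      rw [← Measure.ae_ae_comm hmeq2]
      exact Eventually.of_forall fun s => (hφ.mp s).quasiMeasurePreserving.ae h1
    filter_upwards [h2] with x hx
    apply intervalIntegral.integral_congr_ae
    filter_upwards [hx] with s hs _
    rw [← hc, hs]
    congr 1
    unfold WW
    congr 1; funext u; rw [← hc, hwτ]

end MFlow

end Vale.Agent.P207.Q
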