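import Mathlib

/-!
# P207 / Q: smooth maps through plots

`Dif X`: a diffeology on `X` given by germs of plots from finite-dimensional spaces (as in
`P231.Fm.Dif`, reproduced here without the differential forms). `D.Map D' f`: smooth maps. They are
closed under composition, products, and derivation in real parameters. (helper858)
-/

set_option linter.unusedSectionVars false
set_option linter.unusedVariables false

open Set Filter Topology
open scoped ContDiff

namespace Vale.Agent.P207.Q.Fl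

/-- `g` is smooth near `x` -/
def Sm {E F : Type*} [NormedAddCommGroup E] [NormedSpace ℝ E] [NormedAddCommGroup F]
    [NormedSpace ℝ F] (g : E → F) (x : E) : Prop := ∀ᶠ y in 𝓝 x, ContDiffAt ℝ ∞ g y

namespace Sm

variable {E F G : Type*} [NormedAddCommGroup E] [NormedSpace ℝ E] [NormedAddCommGroup F]
  [NormedSpace ℝ F] [NormedAddCommGroup G] [NormedSpace ℝ G]

theorem contDiffAt {g : E → F} {x : E} (h : Sm g x) : ContDiffAt ℝ ∞ g x := h.self_of_nhds

theorem continuousAt {g : E → F} {x : E} (h : Sm g x) : ContinuousAt g x :=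
  h.contDiffAt.continuousAt

theorem differentiableAt {g : E → F} {x : E} (h : Sm g x) : DifferentiableAt ℝ g x :=
  h.contDiffAt.differentiableAt (by simp)

theorem eventually {g : E → F} {x : E} (h : Sm g x) : ∀ᶠ y in 𝓝 x, Sm g y :=
  eventually_eventually_nhds.2 h

theorem comp {f : F → G} {g : E → F} {x : E} (hf : Sm f (g x)) (hg : Sm g x) : Sm (f ∘ g) x := by
  filter_upwards [hg, hg.continuousAt.eventually hf] with y h1 h2
  exact h2.comp y h1

theorem comp' {f : F → G} {g : E → F} {x : E} (hf : Sm f (g x)) (hg : Sm g x) :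
    Sm (fun y => f (g y)) x := hf.comp hg

theorem congr {f g : E → F} {x : E} (hf : Sm f x) (h : f =ᶠ[𝓝 x] g) : Sm g x := by
  filter_upwards [hf, h.eventuallyEq_nhds] with y h1 h2
  exact h1.congr_of_eventuallyEq h2.symm

theorem of_contDiff {g : E → F} (h : ContDiff ℝ ∞ g) (x : E) : Sm g x :=
  Eventually.of_forall fun _ => h.contDiffAt

theorem of_contDiffOn {g : E → F} {U : Set E} (h : ContDiffOn ℝ ∞ g U) (hU : IsOpen U) {x : E}
    (hx : x ∈ U) : Sm g x := by
  filter_upwards [hU.mem_nhds hx] with y hy using h.contDiffAt (hU.mem_nhds hy)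

theorem const (c : F) (x : E) : Sm (fun _ : E => c) x := of_contDiff contDiff_const x

theorem id' (x : E) : Sm (fun y : E => y) x := of_contDiff contDiff_id x

theorem clm (L : E →L[ℝ] F) (x : E) : Sm L x := of_contDiff L.contDiff x

theorem prodMk {f : E → F} {g : E → G} {x : E} (hf : Sm f x) (hg : Sm g x) :
    Sm (fun y => (f y, g y)) x := by
  filter_upwards [hf, hg] with y h1 h2 using h1.prodMk h2

theorem fst {f : E → F × G} {x : E} (hf : Sm f x) : Sm (fun y => (f y).1) x := by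
  filter_upwards [hf] with y h1 using h1.fst

theorem snd {f : E → F × G} {x : E} (hf : Sm f x) : Sm (fun y => (f y).2) x := by
  filter_upwards [hf] with y h1 using h1.snd

theorem fderiv {f : E → F} {x : E} (hf : Sm f x) : Sm (fderiv ℝ f) x := by
  filter_upwards [hf] with y h1 using h1.fderiv_right (m := ∞) (by simp)

theorem pi {ι : Type*} [Fintype ι] {F' : ι → Type*} [∀ i, NormedAddCommGroup (F' i)]
    [∀ i, NormedSpace ℝ (F' i)] {f : E → ∀ i, F' i} {x : E}
    (h : ∀ i, Sm (fun y => f y i) x) : Sm f x := by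
  have : ∀ᶠ y in 𝓝 x, ∀ i, ContDiffAt ℝ ∞ (fun y => f y i) y := eventually_all.2 h
  filter_upwards [this] with y hy
  exact contDiffAt_pi.2 hy

theorem apply {ι : Type*} [Fintype ι] {F' : ι → Type*} [∀ i, NormedAddCommGroup (F' i)]
    [∀ i, NormedSpace ℝ (F' i)] {f : E → ∀ i, F' i} {x : E} (h : Sm f x) (i : ι) :
    Sm (fun y => f y i) x := by
  filter_upwards [h] with y hy
  exact contDiffAt_pi.1 hy i

theorem add {f g : E → F} {x : E} (hf : Sm f x) (hg : Sm g x) : Sm (fun y => f y + g y) x := by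
  filter_upwards [hf, hg] with y h1 h2 using h1.add h2

theorem sub {f g : E → F} {x : E} (hf : Sm f x) (hg : Sm g x) : Sm (fun y => f y - g y) x := by
  filter_upwards [hf, hg] with y h1 h2 using h1.sub h2

theorem neg {f : E → F} {x : E} (hf : Sm f x) : Sm (fun y => -f y) x := by
  filter_upwards [hf] with y h1 using h1.neg

theorem smul {f : E → ℝ} {g : E → F} {x : E} (hf : Sm f x) (hg : Sm g x) :
    Sm (fun y => f y • g y) x := by
  filter_upwards [hf, hg] with y h1 h2 using h1.smul h2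

theorem mul {f g : E → ℝ} {x : E} (hf : Sm f x) (hg : Sm g x) : Sm (fun y => f y * g y) x := by
  filter_upwards [hf, hg] with y h1 h2 using h1.mul h2

theorem inv {f : E → ℝ} {x : E} (hf : Sm f x) (h0 : f x ≠ 0) : Sm (fun y => (f y)⁻¹) x := by
  filter_upwards [hf, hf.continuousAt.eventually_ne h0] with y h1 h2 using h1.inv h2

theorem sum {κ : Type*} {s : Finset κ} {f : κ → E → F} {x : E} (h : ∀ i ∈ s, Sm (f i) x) :
    Sm (fun y => ∑ i ∈ s, f i y) x := by
  classical
  induction s using Finset.induction_on with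
  | empty => simpa using const (0 : F) x
  | insert a s ha ih =>
    have h1 : Sm (fun y => f a y + ∑ i ∈ s, f i y) x :=
      (h a (Finset.mem_insert_self a s)).add (ih fun i hi => h i (Finset.mem_insert_of_mem hi))
    refine h1.congr (Eventually.of_forall fun y => ?_)
    simp only [Finset.sum_insert ha]

end Sm

/-- a diffeology, given by germs of plots -/
structure Dif (X : Type*) where
  /-- `u` is a plot near `x` -/
  At : ∀ {E : Type} [NormedAddCommGroup E] [NormedSpace ℝ E] [FiniteDimensional ℝ E],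
    (E → X) → E → Prop
  open' : ∀ {E : Type} [NormedAddCommGroup E] [NormedSpace ℝ E] [FiniteDimensional ℝ E]
    {u : E → X} {x : E}, At u x → ∀ᶠ y in 𝓝 x, At u y
  congr : ∀ {E : Type} [NormedAddCommGroup E] [NormedSpace ℝ E] [FiniteDimensional ℝ E]
    {u v : E → X} {x : E}, At u x → u =ᶠ[𝓝 x] v → At v x
  comp : ∀ {E F : Type} [NormedAddCommGroup E] [NormedSpace ℝ E] [FiniteDimensional ℝ E]
    [NormedAddCommGroup F] [NormedSpace ℝ F] [FiniteDimensional ℝ F]
    {u : F → X} {g : E → F} {x : E}, At u (g x) → Sm g x → At (u ∘ g) x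

/-- smooth maps -/
def Dif.Map {X Y : Type*} (D : Dif X) (D' : Dif Y) (f : X → Y) : Prop :=
  ∀ {E : Type} [NormedAddCommGroup E] [NormedSpace ℝ E] [FiniteDimensional ℝ E]
    {u : E → X} {x : E}, D.At u x → D'.At (f ∘ u) x

/-- the standard diffeology of a normed space -/
def Dif.lin (V : Type*) [NormedAddCommGroup V] [NormedSpace ℝ V] : Dif V where
  At u x := Sm u x
  open' h := h.eventually
  congr h hv := h.congr hv
  comp h hg := h.comp hg

/-- the product -/
def Dif.prod {X Y : Type*} (D : Dif X) (D' : Dif Y) : Dif (X × Y) where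
  At u x := D.At (fun y => (u y).1) x ∧ D'.At (fun y => (u y).2) x
  open' h := (D.open' h.1).and (D'.open' h.2)
  congr h hv := ⟨D.congr h.1 (hv.fun_comp Prod.fst), D'.congr h.2 (hv.fun_comp Prod.snd)⟩
  comp h hg := ⟨D.comp h.1 hg, D'.comp h.2 hg⟩

section Maps

variable {X Y Z : Type*} {D : Dif X} {D' : Dif Y} {D'' : Dif Z}
variable {W W' : Type*} [NormedAddCommGroup W] [NormedSpace ℝ W] [NormedAddCommGroup W']
  [NormedSpace ℝ W']

theorem Dif.Map.comp {f : X → Y} {g : Y → Z} (hg : D'.Map D'' g) (hf : D.Map D' f) :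
    D.Map D'' (g ∘ f) := fun h => hg (hf h)

theorem Dif.Map.comp' {f : X → Y} {g : Y → Z} (hg : D'.Map D'' g) (hf : D.Map D' f) :
    D.Map D'' (fun x => g (f x)) := fun h => hg (hf h)

theorem Dif.map_id : D.Map D id := fun h => h

theorem Dif.map_fst : (D.prod D').Map D Prod.fst := fun h => h.1

theorem Dif.map_snd : (D.prod D').Map D' Prod.snd := fun h => h.2

theorem Dif.Map.prodMk {f : X → Y} {g : X → Z} (hf : D.Map D' f) (hg : D.Map D'' g) :
    D.Map (D'.prod D'') (fun x => (f x, g x)) := fun h => ⟨hf h, hg h⟩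

theorem Dif.map_lin {f : W → W'} (hf : ContDiff ℝ ∞ f) :
    (Dif.lin W).Map (Dif.lin W') f := fun {E} _ _ _ {u x} h =>
  (Sm.of_contDiff hf (u x)).comp h

theorem Dif.map_const (D : Dif X) (c : W) : D.Map (Dif.lin W) (fun _ => c) :=
  fun {E} _ _ _ {u x} h => Sm.const c x

/-- constants are plots -/
theorem Dif.At_const {E : Type} [NormedAddCommGroup E] [NormedSpace ℝ E] [FiniteDimensional ℝ E]
    {F : Type} [NormedAddCommGroup F] [NormedSpace ℝ F] [FiniteDimensional ℝ F]
    {u : E → X} {x : E} (h : D.At u x) (y : F) : D.At (fun _ : F => u x) y := by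
  have : D.At (u ∘ fun _ : F => x) y := D.comp (x := y) (g := fun _ : F => x) h
    (Sm.of_contDiff contDiff_const y)
  exact this

theorem Dif.Map.add {f g : X → W} (hf : D.Map (Dif.lin W) f) (hg : D.Map (Dif.lin W) g) :
    D.Map (Dif.lin W) (fun x => f x + g x) := fun {E} _ _ _ {u x} h =>
  Sm.add (f := fun y => f (u y)) (g := fun y => g (u y)) (hf h) (hg h)

theorem Dif.Map.sub {f g : X → W} (hf : D.Map (Dif.lin W) f) (hg : D.Map (Dif.lin W) g) :
    D.Map (Dif.lin W) (fun x => f x - g x) := fun {E} _ _ _ {u x} h =>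
  Sm.sub (f := fun y => f (u y)) (g := fun y => g (u y)) (hf h) (hg h)

theorem Dif.Map.neg {f : X → W} (hf : D.Map (Dif.lin W) f) :
    D.Map (Dif.lin W) (fun x => -f x) := fun {E} _ _ _ {u x} h =>
  Sm.neg (f := fun y => f (u y)) (hf h)

theorem Dif.Map.smul {f : X → ℝ} {g : X → W} (hf : D.Map (Dif.lin ℝ) f)
    (hg : D.Map (Dif.lin W) g) : D.Map (Dif.lin W) (fun x => f x • g x) :=
  fun {E} _ _ _ {u x} h => Sm.smul (f := fun y => f (u y)) (g := fun y => g (u y)) (hf h) (hg h)

theorem Dif.Map.mul {f g : X → ℝ} (hf : D.Map (Dif.lin ℝ) f) (hg : D.Map (Dif.lin ℝ) g) :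
    D.Map (Dif.lin ℝ) (fun x => f x * g x) := fun {E} _ _ _ {u x} h =>
  Sm.mul (f := fun y => f (u y)) (g := fun y => g (u y)) (hf h) (hg h)

theorem Dif.Map.inv {f : X → ℝ} (hf : D.Map (Dif.lin ℝ) f) (h0 : ∀ x, f x ≠ 0) :
    D.Map (Dif.lin ℝ) (fun x => (f x)⁻¹) := fun {E} _ _ _ {u x} h =>
  Sm.inv (f := fun y => f (u y)) (hf h) (h0 (u x))

theorem Dif.Map.pi {ι : Type*} [Fintype ι] {F' : ι → Type*} [∀ i, NormedAddCommGroup (F' i)]
    [∀ i, NormedSpace ℝ (F' i)] {f : X → ∀ i, F' i}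
    (h : ∀ i, D.Map (Dif.lin (F' i)) (fun x => f x i)) : D.Map (Dif.lin (∀ i, F' i)) f :=
  fun {E} _ _ _ {u x} hu => Sm.pi (f := fun y => f (u y)) fun i => h i hu

theorem Dif.Map.apply {ι : Type*} [Fintype ι] {F' : ι → Type*} [∀ i, NormedAddCommGroup (F' i)]
    [∀ i, NormedSpace ℝ (F' i)] {f : X → ∀ i, F' i} (h : D.Map (Dif.lin (∀ i, F' i)) f) (i : ι) :
    D.Map (Dif.lin (F' i)) (fun x => f x i) :=
  fun {E} _ _ _ {u x} hu => Sm.apply (f := fun y => f (u y)) (h hu) i

/-- post-composition with a function smooth on an open set -/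
theorem Dif.Map.contDiffOn_comp {f : X → W} (hf : D.Map (Dif.lin W) f) {F : W → W'} {U : Set W}
    (hF : ContDiffOn ℝ ∞ F U) (hU : IsOpen U) (h : ∀ x, f x ∈ U) :
    D.Map (Dif.lin W') (fun x => F (f x)) := fun {E} _ _ _ {u x} hu =>
  Sm.comp (f := F) (g := fun y => f (u y)) (Sm.of_contDiffOn hF hU (h (u x))) (hf hu)

/-- the derivative in a real parameter of a jointly smooth function is jointly smooth -/
theorem Dif.map_deriv {f : X × ℝ → W} (hf : (D.prod (Dif.lin ℝ)).Map (Dif.lin W) f) :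
    (D.prod (Dif.lin ℝ)).Map (Dif.lin W) (fun p => deriv (fun r => f (p.1, r)) p.2) := by
  intro E _ _ _ u x hu
  have hs : Sm (fun y => (u y).2) x := hu.2
  have h0 : Sm (fun p : E × ℝ => f ((u p.1).1, p.2)) (x, (u x).2) :=
    hf (u := fun p : E × ℝ => ((u p.1).1, p.2))
      ⟨D.comp (u := fun y => (u y).1) (g := Prod.fst) (x := ((x, (u x).2) : E × ℝ)) hu.1
        (Sm.of_contDiff contDiff_fst _), Sm.of_contDiff contDiff_snd _⟩
  have h1 : Sm (fun p : E × ℝ => fderiv ℝ (fun p : E × ℝ => f ((u p.1).1, p.2)) p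
      ((0 : E), (1 : ℝ))) (x, (u x).2) :=
    Sm.comp (f := fun L : E × ℝ →L[ℝ] W => L ((0 : E), (1 : ℝ)))
      (Sm.of_contDiff (ContinuousLinearMap.apply ℝ W ((0 : E), (1 : ℝ))).contDiff _) h0.fderiv
  have h2 : Sm (fun y : E => fderiv ℝ (fun p : E × ℝ => f ((u p.1).1, p.2)) (y, (u y).2)
      ((0 : E), (1 : ℝ))) x :=
    Sm.comp (f := fun p : E × ℝ => fderiv ℝ (fun p : E × ℝ => f ((u p.1).1, p.2)) p
      ((0 : E), (1 : ℝ))) (g := fun y => (y, (u y).2)) h1 ((Sm.id' x).prodMk hs)
  refine h2.congr ?_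
  have h3 : ∀ᶠ y in 𝓝 x, DifferentiableAt ℝ (fun p : E × ℝ => f ((u p.1).1, p.2))
      (y, (u y).2) := by
    have h4 : ContinuousAt (fun y : E => (y, (u y).2)) x :=
      continuousAt_id.prodMk hs.continuousAt
    filter_upwards [h4.eventually h0.eventually] with y hy using hy.differentiableAt
  filter_upwards [h3] with y hy
  have h5 : HasDerivAt (fun r : ℝ => ((y, r) : E × ℝ)) ((0 : E), (1 : ℝ)) (u y).2 :=
    (hasDerivAt_const _ y).prodMk (hasDerivAt_id _)
  exact (HasFDerivAt.comp_hasDerivAt (f := fun r : ℝ => ((y, r) : E × ℝ)) (u y).2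
    hy.hasFDerivAt h5).deriv.symm

/-- slices in a real parameter are smooth -/
theorem Dif.contDiff_slice {f : X × ℝ → W} (hf : (D.prod (Dif.lin ℝ)).Map (Dif.lin W) f) {x : X}
    (hx : D.At (fun _ : ℝ => x) 0) : ContDiff ℝ ∞ (fun r => f (x, r)) := by
  refine contDiff_iff_contDiffAt.2 fun r => ?_
  have h : Sm (fun r : ℝ => f (x, r)) r :=
    hf (u := fun r : ℝ => (x, r)) ⟨Dif.At_const hx r, Sm.of_contDiff contDiff_id _⟩
  exact h.contDiffAt

end Maps

end Vale.Agent.P207.Q.Fl
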