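import Vale.Agent.P207.Q.WD3

/-!
# P207: the flip `(v, e₁, e₂) ↦ (-v, e₁, e₂)`
-/

open MeasureTheory Filter Topology Set

set_option linter.unusedSectionVars false

noncomputable section

namespace Vale.Agent.P207.Q.WD

open Vale.Agent.P207.Q.H413
open Vale.Agent.P207.Q.H892 (Curv)
open Vale.Agent.P207.Q.H183 (FlowS)

variable {P : Type*} [TopologicalSpace P] [CompactSpace P] [MeasurableSpace P] [BorelSpace P]
  {m : Measure P} [IsFiniteMeasure m] {c : Cal (intL m)} {C : Curv c}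

/-- the sign of a field under the flip -/
def sgn : Idx → ℝ
  | .X => -1
  | .H _ => 1
  | .V _ => -1
  | .R => 1

@[simp] theorem sgn_X : sgn .X = -1 := rfl
@[simp] theorem sgn_H (i : Fin 2) : sgn (.H i) = 1 := rfl
@[simp] theorem sgn_V (i : Fin 2) : sgn (.V i) = -1 := rfl
@[simp] theorem sgn_R : sgn .R = 1 := rfl

/-- The flip. -/
structure Flip (F : FlowS c) where
  σ : C(P, P)
  inv : ∀ x, σ (σ x) = x
  mp : MeasurePreserving σ m m
  flow : ∀ r x, F.φ r (σ x) = σ (F.φ (-r) x)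
  pb : c.S → c.S
  pb_apply : ∀ (f : c.S) x, ((pb f : c.S) : C(P, ℝ)) x = (f : C(P, ℝ)) (σ x)
  Y_pb : ∀ k (f : c.S), ((c.Y k (pb f) : c.S) : C(P, ℝ)) =
    sgn k • ((pb (c.Y k f) : c.S) : C(P, ℝ))

namespace Flip

variable {F : FlowS c} (σ : Flip F)

theorem pb_eq (f : c.S) : ((σ.pb f : c.S) : C(P, ℝ)) = (f : C(P, ℝ)).comp σ.σ :=
  ContinuousMap.ext fun x => σ.pb_apply f x

/-- pull-back of jets by the flip -/
theorem jet {f : C(P, ℝ)} {d : Idx → C(P, ℝ)} (hf : Jet c f d) :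
    Jet c (f.comp σ.σ) (fun k => sgn k • (d k).comp σ.σ) := by
  obtain ⟨u, hu, hu'⟩ := hf
  refine ⟨fun n => σ.pb (u n), ?_, fun k => ?_⟩
  · simp only [pb_eq]
    exact ((ContinuousMap.continuous_precomp σ.σ).tendsto _).comp hu
  · simp only [σ.Y_pb, pb_eq]
    exact (((ContinuousMap.continuous_precomp σ.σ).tendsto _).comp (hu' k)).const_smul _

/-- change of variables -/
theorem intL_comp (f : C(P, ℝ)) : intL m (f.comp σ.σ) = intL m f := by
  simp only [intL_apply, ContinuousMap.comp_apply]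
  have h1 := σ.mp.integral_comp' (f := (MeasurableEquiv.mk
    ⟨σ.σ, σ.σ, σ.inv, σ.inv⟩ σ.σ.continuous.measurable σ.σ.continuous.measurable : P ≃ᵐ P))
    (g := fun x => f x)
  simpa using h1

theorem integral_comp (f : P → ℝ) : ∫ x, f (σ.σ x) ∂m = ∫ x, f x ∂m := by
  have h1 := σ.mp.integral_comp' (f := (MeasurableEquiv.mk
    ⟨σ.σ, σ.σ, σ.inv, σ.inv⟩ σ.σ.continuous.measurable σ.σ.continuous.measurable : P ≃ᵐ P))
    (g := f)
  simpa using h1

variable (D : UData c C)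

/-- `U^-`, minus the stable tensor -/
def US (i j : Fin 2) : C(P, ℝ) := (D.U i j).comp σ.σ
def dUS (i j : Fin 2) (k : Idx) : C(P, ℝ) := sgn k • (D.dU i j k).comp σ.σ

theorem jUS (i j : Fin 2) : Jet c (σ.US D i j) (σ.dUS D i j) := σ.jet (D.jU i j)

/-- `S = U + U^-` -/
def SS (i j : Fin 2) : C(P, ℝ) := D.U i j + σ.US D i j
def dSS (i j : Fin 2) (k : Idx) : C(P, ℝ) := D.dU i j k + σ.dUS D i j k

theorem jSS (i j : Fin 2) : Jet c (σ.SS D i j) (σ.dSS D i j) := (D.jU i j).add (σ.jUS D i j)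

theorem symSS : σ.SS D 1 0 = σ.SS D 0 1 := by simp only [SS, US, D.symU]

theorem symdSS (k : Idx) : σ.dSS D 1 0 k = σ.dSS D 0 1 k := by
  simp only [dSS, dUS, D.symd]

theorem SS_apply (i j : Fin 2) (x : P) : σ.SS D i j x = D.U i j x + D.U i j (σ.σ x) := rfl

/-- `X S = (U^-)² - U²` if `K ∘ σ = K` -/
theorem dSS_X (hK : ∀ i j x, C.K i j (σ.σ x) = C.K i j x) (i j : Fin 2) :
    σ.dSS D i j .X = ∑ k, σ.US D i k * σ.US D k j - ∑ k, D.U i k * D.U k j := by
  refine ContinuousMap.ext fun x => ?_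
  simp only [dSS, dUS, US, D.ric, sgn_X, ContinuousMap.add_apply, ContinuousMap.smul_apply,
    ContinuousMap.comp_apply, ContinuousMap.sub_apply, hK, Fin.sum_univ_two,
    ContinuousMap.mul_apply, smul_eq_mul]
  ring

theorem det_pos {lam : ℝ} (hl : 0 < lam)
    (pos : ∀ x a b, lam * (a ^ 2 + b ^ 2) ≤ D.U 0 0 x * a ^ 2 + 2 * D.U 0 1 x * (a * b) +
      D.U 1 1 x * b ^ 2) (x : P) :
    0 < σ.SS D 0 0 x * σ.SS D 1 1 x - σ.SS D 0 1 x * σ.SS D 0 1 x := by
  have h : ∀ a b : ℝ, 2 * lam * (a ^ 2 + b ^ 2) ≤ σ.SS D 0 0 x * a ^ 2 +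
      2 * σ.SS D 0 1 x * (a * b) + σ.SS D 1 1 x * b ^ 2 := by
    intro a b
    have h1 := pos x a b
    have h2 := pos (σ.σ x) a b
    simp only [SS_apply]
    linarith
  set A := σ.SS D 0 0 x
  set B := σ.SS D 0 1 x
  set E := σ.SS D 1 1 x
  have hA : 2 * lam ≤ A := by have := h 1 0; nlinarith
  have h3 := h (-B) A
  have h4 : A * (-B) ^ 2 + 2 * B * (-B * A) + E * A ^ 2 = A * (A * E - B * B) := by ring
  rw [h4] at h3
  have h5 : 0 < 2 * lam * ((-B) ^ 2 + A ^ 2) := by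
    have : 0 < A ^ 2 := by nlinarith
    nlinarith [sq_nonneg B]
  exact (mul_pos_iff_of_pos_left (by linarith)).1 (h5.trans_le h3)

end Flip

end Vale.Agent.P207.Q.WD
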