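import Vale.Agent.P207.Q.Flip

/-!
# P207: the flipped solution
-/

open MeasureTheory Filter Topology Set

set_option linter.unusedSectionVars false

noncomputable section

namespace Vale.Agent.P207.Q.WD

open Vale.Agent.P207.Q.H413
open Vale.Agent.P207.Q.H892 (Curv)
open Vale.Agent.P207.Q.H183 (FlowS)

variable {P : Type*} [TopologicalSpace P] [CompactSpace P] [MeasurableSpace P] [BorelSpace P]
  {m : Measure P} [IsProbabilityMeasure m] {c : Cal (intL m)} {C : Curv c} {F : FlowS c}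
  (σ : Flip F) (D : UData c C)

/-- `X log det S = tr U^- - tr U` -/
theorem trace_X (hK : ∀ i j x, C.K i j (σ.σ x) = C.K i j x) {T : Fin 2 → Fin 2 → C(P, ℝ)}
    (symT : T 1 0 = T 0 1)
    (hT : ∀ i l, ∑ j, T i j * σ.SS D j l = if i = l then 1 else 0) (x : P) :
    (∑ i, ∑ j, T i j * σ.dSS D i j .X) x =
      (σ.US D 0 0 x + σ.US D 1 1 x) - (D.U 0 0 x + D.U 1 1 x) := by
  have h00 := congrArg (fun f : C(P, ℝ) => f x) (hT 0 0)
  have h01 := congrArg (fun f : C(P, ℝ) => f x) (hT 0 1)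
  have h10 := congrArg (fun f : C(P, ℝ) => f x) (hT 1 0)
  have h11 := congrArg (fun f : C(P, ℝ) => f x) (hT 1 1)
  have e1 : σ.US D 1 0 = σ.US D 0 1 := by simp only [Flip.US, D.symU]
  simp only [Fin.sum_univ_two, Flip.SS, D.symU, e1, symT, if_true, zero_ne_one, one_ne_zero,
    if_false, ContinuousMap.add_apply, ContinuousMap.mul_apply, ContinuousMap.one_apply,
    ContinuousMap.zero_apply] at h00 h01 h10 h11
  simp only [σ.dSS_X D hK, Fin.sum_univ_two, D.symU, e1, symT, ContinuousMap.add_apply,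
    ContinuousMap.mul_apply, ContinuousMap.sub_apply]
  linear_combination (σ.US D 0 0 x - D.U 0 0 x) * h00 + (σ.US D 1 1 x - D.U 1 1 x) * h11 +
    (σ.US D 0 1 x - D.U 0 1 x) * (h01 + h10)

/-- **The flipped solution**: `- ψ ∘ σ - log det S` solves the same equation. -/
theorem Sol.flip {h : ℝ} {ψ : P → ℝ} (hψ : Sol D F h ψ)
    (hK : ∀ i j x, C.K i j (σ.σ x) = C.K i j x) {T : Fin 2 → Fin 2 → C(P, ℝ)} {L : C(P, ℝ)}
    (symT : T 1 0 = T 0 1)
    (hT : ∀ i l, ∑ j, T i j * σ.SS D j l = if i = l then 1 else 0)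
    (hL : Jet c L (fun k => ∑ i, ∑ j, T i j * σ.dSS D i j k))
    (hLa : ∀ ε > 0, ∃ f : c.S, c.Y .R f = 0 ∧ ∫ x, |L x - (f : C(P, ℝ)) x| ∂m ≤ ε) :
    Sol D F h (fun x => - ψ (σ.σ x) - L x) where
  meas := ((hψ.meas.comp σ.σ.continuous.measurable).neg).sub L.continuous.measurable
  int := ((σ.mp.integrable_comp hψ.int.aestronglyMeasurable).2 hψ.int).neg.sub
    (integrable_cont L.continuous)
  coc := by
    intro r
    have h1 : ∀ᵐ x ∂m, ψ (F.φ (-r) (σ.σ x)) - ψ (σ.σ x) =
        WW F.φ (fun x => tt D x - h) (-r) (σ.σ x) :=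
      σ.mp.quasiMeasurePreserving.ae (hψ.coc (-r))
    filter_upwards [h1] with x hx
    have h2 : F.φ (-r) (σ.σ x) = σ.σ (F.φ r x) := by rw [σ.flow, neg_neg]
    rw [h2] at hx
    have h3 : WW F.φ (fun x => tt D x - h) (-r) (σ.σ x) =
        - ∫ s in (0 : ℝ)..r, (tt D (σ.σ (F.φ s x)) - h) := by
      unfold WW
      have h4 := intervalIntegral.integral_comp_neg (a := 0) (b := r)
        (fun s => tt D (F.φ s (σ.σ x)) - h)
      rw [neg_zero] at h4
      rw [intervalIntegral.integral_symm, ← h4]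
      congr 1
      refine intervalIntegral.integral_congr fun s _ => ?_
      simp only [σ.flow, neg_neg]
    have hLd : ∀ s, HasDerivAt (fun s => L (F.φ s x))
        ((σ.US D 0 0 (F.φ s x) + σ.US D 1 1 (F.φ s x)) -
          (D.U 0 0 (F.φ s x) + D.U 1 1 (F.φ s x))) s := by
      intro s
      have := jet_hasDerivAt F hL x s
      rwa [trace_X σ D hK symT hT] at this
    have hcx : Continuous fun s => F.φ s x := F.cont.comp (continuous_id.prodMk continuous_const)
    have hcσ : Continuous fun s => σ.σ (F.φ s x) := σ.σ.continuous.comp hcx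
    have i1 : IntervalIntegrable (fun s => tt D (σ.σ (F.φ s x)) - h) volume 0 r :=
      (((tt D).continuous.comp hcσ).sub continuous_const).intervalIntegrable _ _
    have i2 : IntervalIntegrable (fun s => (σ.US D 0 0 (F.φ s x) + σ.US D 1 1 (F.φ s x)) -
          (D.U 0 0 (F.φ s x) + D.U 1 1 (F.φ s x))) volume 0 r := by
      apply Continuous.intervalIntegrable
      fun_prop
    have h5 := intervalIntegral.integral_eq_sub_of_hasDerivAt (fun s _ => hLd s) i2
    rw [F.zero] at h5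
    have h6 : WW F.φ (fun x => tt D x - h) r x =
        (∫ s in (0 : ℝ)..r, (tt D (σ.σ (F.φ s x)) - h)) -
          ∫ s in (0 : ℝ)..r, ((σ.US D 0 0 (F.φ s x) + σ.US D 1 1 (F.φ s x)) -
          (D.U 0 0 (F.φ s x) + D.U 1 1 (F.φ s x))) := by
      rw [← intervalIntegral.integral_sub i1 i2]
      unfold WW
      refine intervalIntegral.integral_congr fun s _ => ?_
      simp only [tt, Flip.US, ContinuousMap.add_apply, ContinuousMap.comp_apply]
      ring
    rw [h6, h5]
    rw [h3] at hx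
    linarith
  app := by
    intro ε hε
    obtain ⟨f₁, h1, h1'⟩ := hψ.app (ε / 2) (half_pos hε)
    obtain ⟨f₂, h2, h2'⟩ := hLa (ε / 2) (half_pos hε)
    refine ⟨- σ.pb f₁ - f₂, ?_, ?_⟩
    · have h3 : c.Y .R (σ.pb f₁) = 0 := by
        apply Subtype.ext
        rw [σ.Y_pb, h1, σ.pb_eq]
        exact ContinuousMap.ext fun x => by simp
      rw [map_sub, map_neg, h3, h2]
      simp
    · have h3 : Integrable (fun x => |ψ x - (f₁ : C(P, ℝ)) x|) m :=
        (hψ.int.sub (integrable_cont (f₁ : C(P, ℝ)).continuous)).abs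
      have h3' : Integrable (fun x => |ψ (σ.σ x) - (f₁ : C(P, ℝ)) (σ.σ x)|) m :=
        (σ.mp.integrable_comp h3.aestronglyMeasurable).2 h3
      have h4 : Integrable (fun x => |L x - (f₂ : C(P, ℝ)) x|) m :=
        ((integrable_cont L.continuous).sub (integrable_cont (f₂ : C(P, ℝ)).continuous)).abs
      have h5 := σ.integral_comp (fun x => |ψ x - (f₁ : C(P, ℝ)) x|)
      calc ∫ x, |(- ψ (σ.σ x) - L x) - ((- σ.pb f₁ - f₂ : c.S) : C(P, ℝ)) x| ∂m
          ≤ ∫ x, (|ψ (σ.σ x) - (f₁ : C(P, ℝ)) (σ.σ x)| + |L x - (f₂ : C(P, ℝ)) x|) ∂m := by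
            refine integral_mono ?_ (h3'.add h4) fun x => ?_
            · exact ((((σ.mp.integrable_comp hψ.int.aestronglyMeasurable).2 hψ.int).neg.sub
                (integrable_cont L.continuous)).sub (integrable_cont
                ((- σ.pb f₁ - f₂ : c.S) : C(P, ℝ)).continuous)).abs
            · simp only [AddSubgroupClass.coe_sub, NegMemClass.coe_neg, ContinuousMap.sub_apply,
                ContinuousMap.neg_apply, σ.pb_apply]
              have e : -ψ (σ.σ x) - L x - (-(f₁ : C(P, ℝ)) (σ.σ x) - (f₂ : C(P, ℝ)) x) =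
                -(ψ (σ.σ x) - (f₁ : C(P, ℝ)) (σ.σ x)) - (L x - (f₂ : C(P, ℝ)) x) := by ring
              rw [e]
              refine (abs_sub _ _).trans ?_
              rw [abs_neg]
        _ = (∫ x, |ψ (σ.σ x) - (f₁ : C(P, ℝ)) (σ.σ x)| ∂m) + ∫ x, |L x - (f₂ : C(P, ℝ)) x| ∂m :=
            integral_add h3' h4
        _ ≤ ε := by
            rw [h5]
            linarith

end Vale.Agent.P207.Q.WD
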