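import Vale.Agent.P207.Q.WD3

/-!
# P207: from the vertical derivatives of `ψ` to `PsiData`
-/

open MeasureTheory Filter Topology Set

set_option linter.unusedSectionVars false

noncomputable section

namespace Vale.Agent.P207.Q.WD

open Vale.Agent.P207.Q.H413
open Vale.Agent.P207.Q.H892 (Curv)
open Vale.Agent.P207.Q.H183 (FlowS)

variable {P : Type*} [TopologicalSpace P] [CompactSpace P] [MeasurableSpace P] [BorelSpace P]
  {m : Measure P} [IsProbabilityMeasure m] {c : Cal (intL m)} {C : Curv c} {F : FlowS c}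
  {D : UData c C}

/-- `X ψ = t - h` weakly -/
theorem Sol.X_eq (hφ : MFlow m F.φ) {h : ℝ} {ψ : P → ℝ} (hψ : Sol D F h ψ) (f : c.S) :
    ∫ x, ψ x * ((c.Y .X f : c.S) : C(P, ℝ)) x ∂m = - ∫ x, (tt D x - h) * (f : C(P, ℝ)) x ∂m := by
  have hw : Measurable fun x => tt D x - h := ((tt D).continuous.sub continuous_const).measurable
  have hK : ∀ x, |tt D x - h| ≤ ‖tt D‖ + |h| := fun x =>
    (abs_sub _ _).trans (add_le_add ((tt D).norm_coe_le_norm x) le_rfl)
  have hcx : ∀ x, Continuous fun s => F.φ s x := fun x =>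
    F.cont.comp (continuous_id.prodMk continuous_const)
  refine hφ.integral_flow_deriv hw hK hψ.meas hψ.int hψ.coc
    (χ := fun x => (f : C(P, ℝ)) x) (χ' := fun x => ((c.Y .X f : c.S) : C(P, ℝ)) x)
    (B := max ‖(f : C(P, ℝ))‖ ‖((c.Y .X f : c.S) : C(P, ℝ))‖)
    (f : C(P, ℝ)).continuous.measurable
    (fun x => ((f : C(P, ℝ)).norm_coe_le_norm x).trans (le_max_left _ _))
    (fun x => (((c.Y .X f : c.S) : C(P, ℝ)).norm_coe_le_norm x).trans (le_max_right _ _))
    (fun x s => F.deriv f x s)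
    (fun x => ((tt D).continuous.comp (hcx x)).sub continuous_const)

/-- `R ψ = 0` weakly -/
theorem Sol.R_eq {h : ℝ} {ψ : P → ℝ} (hψ : Sol D F h ψ) (f : c.S) :
    ∫ x, ψ x * ((c.Y .R f : c.S) : C(P, ℝ)) x ∂m = 0 := by
  set B := ‖((c.Y .R f : c.S) : C(P, ℝ))‖ with hB
  have hB0 : 0 ≤ B := norm_nonneg _
  have key : ∀ ε > 0, |∫ x, ψ x * ((c.Y .R f : c.S) : C(P, ℝ)) x ∂m| ≤ ε * B := by
    intro ε hε
    obtain ⟨g, hg, hg'⟩ := hψ.app ε hε
    have h1 : ∫ x, (g : C(P, ℝ)) x * ((c.Y .R f : c.S) : C(P, ℝ)) x ∂m = 0 := by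
      have h2 := (Jet.of_mem (c := c) g).int_mul (Jet.of_mem f) .R
      rw [hg] at h2
      simp only [ZeroMemClass.coe_zero, mul_zero, map_zero, neg_zero] at h2
      rw [intL_apply] at h2
      simpa using h2
    have h3 : ∫ x, ψ x * ((c.Y .R f : c.S) : C(P, ℝ)) x ∂m =
        ∫ x, (ψ x - (g : C(P, ℝ)) x) * ((c.Y .R f : c.S) : C(P, ℝ)) x ∂m := by
      have e : ∀ x, (ψ x - (g : C(P, ℝ)) x) * ((c.Y .R f : c.S) : C(P, ℝ)) x =
          ψ x * ((c.Y .R f : c.S) : C(P, ℝ)) x -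
            (g : C(P, ℝ)) x * ((c.Y .R f : c.S) : C(P, ℝ)) x := fun x => by ring
      simp only [e]
      rw [integral_sub (integrable_mul_cont hψ.int _)
        (integrable_mul_cont (integrable_cont (g : C(P, ℝ)).continuous) _), h1, sub_zero]
    have h4 : Integrable (fun x => |ψ x - (g : C(P, ℝ)) x|) m :=
      (hψ.int.sub (integrable_cont (g : C(P, ℝ)).continuous)).abs
    rw [h3]
    calc |∫ x, (ψ x - (g : C(P, ℝ)) x) * ((c.Y .R f : c.S) : C(P, ℝ)) x ∂m|
        ≤ ∫ x, |ψ x - (g : C(P, ℝ)) x| * B ∂m := by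
          rw [← Real.norm_eq_abs]
          refine norm_integral_le_of_norm_le (h4.mul_const B) (Eventually.of_forall fun x => ?_)
          rw [norm_mul, Real.norm_eq_abs]
          exact mul_le_mul_of_nonneg_left (((c.Y .R f : c.S) : C(P, ℝ)).norm_coe_le_norm x)
            (abs_nonneg _)
      _ = (∫ x, |ψ x - (g : C(P, ℝ)) x| ∂m) * B := by rw [integral_mul_const]
      _ ≤ ε * B := mul_le_mul_of_nonneg_right hg' hB0
  have h0 : |∫ x, ψ x * ((c.Y .R f : c.S) : C(P, ℝ)) x ∂m| ≤ 0 := by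
    refine le_of_forall_pos_le_add fun δ hδ => ?_
    rw [zero_add]
    refine (key (δ / (B + 1)) (by positivity)).trans ?_
    rw [div_mul_eq_mul_div, div_le_iff₀ (by positivity)]
    nlinarith
  exact abs_nonpos_iff.1 h0

/-- weak derivatives of `ψ` tested against jets -/
theorem jet_weak {ψ : P → ℝ} (hψ : Integrable ψ m) {k : Idx} {a : C(P, ℝ)}
    (ha : ∀ f : c.S, ∫ x, ψ x * ((c.Y k f : c.S) : C(P, ℝ)) x ∂m = - intL m (a * f))
    {g : C(P, ℝ)} {d : Idx → C(P, ℝ)} (hg : Jet c g d) :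
    ∫ x, ψ x * (d k) x ∂m = - intL m (a * g) := by
  obtain ⟨u, hu, hu'⟩ := hg
  have h1 : Tendsto (fun n => psiL m ψ hψ ((c.Y k (u n) : c.S) : C(P, ℝ))) atTop
      (𝓝 (psiL m ψ hψ (d k))) := ((psiL m ψ hψ).continuous.tendsto _).comp (hu' k)
  have h2 : Tendsto (fun n => - intL m (a * (u n : C(P, ℝ)))) atTop (𝓝 (- intL m (a * g))) :=
    (((intL m).continuous.tendsto _).comp (hu.const_mul a)).neg
  rw [← psiL_apply (hψ := hψ)]
  exact tendsto_nhds_unique h1 (h2.congr fun n => (ha (u n)).symm)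

/-- **All weak derivatives of `ψ` from the vertical ones.** -/
def Sol.psiData [FirstCountableTopology P] [m.IsOpenPosMeasure] {lam : ℝ} (H : Hyp D F lam)
    (hφ : MFlow m F.φ) (wpx : ∀ F F' : C(P, ℝ), WX c F F' → intL m (F * F') = 0)
    {h : ℝ} {ψ : P → ℝ} (hψ : Sol D F h ψ) (aV : Fin 2 → C(P, ℝ))
    (hV : ∀ i (f : c.S), ∫ x, ψ x * ((c.Y (.V i) f : c.S) : C(P, ℝ)) x ∂m =
      - intL m (aV i * f)) :
    PsiData D (psiL m ψ hψ.int) h where
  a k := match k with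
    | .X => D.U 0 0 + D.U 1 1 - algebraMap ℝ C(P, ℝ) h
    | .H i => - (∑ j, D.dU i j (.V j)) - ∑ j, D.U i j * aV j
    | .V i => aV i
    | .R => 0
  weak k f := by
    rw [psiL_apply]
    match k with
    | .X =>
      rw [hψ.X_eq hφ f, intL_apply]
      rfl
    | .V i => exact hV i f
    | .R => rw [hψ.R_eq f]; simp
    | .H i =>
      have h1 := W1 D H hφ wpx hψ (Jet.of_mem (c := c) f) i
      have h2 : ∀ j, _ := fun j => jet_weak hψ.int (hV j) ((D.jU i j).mul (Jet.of_mem f))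
      have h20 := h2 0
      have h21 := h2 1
      have e : ((c.Y (.H i) f : c.S) : C(P, ℝ)) +
          ∑ j, D.U i j * ((c.Y (.V j) f : c.S) : C(P, ℝ)) + pp D i * (f : C(P, ℝ)) =
          ((c.Y (.H i) f : c.S) : C(P, ℝ)) +
          ((D.U i 0 * ((c.Y (.V 0) f : c.S) : C(P, ℝ)) +
            (f : C(P, ℝ)) * D.dU i 0 (.V 0)) +
          (D.U i 1 * ((c.Y (.V 1) f : c.S) : C(P, ℝ)) +
            (f : C(P, ℝ)) * D.dU i 1 (.V 1))) := by
        simp only [pp, Fin.sum_univ_two]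
        ring
      rw [← psiL_apply (hψ := hψ.int)] at h1 h20 h21
      rw [e, map_add, map_add, h20, h21, psiL_apply] at h1
      have e2 : (- (∑ j, D.dU i j (.V j)) - ∑ j, D.U i j * aV j) * (f : C(P, ℝ)) =
          - (pp D i * f) - (aV 0 * (D.U i 0 * f) + aV 1 * (D.U i 1 * f)) := by
        simp only [pp, Fin.sum_univ_two]; ring
      show ∫ x, ψ x * ((c.Y (.H i) f : c.S) : C(P, ℝ)) x ∂m =
        - intL m ((- (∑ j, D.dU i j (.V j)) - ∑ j, D.U i j * aV j) * f)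
      rw [e2, map_sub, map_neg, map_add]
      linarith
  aX := rfl
  aR := rfl
  aH i := rfl

end Vale.Agent.P207.Q.WD
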