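import Vale.Agent.P207.Q.CobFlow

/-!
# P207: weak derivatives of a solution of the cohomological equation, abstract form
-/

open MeasureTheory Filter Set Topology
open scoped ENNReal NNReal

noncomputable section

namespace Vale.Agent.P207.Q

variable {Ω : Type*} [MeasurableSpace Ω]

namespace MFlow

variable {m : Measure Ω} [IsProbabilityMeasure m] {φ : ℝ → Ω → Ω} (hφ : MFlow m φ) {w : Ω → ℝ}
  (hw : Measurable w) {K : ℝ} (hK : ∀ x, |w x| ≤ K)

include hφ hw hK

/-- **Weak derivatives of a transfer function.**  `ψ` is integrable and solves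
`ψ ∘ φ_t - ψ = ∫_0^t w ∘ φ_s`.  The functions `δ n` (the adjoint derivatives of a test function
along the `n`-th approximation of the unstable direction) are uniformly bounded and converge to
`δ'`; they are asymptotically orthogonal to `g ∘ φ_{-n}` for `g` in a set `𝒮` approximating `ψ` in
`L¹`, and their integrals against the cocycle converge to `q`.  Then `∫ ψ δ' = q`. -/
theorem integral_eq_of_approx {ψ : Ω → ℝ} (hψm : Measurable ψ) (hψ : Integrable ψ m)
    (hcob : ∀ t, ∀ᵐ x ∂m, ψ (φ t x) - ψ x = WW φ w t x)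
    {r : ℕ → ℝ} {δ : ℕ → Ω → ℝ} {δ' : Ω → ℝ} {B : ℝ}
    (hδm : ∀ n, Measurable (δ n)) (hδB : ∀ n x, |δ n x| ≤ B)
    (hδ : ∀ᵐ x ∂m, Tendsto (fun n => δ n x) atTop (𝓝 (δ' x)))
    (𝒮 : Set (Ω → ℝ)) (h𝒮 : ∀ g ∈ 𝒮, Measurable g ∧ Integrable g m)
    (happ : ∀ ε > 0, ∃ g ∈ 𝒮, ∫ x, |ψ x - g x| ∂m ≤ ε)
    (h1 : ∀ g ∈ 𝒮, Tendsto (fun n => ∫ x, g (φ (-r n) x) * δ n x ∂m) atTop (𝓝 0)) {q : ℝ}
    (h2 : Tendsto (fun n => ∫ x, WW φ w (r n) (φ (-r n) x) * δ n x ∂m) atTop (𝓝 q)) :
    ∫ x, ψ x * δ' x ∂m = q := by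
  have hB0 : 0 ≤ B := by
    obtain ⟨x⟩ : Nonempty Ω := by
      by_contra h
      rw [not_nonempty_iff] at h
      have : m univ = 0 := by simp [Subsingleton.elim (univ : Set Ω) ∅]
      simp at this
    exact (abs_nonneg _).trans (hδB 0 x)
  have hmul : ∀ {f : Ω → ℝ}, Integrable f m → ∀ n, Integrable (fun x => f x * δ n x) m :=
    fun {f} hf n => by
      have := hf.bdd_mul (c := B) (hδm n).aestronglyMeasurable
        (Eventually.of_forall fun x => hδB n x)
      simpa [mul_comm] using this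
  -- dominated convergence
  have hlim : Tendsto (fun n => ∫ x, ψ x * δ n x ∂m) atTop (𝓝 (∫ x, ψ x * δ' x ∂m)) := by
    apply tendsto_integral_of_dominated_convergence (fun x => |ψ x| * B)
    · intro n; exact (hψm.mul (hδm n)).aestronglyMeasurable
    · exact hψ.abs.mul_const B
    · intro n
      refine Eventually.of_forall fun x => ?_
      rw [Real.norm_eq_abs, abs_mul]
      exact mul_le_mul_of_nonneg_left (hδB n x) (abs_nonneg _)
    · filter_upwards [hδ] with x hx
      exact hx.const_mul (ψ x)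
  -- the splitting
  have hback : ∀ n, ∀ᵐ x ∂m, ψ x = ψ (φ (-r n) x) + WW φ w (r n) (φ (-r n) x) := fun n => by
    have h := (hφ.mp (-r n)).quasiMeasurePreserving.ae (hcob (r n))
    filter_upwards [h] with x hx
    rw [← hφ.add, add_neg_cancel, hφ.zero] at hx
    linarith
  have hψn : ∀ n, Integrable (fun x => ψ (φ (-r n) x)) m := fun n =>
    (hφ.mp (-r n)).integrable_comp_of_integrable hψ
  have hWn : ∀ n, Integrable (fun x => WW φ w (r n) (φ (-r n) x)) m := fun n => by
    apply (hφ.mp (-r n)).integrable_comp_of_integrable (g := WW φ w (r n))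
    exact Integrable.of_bound (hφ.WW_meas_t hw _).aestronglyMeasurable (K * |r n|)
      (Eventually.of_forall fun x => WW_bound hK (r n) x)
  have hsplit : ∀ n, ∫ x, ψ x * δ n x ∂m =
      ∫ x, ψ (φ (-r n) x) * δ n x ∂m + ∫ x, WW φ w (r n) (φ (-r n) x) * δ n x ∂m := fun n => by
    rw [← integral_add (hmul (hψn n) n) (hmul (hWn n) n)]
    apply integral_congr_ae
    filter_upwards [hback n] with x hx
    nth_rewrite 1 [hx]
    ring
  have hzero : Tendsto (fun n => ∫ x, ψ (φ (-r n) x) * δ n x ∂m) atTop (𝓝 0) := by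
    rw [Metric.tendsto_atTop]
    intro ε hε
    obtain ⟨g, hg, hge⟩ := happ (ε / (2 * (B + 1))) (by positivity)
    obtain ⟨N, hN⟩ := Metric.tendsto_atTop.1 (h1 g hg) (ε / 2) (by positivity)
    refine ⟨N, fun n hn => ?_⟩
    have hN' := hN n hn
    rw [Real.dist_0_eq_abs] at hN' ⊢
    have hgn : Integrable (fun x => g (φ (-r n) x)) m :=
      (hφ.mp (-r n)).integrable_comp_of_integrable (h𝒮 g hg).2
    have e1 : ∫ x, ψ (φ (-r n) x) * δ n x ∂m =
        ∫ x, (ψ (φ (-r n) x) - g (φ (-r n) x)) * δ n x ∂m +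
          ∫ x, g (φ (-r n) x) * δ n x ∂m := by
      have h := integral_add (hmul ((hψn n).sub hgn) n) (hmul hgn n)
      simp only [Pi.sub_apply] at h
      rw [← h]
      congr 1; funext x; ring
    have e2 : |∫ x, (ψ (φ (-r n) x) - g (φ (-r n) x)) * δ n x ∂m| ≤
        (∫ x, |ψ x - g x| ∂m) * B := by
      rw [← Real.norm_eq_abs]
      refine (norm_integral_le_integral_norm _).trans ?_
      have e3 : ∫ x, |ψ (φ (-r n) x) - g (φ (-r n) x)| * B ∂m =
          (∫ x, |ψ x - g x| ∂m) * B := by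
        rw [integral_mul_const]
        congr 1
        exact hφ.integral_comp (-r n) (f := fun x => |ψ x - g x|)
          ((hψm.sub (h𝒮 g hg).1).norm.aestronglyMeasurable)
      rw [← e3]
      have h := integral_mono (hmul ((hψn n).sub hgn) n).norm
        (((hψn n).sub hgn).abs.mul_const B) (fun x => by
          simp only [Pi.sub_apply, norm_mul, Real.norm_eq_abs]
          exact mul_le_mul_of_nonneg_left (hδB n x) (abs_nonneg _))
      simpa only [Pi.sub_apply] using h
    have e4 : (∫ x, |ψ x - g x| ∂m) * B ≤ ε / 2 := by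
      have h5 : (∫ x, |ψ x - g x| ∂m) * B ≤ (ε / (2 * (B + 1))) * B :=
        mul_le_mul_of_nonneg_right hge hB0
      refine h5.trans ?_
      rw [div_mul_eq_mul_div, div_le_div_iff₀ (by positivity) (by norm_num)]
      nlinarith
    rw [e1]
    calc |∫ x, (ψ (φ (-r n) x) - g (φ (-r n) x)) * δ n x ∂m +
          ∫ x, g (φ (-r n) x) * δ n x ∂m| ≤ _ := abs_add_le _ _
      _ < ε := by linarith
  have h3 := hzero.add h2
  rw [zero_add] at h3
  have h4 : Tendsto (fun n => ∫ x, ψ x * δ n x ∂m) atTop (𝓝 q) := by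
    refine h3.congr fun n => ?_
    rw [hsplit n]
  exact tendsto_nhds_unique hlim h4

/-- The weak derivative of `ψ` along the flow: if `χ` is differentiable along the flow with bounded
continuous (measurable) derivative `χ'`, then `∫ ψ χ' = - ∫ w χ`. -/
theorem integral_flow_deriv {ψ : Ω → ℝ} (hψm : Measurable ψ) (hψ : Integrable ψ m)
    (hcob : ∀ t, ∀ᵐ x ∂m, ψ (φ t x) - ψ x = WW φ w t x)
    {χ χ' : Ω → ℝ} {B : ℝ} (hχm : Measurable χ) (hχB : ∀ x, |χ x| ≤ B)
    (hχ'B : ∀ x, |χ' x| ≤ B)
    (hd : ∀ x s, HasDerivAt (fun t => χ (φ t x)) (χ' (φ s x)) s)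
    (hwc : ∀ x, Continuous fun s => w (φ s x)) :
    ∫ x, ψ x * χ' x ∂m = - ∫ x, w x * χ x ∂m := by
  -- the difference quotients
  set e : ℕ → ℝ := fun n => ((n : ℝ) + 1)⁻¹ with he
  have he0 : ∀ n, 0 < e n := fun n => by simp only [he]; positivity
  have helim : Tendsto e atTop (𝓝 0) := by
    simpa [he, one_div] using (tendsto_one_div_add_atTop_nhds_zero_nat (𝕜 := ℝ))
  have helim' : Tendsto e atTop (𝓝[≠] 0) :=
    tendsto_nhdsWithin_iff.2 ⟨helim, Eventually.of_forall fun n => (he0 n).ne'⟩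
  have hlip : ∀ x s, |χ (φ s x) - χ x| ≤ B * |s| := fun x s => by
    have h := Convex.norm_image_sub_le_of_norm_hasDerivWithin_le (s := univ) (x := (0 : ℝ))
      (y := s) (f := fun t => χ (φ t x)) (f' := fun t => χ' (φ t x)) (C := B)
      (fun t _ => (hd x t).hasDerivWithinAt) (fun t _ => hχ'B _) convex_univ (mem_univ _)
      (mem_univ _)
    simpa [hφ.zero] using h
  have hL : Tendsto (fun n => ∫ x, ψ x * ((e n)⁻¹ * (χ (φ (e n) x) - χ x)) ∂m) atTop
      (𝓝 (∫ x, ψ x * χ' x ∂m)) := by
    apply tendsto_integral_of_dominated_convergence (fun x => |ψ x| * B)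
    · intro n
      exact (hψm.mul (((hχm.comp (hφ.meas_t _)).sub hχm).const_mul _)).aestronglyMeasurable
    · exact hψ.abs.mul_const B
    · intro n
      refine Eventually.of_forall fun x => ?_
      rw [Real.norm_eq_abs, abs_mul]
      apply mul_le_mul_of_nonneg_left _ (abs_nonneg _)
      rw [abs_mul, abs_inv, abs_of_pos (he0 n), inv_mul_le_iff₀ (he0 n)]
      have := hlip x (e n)
      rwa [abs_of_pos (he0 n), mul_comm] at this
    · refine Eventually.of_forall fun x => ?_
      have h := (hd x 0).tendsto_slope_zero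
      simp only [hφ.zero, zero_add, smul_eq_mul] at h
      exact ((h.comp helim').const_mul (ψ x))
  have hχI : Integrable χ m :=
    Integrable.of_bound hχm.aestronglyMeasurable B (Eventually.of_forall hχB)
  have hR : Tendsto (fun n => ∫ x, (- ((e n)⁻¹ * WW φ w (e n) x)) * χ (φ (e n) x) ∂m) atTop
      (𝓝 (∫ x, (- w x) * χ x ∂m)) := by
    have hK0 : ∀ x, 0 ≤ K := fun x => (abs_nonneg _).trans (hK x)
    apply tendsto_integral_of_dominated_convergence (fun _ => K * B)
    · intro n
      exact ((((hφ.WW_meas_t hw _).const_mul _).neg).mul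
        (hχm.comp (hφ.meas_t _))).aestronglyMeasurable
    · exact integrable_const _
    · intro n
      refine Eventually.of_forall fun x => ?_
      rw [Real.norm_eq_abs, abs_mul, abs_neg, abs_mul, abs_inv, abs_of_pos (he0 n)]
      have h1 : (e n)⁻¹ * |WW φ w (e n) x| ≤ K := by
        rw [inv_mul_le_iff₀ (he0 n)]
        have := WW_bound (φ := φ) hK (e n) x
        rwa [abs_of_pos (he0 n), mul_comm] at this
      exact mul_le_mul h1 (hχB _) (abs_nonneg _) (hK0 x)
    · refine Eventually.of_forall fun x => ?_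
      have h1 : Tendsto (fun n => (e n)⁻¹ * WW φ w (e n) x) atTop (𝓝 (w x)) := by
        have h := ((intervalIntegral.integral_hasDerivAt_right
          (hφ.intervalIntegrable_w hw hK 0 0 x)
          ((hw.comp (hφ.meas_x x)).stronglyMeasurable.stronglyMeasurableAtFilter)
          (hwc x).continuousAt)).tendsto_slope_zero
        simp only [zero_add, intervalIntegral.integral_same, sub_zero, smul_eq_mul,
          hφ.zero] at h
        exact h.comp helim'
      have h2 : Tendsto (fun n => χ (φ (e n) x)) atTop (𝓝 (χ x)) := by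
        have := (hd x 0).continuousAt.tendsto.comp helim
        simpa [Function.comp_def, hφ.zero] using this
      exact h1.neg.mul h2
  have hEq : ∀ n, ∫ x, ψ x * ((e n)⁻¹ * (χ (φ (e n) x) - χ x)) ∂m =
      ∫ x, (- ((e n)⁻¹ * WW φ w (e n) x)) * χ (φ (e n) x) ∂m := fun n => by
    have hbd : ∀ t, Integrable (fun x => ψ x * χ (φ t x)) m := fun t => by
      have := hψ.bdd_mul (c := B) (hχm.comp (hφ.meas_t t)).aestronglyMeasurable
        (Eventually.of_forall fun x => hχB _)
      simpa [mul_comm] using this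
    have hbd2 : Integrable (fun x => ψ (φ (e n) x) * χ (φ (e n) x)) m := by
      have := ((hφ.mp (e n)).integrable_comp_of_integrable hψ).bdd_mul (c := B)
        (hχm.comp (hφ.meas_t (e n))).aestronglyMeasurable (Eventually.of_forall fun x => hχB _)
      simpa [mul_comm] using this
    have hbd3 : Integrable (fun x => ψ x * χ x) m := by simpa [hφ.zero] using hbd 0
    have h1 : ∫ x, ψ (φ (e n) x) * χ (φ (e n) x) ∂m = ∫ x, ψ x * χ x ∂m :=
      hφ.integral_comp (e n) (f := fun x => ψ x * χ x) (hψm.mul hχm).aestronglyMeasurable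
    have h2 : ∫ x, ψ x * ((e n)⁻¹ * (χ (φ (e n) x) - χ x)) ∂m =
        (e n)⁻¹ * (∫ x, ψ x * χ (φ (e n) x) ∂m - ∫ x, ψ x * χ x ∂m) := by
      rw [← integral_sub (hbd _) hbd3, ← integral_const_mul]
      congr 1; funext x; ring
    have h3 : ∫ x, (- ((e n)⁻¹ * WW φ w (e n) x)) * χ (φ (e n) x) ∂m =
        (e n)⁻¹ * (∫ x, ψ x * χ (φ (e n) x) ∂m -
          ∫ x, ψ (φ (e n) x) * χ (φ (e n) x) ∂m) := by
      rw [← integral_sub (hbd _) hbd2, ← integral_const_mul]
      apply integral_congr_ae
      filter_upwards [hcob (e n)] with x hx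
      rw [← hx]; ring
    rw [h2, h3, h1]
  have := tendsto_nhds_unique hL (hR.congr fun n => (hEq n).symm)
  rw [this, ← integral_neg]
  congr 1; funext x; ring

end MFlow

end Vale.Agent.P207.Q
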