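import Vale.Agent.P207.Q.H413.Inst
import Vale.Agent.P207.Q.H183.FlowS
import Vale.Agent.P207.Q.WeakLim

/-!
# P207: unstable derivatives decay in the past
-/

open MeasureTheory Filter Topology Set

noncomputable section

namespace Vale.Agent.P207.Q.WD

open Vale.Agent.P207.Q.H413
open Vale.Agent.P207.Q.H892 (Curv)
open Vale.Agent.P207.Q.H183 (FlowS)

/-- `d' = U d + e` with `U ≥ lam`: decay of `d` in the past. -/
theorem decay {d e : ℝ → Fin 2 → ℝ} {U : ℝ → Fin 2 → Fin 2 → ℝ} {lam ε : ℝ} (hl : 0 < lam)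
    (hd : ∀ i r, HasDerivAt (fun s => d s i) (∑ j, U r i j * d r j + e r i) r)
    (hU : ∀ r (x : Fin 2 → ℝ), lam * ∑ i, x i ^ 2 ≤ ∑ i, ∑ j, x i * U r i j * x j)
    (he : ∀ r, ∑ i, e r i ^ 2 ≤ ε ^ 2) {r : ℝ} (hr : 0 ≤ r) :
    ∑ i, d (-r) i ^ 2 ≤ Real.exp (-(lam * r)) * ∑ i, d 0 i ^ 2 + (ε / lam) ^ 2 := by
  set N : ℝ → ℝ := fun s => ∑ i, d s i ^ 2 with hN
  have dN : ∀ s, HasDerivAt N (2 * ∑ i, ∑ j, d s i * U s i j * d s j + 2 * ∑ i, d s i * e s i)
      s := by
    intro s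
    have h1 := HasDerivAt.fun_sum (u := Finset.univ) (A := fun i s => d s i ^ 2)
      (A' := fun i => 2 * d s i * (∑ j, U s i j * d s j + e s i)) (x := s)
      (fun i _ => by
        have := (hd i s).fun_pow 2
        refine this.congr_deriv ?_
        simp)
    refine h1.congr_deriv ?_
    simp only [Fin.sum_univ_two]
    ring
  have hmain : ∀ s, lam * N s - ε ^ 2 / lam ≤
      2 * ∑ i, ∑ j, d s i * U s i j * d s j + 2 * ∑ i, d s i * e s i := by
    intro s
    have h1 := hU s (d s)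
    have h2 := he s
    have h3 : ∀ i, -(lam * d s i ^ 2 + e s i ^ 2 / lam) ≤ 2 * (d s i * e s i) := by
      intro i
      have h4 : 0 ≤ lam * (d s i + e s i / lam) ^ 2 := mul_nonneg hl.le (sq_nonneg _)
      have h5 : lam * (d s i + e s i / lam) ^ 2 =
          lam * d s i ^ 2 + e s i ^ 2 / lam + 2 * (d s i * e s i) := by
        field_simp
        ring
      linarith
    have h4 := Finset.sum_le_sum fun i (_ : i ∈ (Finset.univ : Finset (Fin 2))) => h3 i
    rw [← Finset.mul_sum, Finset.sum_neg_distrib, Finset.sum_add_distrib, ← Finset.mul_sum,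
      ← Finset.sum_div] at h4
    have h5 : (∑ i, e s i ^ 2) / lam ≤ ε ^ 2 / lam := div_le_div_of_nonneg_right h2 hl.le
    simp only [hN]
    linarith
  have dZ : ∀ s, HasDerivAt (fun s => Real.exp (-(lam * s)) * (N s - (ε / lam) ^ 2))
      (Real.exp (-(lam * s)) * ((2 * ∑ i, ∑ j, d s i * U s i j * d s j + 2 * ∑ i, d s i * e s i)
        - (lam * N s - ε ^ 2 / lam))) s := by
    intro s
    have e1 : HasDerivAt (fun s => -(lam * s)) (-lam) s := by
      simpa using ((hasDerivAt_id s).const_mul lam).fun_neg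
    have e2 := e1.exp.fun_mul ((dN s).sub_const ((ε / lam) ^ 2))
    refine e2.congr_deriv ?_
    field_simp
    ring
  have hmono : Monotone (fun s => Real.exp (-(lam * s)) * (N s - (ε / lam) ^ 2)) := by
    refine monotone_of_deriv_nonneg (fun s => (dZ s).differentiableAt) fun s => ?_
    rw [(dZ s).deriv]
    exact mul_nonneg (Real.exp_pos _).le (sub_nonneg.2 (hmain s))
  have key := hmono (show -r ≤ 0 by linarith)
  simp only [mul_zero, neg_zero, Real.exp_zero, one_mul, mul_neg, neg_neg] at key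
  have h6 : 0 < Real.exp (lam * r) := Real.exp_pos _
  have h7 : Real.exp (-(lam * r)) * Real.exp (lam * r) = 1 := by
    rw [← Real.exp_add]; simp
  have h8 := mul_le_mul_of_nonneg_left key (Real.exp_pos (-(lam * r))).le
  rw [← mul_assoc, h7, one_mul] at h8
  have h9 : 0 ≤ Real.exp (-(lam * r)) * (ε / lam) ^ 2 := by positivity
  simp only [hN] at h8 ⊢
  linarith

variable {P : Type*} [TopologicalSpace P] [CompactSpace P] [MeasurableSpace P] [BorelSpace P]
  {m : Measure P} [IsFiniteMeasure m]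

/-- evaluation along the flow of a jet -/
theorem jet_hasDerivAt {c : Cal (intL m)} (F : FlowS c) {f : C(P, ℝ)} {d : Idx → C(P, ℝ)}
    (hf : Jet c f d) (p : P) (r : ℝ) :
    HasDerivAt (fun r => f (F.φ r p)) (d .X (F.φ r p)) r := by
  obtain ⟨u, hu, hu'⟩ := hf
  refine hasDerivAt_of_tendstoUniformly (l := atTop)
    (f := fun n r => (u n : C(P, ℝ)) (F.φ r p))
    (f' := fun n r => ((c.Y .X (u n) : c.S) : C(P, ℝ)) (F.φ r p))
    (g' := fun r => d .X (F.φ r p)) ?_
    (Eventually.of_forall fun n x => F.deriv (u n) p x) (fun x => ?_) r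
  · rw [Metric.tendstoUniformly_iff]
    intro ε hε
    have := (Metric.tendsto_nhds.1 (hu' .X)) ε hε
    filter_upwards [this] with n hn x
    rw [dist_comm]
    exact (ContinuousMap.dist_apply_le_dist _).trans_lt hn
  · exact ((continuous_eval_const (F.φ x p)).tendsto _).comp hu

/-- The hypotheses on the unstable tensor and on the transport by the flow. -/
structure Hyp {c : Cal (intL m)} {C : Curv c} (D : UData c C) (F : FlowS c) (lam : ℝ) : Prop where
  lam_pos : 0 < lam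
  pos : ∀ x a b, lam * (a ^ 2 + b ^ 2) ≤ D.U 0 0 x * a ^ 2 + 2 * D.U 0 1 x * (a * b) +
      D.U 1 1 x * b ^ 2
  /-- transport by the flow -/
  tr : ∀ (k : Idx) (f : c.S) (q : P) (r : ℝ),
    HasDerivAt (fun s => ((c.Y k (F.pull s f) : c.S) : C(P, ℝ)) (F.φ (-s) q))
      (((c.Y k (c.Y .X (F.pull r f)) - c.Y .X (c.Y k (F.pull r f)) : c.S) : C(P, ℝ))
        (F.φ (-r) q)) r
  R_pull : ∀ r f, c.Y .R (F.pull r f) = F.pull r (c.Y .R f)

variable {c : Cal (intL m)} {C : Curv c} (D : UData c C) {F : FlowS c} {lam : ℝ}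

/-- the coefficient of `R` in `[H_i, X]` -/
def rho (C : Curv c) (i : Fin 2) : c.S := if i = 0 then C.E02 else - C.E01

/-- the unstable derivative of a smooth function -/
def DS (f : c.S) (i : Fin 2) : C(P, ℝ) :=
  (c.Y (.H i) f : c.S) + ∑ j, D.U i j * (c.Y (.V j) f : c.S)

/-- the unstable derivative of a jet -/
def DJ (d : Idx → C(P, ℝ)) (i : Fin 2) : C(P, ℝ) :=
  d (.H i) + ∑ j, D.U i j * d (.V j)

/-- the adjoint of the unstable derivative -/
def del (χ : C(P, ℝ)) (d : Idx → C(P, ℝ)) (i : Fin 2) : C(P, ℝ) :=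
  - (d (.H i) + ∑ j, (D.U i j * d (.V j) + D.dU i j (.V j) * χ))

theorem HX (C : Curv c) (i : Fin 2) (f : c.S) :
    ((c.Y (.H i) (c.Y .X f) - c.Y .X (c.Y (.H i) f) : c.S) : C(P, ℝ)) =
      ∑ j, C.K i j * (c.Y (.V j) f : c.S) + rho C i * (c.Y .R f : c.S) := by
  have h0 := congrArg (fun z : c.S => (z : C(P, ℝ))) (C.XH0 f)
  have h1 := congrArg (fun z : c.S => (z : C(P, ℝ))) (C.XH1 f)
  simp only [AddSubgroupClass.coe_sub, Subalgebra.coe_mul, NegMemClass.coe_neg,
    Subalgebra.coe_add] at h0 h1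
  fin_cases i
  · simp only [Fin.zero_eta, rho, if_true, Fin.sum_univ_two, H892.Curv.K, one_ne_zero, if_false,
      AddSubgroupClass.coe_sub]
    linear_combination -h0
  · simp only [Fin.mk_one, rho, one_ne_zero, if_false, Fin.sum_univ_two, H892.Curv.K, if_true,
      AddSubgroupClass.coe_sub, NegMemClass.coe_neg]
    linear_combination -h1

theorem sum_pos {lam : ℝ} (H : Hyp D F lam) (y : P) (x : Fin 2 → ℝ) :
    lam * ∑ i, x i ^ 2 ≤ ∑ i, ∑ j, x i * D.U i j y * x j := by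
  have h := H.pos y (x 0) (x 1)
  have e : D.U 1 0 y = D.U 0 1 y := by rw [D.symU]
  simp only [Fin.sum_univ_two, e]
  linarith

theorem pull_zero (f : c.S) : F.pull 0 f = f := by
  apply Subtype.ext
  refine ContinuousMap.ext fun p => ?_
  rw [F.pull_apply, F.zero]

/-- the flow derivative of `U` -/
theorem U_flow (i j : Fin 2) (p : P) (r : ℝ) :
    HasDerivAt (fun r => D.U i j (F.φ (-r) p))
      (-(C.K i j (F.φ (-r) p) - ∑ k, D.U i k (F.φ (-r) p) * D.U k j (F.φ (-r) p))) r := by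
  have h1 := jet_hasDerivAt F (D.jU i j) p (-r)
  have h2 : HasDerivAt (fun r => D.U i j (F.φ (-r) p)) (D.dU i j .X (F.φ (-r) p) * -1) r :=
    h1.comp r (hasDerivAt_neg' r)
  refine h2.congr_deriv ?_
  rw [D.ric]
  simp

/-- transport of the unstable derivatives -/
theorem DS_transport (H : Hyp D F lam) (f : c.S) (i : Fin 2) (q : P) (r : ℝ) :
    HasDerivAt (fun s => DS D (F.pull s f) i (F.φ (-s) q))
      (∑ j, D.U i j (F.φ (-r) q) * DS D (F.pull r f) j (F.φ (-r) q) +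
        ((rho C i : c.S) : C(P, ℝ)) (F.φ (-r) q) * ((c.Y .R f : c.S) : C(P, ℝ)) q) r := by
  have hR : ((c.Y .R (F.pull r f) : c.S) : C(P, ℝ)) (F.φ (-r) q) =
      ((c.Y .R f : c.S) : C(P, ℝ)) q := by
    rw [H.R_pull, F.pull_apply, ← F.add, add_neg_cancel, F.zero]
  have hV : ∀ j, HasDerivAt (fun s => ((c.Y (.V j) (F.pull s f) : c.S) : C(P, ℝ)) (F.φ (-s) q))
      (((c.Y (.H j) (F.pull r f) : c.S) : C(P, ℝ)) (F.φ (-r) q)) r := by
    intro j
    have := H.tr (.V j) f q r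
    rwa [c.VX] at this
  have hH := H.tr (.H i) f q r
  rw [HX] at hH
  have h1 := hH.fun_add (HasDerivAt.fun_sum (u := Finset.univ)
    (A := fun j s => D.U i j (F.φ (-s) q) *
      ((c.Y (.V j) (F.pull s f) : c.S) : C(P, ℝ)) (F.φ (-s) q)) (x := r)
    (fun j _ => (U_flow D i j q r).fun_mul (hV j)))
  refine (h1.congr_deriv ?_).congr_of_eventuallyEq (Eventually.of_forall fun s => ?_)
  · simp only [DS, ContinuousMap.add_apply, ContinuousMap.mul_apply, Fin.sum_univ_two, hR]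
    ring
  · simp only [DS, ContinuousMap.add_apply, ContinuousMap.mul_apply, ContinuousMap.sum_apply]

/-- bound of the unstable derivatives in the past -/
theorem abs_DS_pull_le (H : Hyp D F lam) (f : c.S) (i : Fin 2) {s : ℝ} (hs : 0 ≤ s) (x : P) :
    |DS D (F.pull (-s) f) i x| ≤ Real.exp (-(lam / 2 * s)) * (∑ j, ‖DS D f j‖) +
      (‖((rho C 0 : c.S) : C(P, ℝ))‖ + ‖((rho C 1 : c.S) : C(P, ℝ))‖) / lam *
        ‖((c.Y .R f : c.S) : C(P, ℝ))‖ := by
  set q := F.φ (-s) x with hq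
  have hx : F.φ s q = x := by rw [hq, ← F.add, add_neg_cancel, F.zero]
  set Cρ := ‖((rho C 0 : c.S) : C(P, ℝ))‖ + ‖((rho C 1 : c.S) : C(P, ℝ))‖ with hCρ
  set nR := ‖((c.Y .R f : c.S) : C(P, ℝ))‖ with hnR
  have hlam := H.lam_pos
  have hC0 : 0 ≤ Cρ := by positivity
  have hR0 : 0 ≤ nR := norm_nonneg _
  have key := decay (d := fun s i => DS D (F.pull s f) i (F.φ (-s) q))
    (e := fun s i => ((rho C i : c.S) : C(P, ℝ)) (F.φ (-s) q) *
      ((c.Y .R f : c.S) : C(P, ℝ)) q)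
    (U := fun s i j => D.U i j (F.φ (-s) q)) (ε := Cρ * nR) hlam
    (fun i r => DS_transport D H f i q r) (fun r y => sum_pos D H _ y) (fun r => ?_) hs
  · simp only [neg_neg, neg_zero, hx, pull_zero, F.zero] at key
    have h1 : |DS D (F.pull (-s) f) i x| ^ 2 ≤
        ∑ i, DS D (F.pull (-s) f) i x ^ 2 := by
      rw [sq_abs]
      exact Finset.single_le_sum (f := fun i => DS D (F.pull (-s) f) i x ^ 2)
        (fun j _ => sq_nonneg _) (Finset.mem_univ i)
    have h2 : ∑ i, DS D f i q ^ 2 ≤ (∑ j, ‖DS D f j‖) ^ 2 := by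
      have a0 := (DS D f 0).norm_coe_le_norm q
      have a1 := (DS D f 1).norm_coe_le_norm q
      rw [Real.norm_eq_abs] at a0 a1
      simp only [Fin.sum_univ_two]
      rw [← sq_abs (DS D f 0 q), ← sq_abs (DS D f 1 q)]
      nlinarith [abs_nonneg (DS D f 0 q), abs_nonneg (DS D f 1 q), norm_nonneg (DS D f 0),
        norm_nonneg (DS D f 1)]
    have h3 : Real.exp (-(lam * s)) = Real.exp (-(lam / 2 * s)) ^ 2 := by
      rw [← Real.exp_nat_mul]; push_cast; ring_nf
    set E := Real.exp (-(lam / 2 * s)) with hE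
    have hE0 : 0 ≤ E := (Real.exp_pos _).le
    set M := ∑ j, ‖DS D f j‖ with hM
    have hM0 : 0 ≤ M := Finset.sum_nonneg fun j _ => norm_nonneg _
    have h4 : |DS D (F.pull (-s) f) i x| ^ 2 ≤ (E * M + Cρ / lam * nR) ^ 2 := by
      have e1 : Cρ * nR / lam = Cρ / lam * nR := by ring
      rw [h3, e1] at key
      have h5 := mul_le_mul_of_nonneg_left h2 (sq_nonneg E)
      have h6 : 0 ≤ E * M * (Cρ / lam * nR) :=
        mul_nonneg (mul_nonneg hE0 hM0) (mul_nonneg (div_nonneg hC0 hlam.le) hR0)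
      have h7 : (E * M + Cρ / lam * nR) ^ 2 =
          E ^ 2 * M ^ 2 + (Cρ / lam * nR) ^ 2 + 2 * (E * M * (Cρ / lam * nR)) := by ring
      rw [h7]
      linarith
    rw [sq_abs] at h4
    exact abs_le_of_sq_le_sq h4
      (add_nonneg (mul_nonneg hE0 hM0) (mul_nonneg (div_nonneg hC0 hlam.le) hR0))
  · have b0 := (((rho C 0 : c.S) : C(P, ℝ))).norm_coe_le_norm (F.φ (-r) q)
    have b1 := (((rho C 1 : c.S) : C(P, ℝ))).norm_coe_le_norm (F.φ (-r) q)
    have b2 := (((c.Y .R f : c.S) : C(P, ℝ))).norm_coe_le_norm q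
    rw [Real.norm_eq_abs] at b0 b1 b2
    simp only [Fin.sum_univ_two, mul_pow]
    rw [← sq_abs ((((rho C 0 : c.S) : C(P, ℝ))) (F.φ (-r) q)),
      ← sq_abs ((((rho C 1 : c.S) : C(P, ℝ))) (F.φ (-r) q)),
      ← sq_abs ((((c.Y .R f : c.S) : C(P, ℝ))) q), ← add_mul]
    refine mul_le_mul ?_ (pow_le_pow_left₀ (abs_nonneg _) b2 2) (sq_nonneg _) (sq_nonneg _)
    nlinarith [abs_nonneg ((((rho C 0 : c.S) : C(P, ℝ))) (F.φ (-r) q)),
      abs_nonneg ((((rho C 1 : c.S) : C(P, ℝ))) (F.φ (-r) q)),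
      norm_nonneg (((rho C 0 : c.S) : C(P, ℝ))), norm_nonneg (((rho C 1 : c.S) : C(P, ℝ)))]

theorem DS_sub (f g : c.S) (i : Fin 2) : DS D (f - g) i = DS D f i - DS D g i := by
  simp only [DS, map_sub, AddSubgroupClass.coe_sub, mul_sub, Finset.sum_sub_distrib]
  ring

theorem pull_sub (r : ℝ) (f g : c.S) : F.pull r (f - g) = F.pull r f - F.pull r g := by
  apply Subtype.ext
  refine ContinuousMap.ext fun p => ?_
  simp only [F.pull_apply, AddSubgroupClass.coe_sub, ContinuousMap.sub_apply]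

/-- adjoint of the unstable derivative -/
theorem adj (f : c.S) {χ : C(P, ℝ)} {d : Idx → C(P, ℝ)} (hχ : Jet c χ d) (i : Fin 2) :
    intL m (DS D f i * χ) = intL m (f * del D χ d i) := by
  have h1 := hχ.int_mul (Jet.of_mem f) (.H i)
  have h2 : ∀ j, _ := fun j => ((D.jU i j).mul hχ).int_mul (Jet.of_mem f) (.V j)
  have e1 : DS D f i * χ = χ * ((c.Y (.H i) f : c.S) : C(P, ℝ)) +
      ∑ j, D.U i j * χ * ((c.Y (.V j) f : c.S) : C(P, ℝ)) := by
    simp only [DS, Fin.sum_univ_two]; ring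
  have e2 : (f : C(P, ℝ)) * del D χ d i = - ((f : C(P, ℝ)) * d (.H i)) +
      ∑ j, - ((f : C(P, ℝ)) * (D.U i j * d (.V j) + χ * D.dU i j (.V j))) := by
    simp only [del, Fin.sum_univ_two]; ring
  rw [e1, e2, map_add, map_add, map_sum, map_sum, map_neg, h1]
  congr 1
  refine Finset.sum_congr rfl fun j _ => ?_
  rw [map_neg, h2 j]

end Vale.Agent.P207.Q.WD
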