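import Mathlib

/-!
# The Riccati equation on the whole past, with parameters

`A` is a real Banach algebra, `Θ` a topological space, `N M : Θ → ℝ → A` jointly continuous.
`T = lim T_k`, `T_{k+1} = L (N + T_k²)`, `L G (θ, s) = ∫_0^∞ exp (-2 Λ u) G (θ, s - u) du`, solves
`T' = N - 2 Λ T + T²` on `ℝ`, with `‖T‖ ≤ Λ - λ` if `‖N‖ ≤ Λ² - λ²`.  If `M` is the derivative of
`N` along a curve of `Θ` and `‖M (θ, r)‖ ≤ C exp (κ |r|)` with `κ < 2 λ`, then `T` is
differentiable along the curve, with a jointly continuous derivative `S`, the solution of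
`S = L (M + S T + T S)`.
-/

open MeasureTheory Set Filter Topology

set_option linter.unusedSectionVars false

noncomputable section

namespace Vale.Agent.P207.Q.Ric

variable {Θ : Type*} {A : Type*} [NormedRing A] [NormedAlgebra ℝ A] [CompleteSpace A]

/-- `L G (θ, s) = ∫_0^∞ exp (-2 Λ u) G (θ, s - u) du` -/
def L (Λ : ℝ) (G : Θ → ℝ → A) (θ : Θ) (s : ℝ) : A :=
  ∫ u in Ioi (0 : ℝ), Real.exp (-(2 * Λ) * u) • G θ (s - u)

variable {Λ κ : ℝ}

theorem weight_le {κ : ℝ} (hκ : 0 ≤ κ) (s : ℝ) {u : ℝ} (hu : 0 ≤ u) :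
    Real.exp (κ * |s - u|) ≤ Real.exp (κ * |s|) * Real.exp (κ * u) := by
  rw [← Real.exp_add]
  refine Real.exp_le_exp.2 ?_
  have : |s - u| ≤ |s| + u := by
    have := abs_sub s u
    rwa [abs_of_nonneg hu] at this
  nlinarith

theorem dom_integrable (h : κ < 2 * Λ) (c : ℝ) :
    IntegrableOn (fun u => c * Real.exp (-(2 * Λ - κ) * u)) (Ioi (0 : ℝ)) :=
  (integrableOn_exp_mul_Ioi (by linarith : -(2 * Λ - κ) < 0) 0).const_mul c

theorem dom_integral (h : κ < 2 * Λ) (c : ℝ) :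
    ∫ u in Ioi (0 : ℝ), c * Real.exp (-(2 * Λ - κ) * u) = c / (2 * Λ - κ) := by
  rw [integral_const_mul, integral_exp_mul_Ioi (by linarith : -(2 * Λ - κ) < 0)]
  have h1 : (2 * Λ - κ) ≠ 0 := by linarith
  have h2 : Real.exp (-(2 * Λ - κ) * 0) = 1 := by simp
  rw [h2, neg_div_neg_eq]
  ring

theorem norm_integrand {κ : ℝ} (hκ : 0 ≤ κ) {B : ℝ} (hB : 0 ≤ B) {G : ℝ → A}
    (hG : ∀ r, ‖G r‖ ≤ B * Real.exp (κ * |r|)) (s : ℝ) {u : ℝ} (hu : 0 ≤ u) :
    ‖Real.exp (-(2 * Λ) * u) • G (s - u)‖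
      ≤ B * Real.exp (κ * |s|) * Real.exp (-(2 * Λ - κ) * u) := by
  rw [norm_smul, Real.norm_eq_abs, Real.abs_exp]
  calc Real.exp (-(2 * Λ) * u) * ‖G (s - u)‖
      ≤ Real.exp (-(2 * Λ) * u) * (B * (Real.exp (κ * |s|) * Real.exp (κ * u))) := by
        gcongr
        exact (hG _).trans (by gcongr; exact weight_le hκ s hu)
    _ = B * Real.exp (κ * |s|) * (Real.exp (-(2 * Λ) * u) * Real.exp (κ * u)) := by ring
    _ = _ := by
        rw [← Real.exp_add]
        congr 2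
        ring

theorem integrand_aesm {G : ℝ → A} (hc : Continuous G) (s : ℝ) :
    AEStronglyMeasurable (fun u => Real.exp (-(2 * Λ) * u) • G (s - u))
      (volume.restrict (Ioi (0 : ℝ))) := by
  have : Continuous fun u => Real.exp (-(2 * Λ) * u) • G (s - u) := by fun_prop
  exact this.aestronglyMeasurable

theorem integrand_int {κ : ℝ} (hκ : 0 ≤ κ) (h : κ < 2 * Λ) {B : ℝ} (hB : 0 ≤ B) {G : ℝ → A}
    (hc : Continuous G) (hG : ∀ r, ‖G r‖ ≤ B * Real.exp (κ * |r|)) (s : ℝ) :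
    IntegrableOn (fun u => Real.exp (-(2 * Λ) * u) • G (s - u)) (Ioi (0 : ℝ)) := by
  refine (dom_integrable h (B * Real.exp (κ * |s|))).mono' (integrand_aesm hc s) ?_
  refine (ae_restrict_iff' measurableSet_Ioi).2 (Eventually.of_forall fun u hu => ?_)
  exact norm_integrand hκ hB hG s (le_of_lt hu)

theorem norm_L_le {κ : ℝ} (hκ : 0 ≤ κ) (h : κ < 2 * Λ) {B : ℝ} (hB : 0 ≤ B) {G : Θ → ℝ → A}
    {θ : Θ} (hG : ∀ r, ‖G θ r‖ ≤ B * Real.exp (κ * |r|)) (s : ℝ) :
    ‖L Λ G θ s‖ ≤ B / (2 * Λ - κ) * Real.exp (κ * |s|) := by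
  unfold L
  calc ‖∫ u in Ioi (0 : ℝ), Real.exp (-(2 * Λ) * u) • G θ (s - u)‖
      ≤ ∫ u in Ioi (0 : ℝ), B * Real.exp (κ * |s|) * Real.exp (-(2 * Λ - κ) * u) := by
        refine norm_integral_le_of_norm_le (dom_integrable h _) ?_
        refine (ae_restrict_iff' measurableSet_Ioi).2 (Eventually.of_forall fun u hu => ?_)
        exact norm_integrand hκ hB hG s (le_of_lt hu)
    _ = _ := by
        rw [dom_integral h]
        ring

/-- the unweighted bound -/
theorem norm_L_le' (h : 0 < Λ) {B : ℝ} (hB : 0 ≤ B) {G : Θ → ℝ → A}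
    {θ : Θ} (hG : ∀ r, ‖G θ r‖ ≤ B) (s : ℝ) : ‖L Λ G θ s‖ ≤ B / (2 * Λ) := by
  have := norm_L_le (κ := 0) le_rfl (by linarith : (0 : ℝ) < 2 * Λ) hB (G := G) (θ := θ)
    (fun r => by simpa using hG r) s
  simpa using this

theorem L_sub {κ : ℝ} (hκ : 0 ≤ κ) (h : κ < 2 * Λ) {B B' : ℝ} (hB : 0 ≤ B) (hB' : 0 ≤ B')
    {G G' : Θ → ℝ → A} {θ : Θ} (hc : Continuous (G θ)) (hc' : Continuous (G' θ))
    (hG : ∀ r, ‖G θ r‖ ≤ B * Real.exp (κ * |r|))
    (hG' : ∀ r, ‖G' θ r‖ ≤ B' * Real.exp (κ * |r|)) (s : ℝ) :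
    L Λ G θ s - L Λ G' θ s = L Λ (fun θ r => G θ r - G' θ r) θ s := by
  unfold L
  rw [← integral_sub (integrand_int hκ h hB hc hG s) (integrand_int hκ h hB' hc' hG' s)]
  refine integral_congr_ae (Eventually.of_forall fun u => ?_)
  simp only [smul_sub]

theorem continuous_L [TopologicalSpace Θ] [FirstCountableTopology Θ] {κ : ℝ} (hκ : 0 ≤ κ)
    (h : κ < 2 * Λ) {B : ℝ} (hB : 0 ≤ B)
    {G : Θ → ℝ → A} (hc : Continuous (Function.uncurry G))
    (hG : ∀ θ r, ‖G θ r‖ ≤ B * Real.exp (κ * |r|)) :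
    Continuous (Function.uncurry (L Λ G)) := by
  rw [continuous_iff_continuousAt]
  rintro ⟨θ₀, s₀⟩
  have hev : ∀ᶠ p : Θ × ℝ in 𝓝 (θ₀, s₀), |p.2| < |s₀| + 1 := by
    have h1 : Continuous fun p : Θ × ℝ => |p.2| := continuous_snd.abs
    exact h1.continuousAt.eventually_lt continuousAt_const (by simp)
  refine tendsto_integral_filter_of_dominated_convergence
    (fun u => B * Real.exp (κ * (|s₀| + 1)) * Real.exp (-(2 * Λ - κ) * u)) ?_ ?_
    (dom_integrable h _) ?_
  · refine Eventually.of_forall fun p => integrand_aesm ?_ _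
    exact hc.comp (continuous_const.prodMk continuous_id)
  · filter_upwards [hev] with p hp
    refine (ae_restrict_iff' measurableSet_Ioi).2 (Eventually.of_forall fun u hu => ?_)
    refine (norm_integrand hκ hB (hG p.1) p.2 (le_of_lt hu)).trans ?_
    gcongr
  · refine Eventually.of_forall fun u => ?_
    have h1 : Continuous fun p : Θ × ℝ => Real.exp (-(2 * Λ) * u) • G p.1 (p.2 - u) := by
      have h2 : Continuous fun p : Θ × ℝ => Function.uncurry G (p.1, p.2 - u) :=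
        hc.comp (continuous_fst.prodMk (continuous_snd.sub continuous_const))
      exact continuous_const.smul h2
    exact h1.continuousAt

/-- differentiation along a curve -/
theorem hasDerivAt_L {κ : ℝ} (hκ : 0 ≤ κ) (h : κ < 2 * Λ) {B B' : ℝ}
    (hB : 0 ≤ B) (hB' : 0 ≤ B') {G : Θ → ℝ → A} {G' : Θ → ℝ → A} {c : ℝ → Θ}
    (hc : ∀ x, Continuous (G (c x))) (hc' : ∀ x, Continuous (G' (c x)))
    (hG : ∀ x r, ‖G (c x) r‖ ≤ B * Real.exp (κ * |r|))
    (hG' : ∀ x r, ‖G' (c x) r‖ ≤ B' * Real.exp (κ * |r|))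
    (hd : ∀ x r, HasDerivAt (fun x => G (c x) r) (G' (c x) r) x) (x s : ℝ) :
    HasDerivAt (fun x => L Λ G (c x) s) (L Λ G' (c x) s) x := by
  have := hasDerivAt_integral_of_dominated_loc_of_deriv_le (μ := volume.restrict (Ioi (0 : ℝ)))
    (F := fun x u => Real.exp (-(2 * Λ) * u) • G (c x) (s - u))
    (F' := fun x u => Real.exp (-(2 * Λ) * u) • G' (c x) (s - u)) (x₀ := x) (s := univ)
    (bound := fun u => B' * Real.exp (κ * |s|) * Real.exp (-(2 * Λ - κ) * u)) univ_mem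
    (Eventually.of_forall fun x => integrand_aesm (hc x) s)
    (integrand_int hκ h hB (hc x) (hG x) s) (integrand_aesm (hc' x) s)
    ((ae_restrict_iff' measurableSet_Ioi).2 (Eventually.of_forall fun u hu x _ =>
      norm_integrand hκ hB' (hG' x) s (le_of_lt hu)))
    (dom_integrable h _)
    (Eventually.of_forall fun u x _ => (hd x (s - u)).fun_const_smul _)
  exact this.2

/-- `L G` solves `y' = G - 2 Λ y`. -/
theorem hasDerivAt_L_time {κ : ℝ} (hκ : 0 ≤ κ) (h : κ < 2 * Λ) {B : ℝ} (hB : 0 ≤ B)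
    {G : Θ → ℝ → A} {θ : Θ} (hc : Continuous (G θ))
    (hG : ∀ r, ‖G θ r‖ ≤ B * Real.exp (κ * |r|)) (s : ℝ) :
    HasDerivAt (L Λ G θ) (G θ s - (2 * Λ) • L Λ G θ s) s := by
  have hcf : Continuous fun r => Real.exp (2 * Λ * r) • G θ r := by fun_prop
  have hmp : ∀ s : ℝ, MeasurePreserving (fun u : ℝ => s - u) volume volume := fun s =>
    Measure.measurePreserving_sub_left volume s
  have hme : ∀ s : ℝ, MeasurableEmbedding (fun u : ℝ => s - u) := fun s =>
    (MeasurableEquiv.subLeft s).measurableEmbedding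
  have hpre : ∀ s : ℝ, (fun u : ℝ => s - u) ⁻¹' Iio s = Ioi 0 := by
    intro s; ext u; simp
  have hfun : ∀ s : ℝ, (fun u => Real.exp (2 * Λ * s) • (Real.exp (-(2 * Λ) * u) • G θ (s - u)))
        = (fun r => Real.exp (2 * Λ * r) • G θ r) ∘ fun u => s - u := by
    intro s
    funext u
    simp only [Function.comp]
    rw [smul_smul, ← Real.exp_add]
    congr 2
    ring
  have hint : ∀ s, IntegrableOn (fun r => Real.exp (2 * Λ * r) • G θ r) (Iic s) := by
    intro s
    have h2 : IntegrableOn (fun u => Real.exp (2 * Λ * s) •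
        (Real.exp (-(2 * Λ) * u) • G θ (s - u))) (Ioi (0 : ℝ)) :=
      (integrand_int hκ h hB hc hG s).fun_smul _
    rw [hfun s, ← hpre s, (hmp s).integrableOn_comp_preimage (hme s)] at h2
    exact (integrableOn_Iic_iff_integrableOn_Iio).2 h2
  have hval : ∀ s, L Λ G θ s
      = Real.exp (-(2 * Λ * s)) • ∫ r in Iic s, Real.exp (2 * Λ * r) • G θ r := by
    intro s
    rw [integral_Iic_eq_integral_Iio, ← (hmp s).setIntegral_preimage_emb (hme s), hpre s]
    have := hfun s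
    unfold L
    rw [← integral_smul]
    refine integral_congr_ae (Eventually.of_forall fun u => ?_)
    simp only
    rw [smul_smul, ← Real.exp_add]
    congr 2
    ring
  have hI : HasDerivAt (fun s => ∫ r in Iic s, Real.exp (2 * Λ * r) • G θ r)
      (Real.exp (2 * Λ * s) • G θ s) s := by
    have h1 : HasDerivAt (fun t => ∫ r in s..t, Real.exp (2 * Λ * r) • G θ r)
        (Real.exp (2 * Λ * s) • G θ s) s :=
      intervalIntegral.integral_hasDerivAt_right (hcf.intervalIntegrable _ _)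
        (hcf.stronglyMeasurableAtFilter _ _) hcf.continuousAt
    have h2 := h1.const_add (∫ r in Iic s, Real.exp (2 * Λ * r) • G θ r)
    refine h2.congr_of_eventuallyEq (Eventually.of_forall fun t => ?_)
    simp only
    rw [← intervalIntegral.integral_Iic_sub_Iic (hint s) (hint t)]
    abel
  have hE : HasDerivAt (fun s : ℝ => Real.exp (-(2 * Λ * s)))
      (Real.exp (-(2 * Λ * s)) * (-(2 * Λ))) s := by
    have h1 : HasDerivAt (fun s : ℝ => -(2 * Λ * s)) (-(2 * Λ)) s := by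
      simpa using ((hasDerivAt_id s).const_mul (2 * Λ)).fun_neg
    exact h1.exp
  have hfin := hE.smul hI
  have hfe : (L Λ G θ) = fun s => Real.exp (-(2 * Λ * s)) •
      ∫ r in Iic s, Real.exp (2 * Λ * r) • G θ r := funext hval
  rw [hval s, hfe]
  refine hfin.congr_deriv ?_
  rw [smul_smul, ← Real.exp_add, smul_smul, neg_add_cancel, Real.exp_zero, one_smul,
    sub_eq_add_neg, ← neg_smul]
  congr 2
  ring

end Vale.Agent.P207.Q.Ric
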