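import Vale.Agent.P207.Q.Ric

/-!
# The Riccati equation on the whole past, with parameters: iteration and limit
-/

open MeasureTheory Set Filter Topology

set_option linter.unusedSectionVars false

noncomputable section

namespace Vale.Agent.P207.Q.Ric

variable {Θ : Type*} {A : Type*} [NormedRing A] [NormedAlgebra ℝ A] [CompleteSpace A]

/-- the iterates `T_k` -/
def Tk (Λ : ℝ) (N : Θ → ℝ → A) : ℕ → Θ → ℝ → A
  | 0 => fun _ _ => 0
  | k + 1 => L Λ fun θ r => N θ r + Tk Λ N k θ r * Tk Λ N k θ r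

/-- the iterates `S_k` -/
def Sk (Λ : ℝ) (N M : Θ → ℝ → A) : ℕ → Θ → ℝ → A
  | 0 => fun _ _ => 0
  | k + 1 => L Λ fun θ r => M θ r + (Sk Λ N M k θ r * Tk Λ N k θ r + Tk Λ N k θ r * Sk Λ N M k θ r)

/-- Hypotheses on `N`. -/
structure HypN [TopologicalSpace Θ] (lam Λ : ℝ) (N : Θ → ℝ → A) : Prop where
  lam_pos : 0 < lam
  le : lam ≤ Λ
  cont : Continuous (Function.uncurry N)
  bound : ∀ θ r, ‖N θ r‖ ≤ Λ ^ 2 - lam ^ 2

/-- Hypotheses on `M`. -/
structure HypM [TopologicalSpace Θ] (lam Λ κ C : ℝ) (M : Θ → ℝ → A) : Prop where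
  κ0 : 0 ≤ κ
  κ_lt : κ < 2 * lam
  C0 : 0 ≤ C
  cont : Continuous (Function.uncurry M)
  bound : ∀ θ r, ‖M θ r‖ ≤ C * Real.exp (κ * |r|)

variable [TopologicalSpace Θ] [FirstCountableTopology Θ] {lam Λ κ C : ℝ} {N M : Θ → ℝ → A}

theorem HypN.Λ_pos (h : HypN lam Λ N) : 0 < Λ := h.lam_pos.trans_le h.le

/-- bounded functions as weighted ones -/
theorem to_weight {B : ℝ} {G : ℝ → A} (hG : ∀ r, ‖G r‖ ≤ B) (r : ℝ) :
    ‖G r‖ ≤ B * Real.exp (0 * |r|) := by simpa using hG r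

theorem Tk_prop (h : HypN lam Λ N) (k : ℕ) :
    Continuous (Function.uncurry (Tk Λ N k)) ∧ ∀ θ s, ‖Tk Λ N k θ s‖ ≤ Λ - lam := by
  have hΛ := h.Λ_pos
  have hle : 0 ≤ Λ - lam := sub_nonneg.2 h.le
  induction k with
  | zero =>
    refine ⟨continuous_const, fun θ s => ?_⟩
    simpa [Tk] using hle
  | succ k ih =>
    have hb : ∀ θ r, ‖N θ r + Tk Λ N k θ r * Tk Λ N k θ r‖ ≤ 2 * Λ * (Λ - lam) := by
      intro θ r
      calc ‖N θ r + Tk Λ N k θ r * Tk Λ N k θ r‖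
          ≤ ‖N θ r‖ + ‖Tk Λ N k θ r‖ * ‖Tk Λ N k θ r‖ :=
            (norm_add_le _ _).trans (add_le_add le_rfl (norm_mul_le _ _))
        _ ≤ (Λ ^ 2 - lam ^ 2) + (Λ - lam) * (Λ - lam) := by
            gcongr
            · exact h.bound θ r
            · exact ih.2 θ r
            · exact ih.2 θ r
        _ = _ := by ring
    have hB : 0 ≤ 2 * Λ * (Λ - lam) := by positivity
    have hc : Continuous (Function.uncurry fun θ r => N θ r + Tk Λ N k θ r * Tk Λ N k θ r) :=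
      h.cont.add (ih.1.mul ih.1)
    refine ⟨continuous_L (κ := 0) le_rfl (by linarith) hB hc (fun θ => to_weight (hb θ)),
      fun θ s => ?_⟩
    refine (norm_L_le' hΛ hB (hb θ) s).trans (le_of_eq ?_)
    field_simp

theorem Tk_cont (h : HypN lam Λ N) (k : ℕ) : Continuous (Function.uncurry (Tk Λ N k)) :=
  (Tk_prop h k).1

theorem Tk_cont' (h : HypN lam Λ N) (k : ℕ) (θ : Θ) : Continuous (Tk Λ N k θ) :=
  (Tk_cont h k).comp (continuous_const.prodMk continuous_id)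

theorem Tk_le (h : HypN lam Λ N) (k : ℕ) (θ : Θ) (s : ℝ) : ‖Tk Λ N k θ s‖ ≤ Λ - lam :=
  (Tk_prop h k).2 θ s

theorem HypN.cont' (h : HypN lam Λ N) (θ : Θ) : Continuous (N θ) :=
  h.cont.comp (continuous_const.prodMk continuous_id)

theorem HypM.cont' (h : HypM lam Λ κ C M) (θ : Θ) : Continuous (M θ) :=
  h.cont.comp (continuous_const.prodMk continuous_id)

/-- the difference of two squares -/
theorem sq_sub_le {x y : A} {τ : ℝ} (hx : ‖x‖ ≤ τ) (hy : ‖y‖ ≤ τ) :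
    ‖x * x - y * y‖ ≤ 2 * τ * ‖x - y‖ := by
  have hτ : 0 ≤ τ := (norm_nonneg _).trans hx
  have e : x * x - y * y = x * (x - y) + (x - y) * y := by noncomm_ring
  rw [e]
  calc ‖x * (x - y) + (x - y) * y‖ ≤ ‖x‖ * ‖x - y‖ + ‖x - y‖ * ‖y‖ :=
        (norm_add_le _ _).trans (add_le_add (norm_mul_le _ _) (norm_mul_le _ _))
    _ ≤ τ * ‖x - y‖ + ‖x - y‖ * τ := by gcongr
    _ = _ := by ring

theorem Tk_sub_le (h : HypN lam Λ N) (k : ℕ) (θ : Θ) (s : ℝ) :
    ‖Tk Λ N (k + 1) θ s - Tk Λ N k θ s‖ ≤ (Λ - lam) * ((Λ - lam) / Λ) ^ k := by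
  have hΛ := h.Λ_pos
  have hle : 0 ≤ Λ - lam := sub_nonneg.2 h.le
  induction k generalizing θ s with
  | zero => simpa [Tk] using Tk_le h 1 θ s
  | succ k ih =>
    have hb : ∀ (k : ℕ) (θ : Θ) r, ‖N θ r + Tk Λ N k θ r * Tk Λ N k θ r‖ ≤
        (Λ ^ 2 - lam ^ 2) + (Λ - lam) * (Λ - lam) := by
      intro k θ r
      refine (norm_add_le _ _).trans (add_le_add (h.bound θ r) ((norm_mul_le _ _).trans ?_))
      gcongr
      · exact Tk_le h k θ r
      · exact Tk_le h k θ r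
    have hB : 0 ≤ (Λ ^ 2 - lam ^ 2) + (Λ - lam) * (Λ - lam) := by
      have := h.lam_pos
      nlinarith [h.le]
    have hc : ∀ k, Continuous (fun r => N θ r + Tk Λ N k θ r * Tk Λ N k θ r) := fun k =>
      (h.cont' θ).add ((Tk_cont' h k θ).mul (Tk_cont' h k θ))
    have e : Tk Λ N (k + 1 + 1) θ s - Tk Λ N (k + 1) θ s =
        L Λ (fun θ r => (N θ r + Tk Λ N (k + 1) θ r * Tk Λ N (k + 1) θ r)
          - (N θ r + Tk Λ N k θ r * Tk Λ N k θ r)) θ s :=
      L_sub (κ := 0) le_rfl (by linarith) hB hB (hc (k + 1)) (hc k) (to_weight (hb (k + 1) θ))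
        (to_weight (hb k θ)) s
    rw [e]
    have hb2 : ∀ r, ‖(N θ r + Tk Λ N (k + 1) θ r * Tk Λ N (k + 1) θ r)
          - (N θ r + Tk Λ N k θ r * Tk Λ N k θ r)‖
          ≤ 2 * (Λ - lam) * ((Λ - lam) * ((Λ - lam) / Λ) ^ k) := by
      intro r
      rw [add_sub_add_left_eq_sub]
      refine (sq_sub_le (Tk_le h (k + 1) θ r) (Tk_le h k θ r)).trans ?_
      gcongr
      exact ih θ r
    refine (norm_L_le' hΛ (by positivity) hb2 s).trans (le_of_eq ?_)
    rw [pow_succ]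
    field_simp

theorem q_lt_one (h : HypN lam Λ N) : (Λ - lam) / Λ < 1 := by
  rw [div_lt_one h.Λ_pos]
  linarith [h.lam_pos]

theorem q_nonneg (h : HypN lam Λ N) : 0 ≤ (Λ - lam) / Λ :=
  div_nonneg (sub_nonneg.2 h.le) h.Λ_pos.le

theorem Tk_cauchy (h : HypN lam Λ N) (θ : Θ) (s : ℝ) : CauchySeq fun k => Tk Λ N k θ s :=
  cauchySeq_of_le_geometric _ (Λ - lam) (q_lt_one h) fun k => by
    rw [dist_comm, dist_eq_norm]
    exact Tk_sub_le h k θ s

/-- the limit -/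
def T (Λ : ℝ) (N : Θ → ℝ → A) (θ : Θ) (s : ℝ) : A := limUnder atTop fun k => Tk Λ N k θ s

theorem Tk_tendsto (h : HypN lam Λ N) (θ : Θ) (s : ℝ) :
    Tendsto (fun k => Tk Λ N k θ s) atTop (𝓝 (T Λ N θ s)) :=
  (Tk_cauchy h θ s).tendsto_limUnder

theorem Tk_dist_le (h : HypN lam Λ N) (k : ℕ) (θ : Θ) (s : ℝ) :
    dist (Tk Λ N k θ s) (T Λ N θ s) ≤ (Λ - lam) * ((Λ - lam) / Λ) ^ k / (1 - (Λ - lam) / Λ) :=
  dist_le_of_le_geometric_of_tendsto _ _ (q_lt_one h) (fun k => by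
    rw [dist_comm, dist_eq_norm]
    exact Tk_sub_le h k θ s) (Tk_tendsto h θ s) k

theorem T_le (h : HypN lam Λ N) (θ : Θ) (s : ℝ) : ‖T Λ N θ s‖ ≤ Λ - lam :=
  le_of_tendsto ((Tk_tendsto h θ s).norm) (Eventually.of_forall fun k => Tk_le h k θ s)

theorem Tk_unif (h : HypN lam Λ N) :
    TendstoUniformly (fun k (p : Θ × ℝ) => Tk Λ N k p.1 p.2) (fun p => T Λ N p.1 p.2) atTop := by
  rw [Metric.tendstoUniformly_iff]
  intro ε hε
  have h1 : Tendsto (fun k : ℕ => (Λ - lam) * ((Λ - lam) / Λ) ^ k / (1 - (Λ - lam) / Λ)) atTop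
      (𝓝 ((Λ - lam) * 0 / (1 - (Λ - lam) / Λ))) :=
    ((tendsto_pow_atTop_nhds_zero_of_lt_one (q_nonneg h) (q_lt_one h)).const_mul _).div_const _
  rw [mul_zero, zero_div] at h1
  filter_upwards [h1.eventually_lt_const hε] with k hk p
  rw [dist_comm]
  exact (Tk_dist_le h k p.1 p.2).trans_lt hk

theorem T_cont (h : HypN lam Λ N) : Continuous (Function.uncurry (T Λ N)) :=
  (Tk_unif h).continuous (Frequently.of_forall fun k => Tk_cont h k)

theorem T_cont' (h : HypN lam Λ N) (θ : Θ) : Continuous (T Λ N θ) :=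
  (T_cont h).comp (continuous_const.prodMk continuous_id)

/-- `‖x x - y y‖` with `L` -/
theorem L_sq_sub (h : HypN lam Λ N) {U V : Θ → ℝ → A} {θ : Θ} (hU : Continuous (U θ))
    (hV : Continuous (V θ)) (hUb : ∀ r, ‖U θ r‖ ≤ Λ - lam) (hVb : ∀ r, ‖V θ r‖ ≤ Λ - lam)
    {D : ℝ} (hD : 0 ≤ D) (hUV : ∀ r, ‖U θ r - V θ r‖ ≤ D) (s : ℝ) :
    ‖L Λ (fun θ r => N θ r + U θ r * U θ r) θ s - L Λ (fun θ r => N θ r + V θ r * V θ r) θ s‖
      ≤ (Λ - lam) / Λ * D := by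
  have hΛ := h.Λ_pos
  have hle : 0 ≤ Λ - lam := sub_nonneg.2 h.le
  have hB : 0 ≤ (Λ ^ 2 - lam ^ 2) + (Λ - lam) * (Λ - lam) := by
    have := h.lam_pos
    nlinarith [h.le]
  have hb : ∀ (U : Θ → ℝ → A), (∀ r, ‖U θ r‖ ≤ Λ - lam) → ∀ r, ‖N θ r + U θ r * U θ r‖ ≤
      (Λ ^ 2 - lam ^ 2) + (Λ - lam) * (Λ - lam) := by
    intro U hU r
    refine (norm_add_le _ _).trans (add_le_add (h.bound θ r) ((norm_mul_le _ _).trans ?_))
    gcongr
    · exact hU r
    · exact hU r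
  rw [L_sub (κ := 0) (G := fun θ r => N θ r + U θ r * U θ r)
    (G' := fun θ r => N θ r + V θ r * V θ r) le_rfl (by linarith) hB hB
    ((h.cont' θ).add (hU.mul hU)) ((h.cont' θ).add (hV.mul hV))
    (to_weight (hb U hUb)) (to_weight (hb V hVb)) s]
  have hb2 : ∀ r, ‖(N θ r + U θ r * U θ r) - (N θ r + V θ r * V θ r)‖ ≤ 2 * (Λ - lam) * D := by
    intro r
    rw [add_sub_add_left_eq_sub]
    refine (sq_sub_le (hUb r) (hVb r)).trans ?_
    gcongr
    exact hUV r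
  refine (norm_L_le' hΛ (by positivity)
    (G := fun θ r => (N θ r + U θ r * U θ r) - (N θ r + V θ r * V θ r)) hb2 s).trans
    (le_of_eq ?_)
  field_simp

/-- the integral equation -/
theorem T_eq (h : HypN lam Λ N) (θ : Θ) (s : ℝ) :
    T Λ N θ s = L Λ (fun θ r => N θ r + T Λ N θ r * T Λ N θ r) θ s := by
  have h1 : Tendsto (fun k => Tk Λ N (k + 1) θ s) atTop (𝓝 (T Λ N θ s)) :=
    (Tk_tendsto h θ s).comp (tendsto_add_atTop_nat 1)
  refine tendsto_nhds_unique h1 ?_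
  rw [tendsto_iff_dist_tendsto_zero]
  have hq := q_nonneg h
  have hle : 0 ≤ Λ - lam := sub_nonneg.2 h.le
  have hq1 : 0 < 1 - (Λ - lam) / Λ := by linarith [q_lt_one h]
  have h2 : Tendsto (fun k : ℕ => (Λ - lam) / Λ *
      ((Λ - lam) * ((Λ - lam) / Λ) ^ k / (1 - (Λ - lam) / Λ))) atTop
      (𝓝 ((Λ - lam) / Λ * ((Λ - lam) * 0 / (1 - (Λ - lam) / Λ)))) :=
    (((tendsto_pow_atTop_nhds_zero_of_lt_one hq (q_lt_one h)).const_mul _).div_const _).const_mul _
  rw [mul_zero, zero_div, mul_zero] at h2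
  refine squeeze_zero (fun _ => dist_nonneg) (fun k => ?_) h2
  rw [dist_eq_norm]
  exact L_sq_sub h (Tk_cont' h k θ) (T_cont' h θ) (Tk_le h k θ) (T_le h θ) (by positivity)
    (fun r => by rw [← dist_eq_norm]; exact Tk_dist_le h k θ r) s

/-- **the differential equation** -/
theorem hasDerivAt_T (h : HypN lam Λ N) (θ : Θ) (s : ℝ) :
    HasDerivAt (T Λ N θ) (N θ s + T Λ N θ s * T Λ N θ s - (2 * Λ) • T Λ N θ s) s := by
  have hΛ := h.Λ_pos
  have hle : 0 ≤ Λ - lam := sub_nonneg.2 h.le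
  have hB : 0 ≤ (Λ ^ 2 - lam ^ 2) + (Λ - lam) * (Λ - lam) := by
    have := h.lam_pos
    nlinarith [h.le]
  have hb : ∀ r, ‖N θ r + T Λ N θ r * T Λ N θ r‖ ≤
      (Λ ^ 2 - lam ^ 2) + (Λ - lam) * (Λ - lam) := by
    intro r
    refine (norm_add_le _ _).trans (add_le_add (h.bound θ r) ((norm_mul_le _ _).trans ?_))
    gcongr
    · exact T_le h θ r
    · exact T_le h θ r
  have h1 := hasDerivAt_L_time (κ := 0) (Λ := Λ) le_rfl (by linarith) hB
    (G := fun θ r => N θ r + T Λ N θ r * T Λ N θ r) (θ := θ)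
    ((h.cont' θ).add ((T_cont' h θ).mul (T_cont' h θ))) (to_weight hb) s
  have e : T Λ N θ = L Λ (fun θ r => N θ r + T Λ N θ r * T Λ N θ r) θ :=
    funext fun s => T_eq h θ s
  rw [← e] at h1
  exact h1

/-- **Uniqueness.** A continuous solution on the past with values in the ball of radius
`Λ - lam`. -/
theorem T_unique (h : HypN lam Λ N) (θ : Θ) {y : ℝ → A}
    (hy : ∀ s, HasDerivAt y (N θ s + y s * y s - (2 * Λ) • y s) s)
    (hb : ∀ s, ‖y s‖ ≤ Λ - lam) (s : ℝ) : y s = T Λ N θ s := by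
  have hΛ := h.Λ_pos
  have hle : 0 ≤ Λ - lam := sub_nonneg.2 h.le
  have hlam := h.lam_pos
  set z : ℝ → A := fun s => y s - T Λ N θ s with hz
  have hzd : ∀ s, HasDerivAt z ((y s * z s + z s * T Λ N θ s) - (2 * Λ) • z s) s := by
    intro s
    refine ((hy s).sub (hasDerivAt_T h θ s)).congr_deriv ?_
    have e : y s * y s - T Λ N θ s * T Λ N θ s = y s * z s + z s * T Λ N θ s := by
      simp only [hz]; noncomm_ring
    rw [← e, hz, smul_sub]
    abel
  -- `w s = exp (2 Λ s) z s` satisfies `w' = y w + w T`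
  set w : ℝ → A := fun s => Real.exp (2 * Λ * s) • z s with hw
  have hwd : ∀ s, HasDerivAt w (y s * w s + w s * T Λ N θ s) s := by
    intro s
    have hE : HasDerivAt (fun s : ℝ => Real.exp (2 * Λ * s))
        (Real.exp (2 * Λ * s) * (2 * Λ)) s := by
      have h1 : HasDerivAt (fun s : ℝ => 2 * Λ * s) (2 * Λ) s := by
        simpa using (hasDerivAt_id s).const_mul (2 * Λ)
      exact h1.exp
    refine (hE.smul (hzd s)).congr_deriv ?_
    simp only [hw, smul_sub, smul_add, mul_smul_comm, smul_mul_assoc, smul_smul]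
    abel
  have hzb : ∀ s, ‖z s‖ ≤ 2 * (Λ - lam) := fun s =>
    (norm_sub_le _ _).trans (by linarith [hb s, T_le h θ s])
  have hwb : ∀ s, ‖w s‖ ≤ Real.exp (2 * Λ * s) * (2 * (Λ - lam)) := by
    intro s
    rw [hw, norm_smul, Real.norm_eq_abs, Real.abs_exp]
    gcongr
    exact hzb s
  -- Gronwall from `s₀` to `s`
  have hgr : ∀ s₀, s₀ ≤ s → ‖w s‖ ≤ ‖w s₀‖ * Real.exp (2 * (Λ - lam) * (s - s₀)) := by
    intro s₀ hs₀
    have := norm_le_gronwallBound_of_norm_deriv_right_le (f := w)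
      (f' := fun s => y s * w s + w s * T Λ N θ s) (δ := ‖w s₀‖) (K := 2 * (Λ - lam)) (ε := 0)
      (a := s₀) (b := s) (fun x _ => (hwd x).continuousAt.continuousWithinAt)
      (fun x _ => (hwd x).hasDerivWithinAt) le_rfl (fun x _ => by
        rw [add_zero]
        calc ‖y x * w x + w x * T Λ N θ x‖ ≤ ‖y x‖ * ‖w x‖ + ‖w x‖ * ‖T Λ N θ x‖ :=
              (norm_add_le _ _).trans (add_le_add (norm_mul_le _ _) (norm_mul_le _ _))
          _ ≤ (Λ - lam) * ‖w x‖ + ‖w x‖ * (Λ - lam) := by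
              gcongr
              · exact hb x
              · exact T_le h θ x
          _ = _ := by ring) s (right_mem_Icc.2 hs₀)
    rwa [gronwallBound_ε0] at this
  have hlim : Tendsto (fun s₀ => Real.exp (2 * Λ * s₀) * (2 * (Λ - lam)) *
      Real.exp (2 * (Λ - lam) * (s - s₀))) atBot (𝓝 0) := by
    have e : (fun s₀ => Real.exp (2 * Λ * s₀) * (2 * (Λ - lam)) *
      Real.exp (2 * (Λ - lam) * (s - s₀))) = fun s₀ =>
        2 * (Λ - lam) * Real.exp (2 * (Λ - lam) * s) * Real.exp (2 * lam * s₀) := by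
      funext s₀
      have e1 : Real.exp (2 * (Λ - lam) * (s - s₀)) * Real.exp (2 * Λ * s₀)
          = Real.exp (2 * (Λ - lam) * s) * Real.exp (2 * lam * s₀) := by
        rw [← Real.exp_add, ← Real.exp_add]
        congr 1
        ring
      calc _ = 2 * (Λ - lam) * (Real.exp (2 * (Λ - lam) * (s - s₀)) * Real.exp (2 * Λ * s₀)) := by
            ring
        _ = _ := by rw [e1]; ring
    rw [e]
    have h1 : Tendsto (fun s₀ : ℝ => Real.exp (2 * lam * s₀)) atBot (𝓝 0) :=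
      Real.tendsto_exp_atBot.comp (tendsto_id.const_mul_atBot (by positivity))
    simpa using h1.const_mul (2 * (Λ - lam) * Real.exp (2 * (Λ - lam) * s))
  have hw0 : ‖w s‖ ≤ 0 := by
    refine ge_of_tendsto hlim ?_
    filter_upwards [eventually_le_atBot s] with s₀ hs₀
    refine (hgr s₀ hs₀).trans ?_
    gcongr
    exact hwb s₀
  have hw1 : w s = 0 := norm_le_zero_iff.1 hw0
  have hz0 : z s = 0 := by
    have := (smul_eq_zero.1 hw1).resolve_left (Real.exp_pos _).ne'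
    exact this
  exact sub_eq_zero.1 hz0

end Vale.Agent.P207.Q.Ric
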