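import Vale.Agent.P207.Q.Ric2

/-!
# The Riccati equation on the whole past: differentiability with respect to parameters
-/

open MeasureTheory Set Filter Topology

set_option linter.unusedSectionVars false

noncomputable section

namespace Vale.Agent.P207.Q.Ric

variable {Θ : Type*} {A : Type*} [NormedRing A] [NormedAlgebra ℝ A] [CompleteSpace A]
variable [TopologicalSpace Θ] [FirstCountableTopology Θ] {lam Λ κ C : ℝ} {N M : Θ → ℝ → A}

theorem HypM.lt (hM : HypM lam Λ κ C M) (h : HypN lam Λ N) : κ < 2 * Λ := by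
  linarith [hM.κ_lt, h.le]

/-- the bound of the derivative -/
def Cd (lam κ C : ℝ) : ℝ := C / (2 * lam - κ)

theorem Cd_nonneg (hM : HypM lam Λ κ C M) : 0 ≤ Cd lam κ C :=
  div_nonneg hM.C0 (by linarith [hM.κ_lt])

/-- the integrand of the derivative equation -/
theorem lin_bound (h : HypN lam Λ N) (hM : HypM lam Λ κ C M) {x t : A} {D w : ℝ}
    (hx : ‖x‖ ≤ D * w) (ht : ‖t‖ ≤ Λ - lam) : ‖x * t + t * x‖ ≤ 2 * (Λ - lam) * D * w := by
  have hle : 0 ≤ Λ - lam := sub_nonneg.2 h.le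
  have hDw : 0 ≤ D * w := (norm_nonneg _).trans hx
  calc ‖x * t + t * x‖ ≤ ‖x‖ * ‖t‖ + ‖t‖ * ‖x‖ :=
        (norm_add_le _ _).trans (add_le_add (norm_mul_le _ _) (norm_mul_le _ _))
    _ ≤ D * w * (Λ - lam) + (Λ - lam) * (D * w) := by gcongr
    _ = _ := by ring

theorem Sk_prop (h : HypN lam Λ N) (hM : HypM lam Λ κ C M) (k : ℕ) :
    Continuous (Function.uncurry (Sk Λ N M k)) ∧
      ∀ θ s, ‖Sk Λ N M k θ s‖ ≤ Cd lam κ C * Real.exp (κ * |s|) := by
  have hΛ := h.Λ_pos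
  have hle : 0 ≤ Λ - lam := sub_nonneg.2 h.le
  have hd : 0 < 2 * lam - κ := by linarith [hM.κ_lt]
  have hd2 : 0 < 2 * Λ - κ := by linarith [hM.lt h]
  have hC0 := hM.C0
  have hCd := Cd_nonneg hM
  induction k with
  | zero =>
    refine ⟨continuous_const, fun θ s => ?_⟩
    simp only [Sk, norm_zero]
    positivity
  | succ k ih =>
    have hb : ∀ θ r, ‖M θ r + (Sk Λ N M k θ r * Tk Λ N k θ r + Tk Λ N k θ r * Sk Λ N M k θ r)‖ ≤
        (C + 2 * (Λ - lam) * Cd lam κ C) * Real.exp (κ * |r|) := by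
      intro θ r
      refine (norm_add_le _ _).trans ?_
      rw [add_mul]
      exact add_le_add (hM.bound θ r) (lin_bound h hM (ih.2 θ r) (Tk_le h k θ r))
    have hB : 0 ≤ C + 2 * (Λ - lam) * Cd lam κ C := by positivity
    have hc : Continuous (Function.uncurry fun θ r =>
        M θ r + (Sk Λ N M k θ r * Tk Λ N k θ r + Tk Λ N k θ r * Sk Λ N M k θ r)) :=
      hM.cont.add ((ih.1.mul (Tk_cont h k)).add ((Tk_cont h k).mul ih.1))
    refine ⟨continuous_L hM.κ0 (hM.lt h) hB hc hb, fun θ s => ?_⟩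
    refine (norm_L_le hM.κ0 (hM.lt h) hB (hb θ) s).trans (le_of_eq ?_)
    congr 1
    unfold Cd
    field_simp
    ring

theorem Sk_cont (h : HypN lam Λ N) (hM : HypM lam Λ κ C M) (k : ℕ) :
    Continuous (Function.uncurry (Sk Λ N M k)) := (Sk_prop h hM k).1

theorem Sk_cont' (h : HypN lam Λ N) (hM : HypM lam Λ κ C M) (k : ℕ) (θ : Θ) :
    Continuous (Sk Λ N M k θ) :=
  (Sk_cont h hM k).comp (continuous_const.prodMk continuous_id)

theorem Sk_le (h : HypN lam Λ N) (hM : HypM lam Λ κ C M) (k : ℕ) (θ : Θ) (s : ℝ) :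
    ‖Sk Λ N M k θ s‖ ≤ Cd lam κ C * Real.exp (κ * |s|) := (Sk_prop h hM k).2 θ s

/-- the contraction factor of the derivative equation -/
def aq (lam Λ κ : ℝ) : ℝ := 2 * (Λ - lam) / (2 * Λ - κ)

/-- a common rate, between the two contraction factors and `1` -/
def rq (lam Λ κ : ℝ) : ℝ := (max (aq lam Λ κ) ((Λ - lam) / Λ) + 1) / 2

/-- the constant of the geometric bound -/
def bq (lam Λ κ C : ℝ) : ℝ :=
  Cd lam κ C / rq lam Λ κ + Cd lam κ C + 2 * Cd lam κ C * (Λ - lam) / (2 * Λ - κ) / (rq lam Λ κ - aq lam Λ κ)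

theorem aq_lt_one (h : HypN lam Λ N) (hM : HypM lam Λ κ C M) : aq lam Λ κ < 1 := by
  have hd2 : 0 < 2 * Λ - κ := by linarith [hM.lt h]
  unfold aq
  rw [div_lt_one hd2]
  linarith [hM.κ_lt]

theorem aq_nonneg (h : HypN lam Λ N) (hM : HypM lam Λ κ C M) : 0 ≤ aq lam Λ κ := by
  have hd2 : 0 < 2 * Λ - κ := by linarith [hM.lt h]
  have hle : 0 ≤ Λ - lam := sub_nonneg.2 h.le
  unfold aq
  positivity

theorem rq_lt_one (h : HypN lam Λ N) (hM : HypM lam Λ κ C M) : rq lam Λ κ < 1 := by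
  have h1 := aq_lt_one h hM
  have h2 := q_lt_one h
  have := max_lt h1 h2
  unfold rq
  linarith

theorem aq_lt_rq (h : HypN lam Λ N) (hM : HypM lam Λ κ C M) : aq lam Λ κ < rq lam Λ κ := by
  have h1 := aq_lt_one h hM
  have h2 := q_lt_one h
  have h3 := max_lt h1 h2
  have h4 := le_max_left (aq lam Λ κ) ((Λ - lam) / Λ)
  unfold rq
  linarith

theorem q_lt_rq (h : HypN lam Λ N) (hM : HypM lam Λ κ C M) : (Λ - lam) / Λ < rq lam Λ κ := by
  have h1 := aq_lt_one h hM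
  have h2 := q_lt_one h
  have h3 := max_lt h1 h2
  have h4 := le_max_right (aq lam Λ κ) ((Λ - lam) / Λ)
  unfold rq
  linarith

theorem rq_pos (h : HypN lam Λ N) (hM : HypM lam Λ κ C M) : 0 < rq lam Λ κ :=
  (q_nonneg h).trans_lt (q_lt_rq h hM)

theorem bq_nonneg (h : HypN lam Λ N) (hM : HypM lam Λ κ C M) : 0 ≤ bq lam Λ κ C := by
  have h1 := Cd_nonneg hM
  have h2 := rq_pos h hM
  have h3 := aq_lt_rq h hM
  have hle : 0 ≤ Λ - lam := sub_nonneg.2 h.le
  have hd2 : 0 < 2 * Λ - κ := by linarith [hM.lt h]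
  have h4 : 0 < rq lam Λ κ - aq lam Λ κ := sub_pos.2 h3
  unfold bq
  positivity

theorem Sk_sub_le (h : HypN lam Λ N) (hM : HypM lam Λ κ C M) (k : ℕ) (θ : Θ) (s : ℝ) :
    ‖Sk Λ N M (k + 1) θ s - Sk Λ N M k θ s‖
      ≤ bq lam Λ κ C * rq lam Λ κ ^ k * Real.exp (κ * |s|) := by
  have hΛ := h.Λ_pos
  have hle : 0 ≤ Λ - lam := sub_nonneg.2 h.le
  have hd : 0 < 2 * lam - κ := by linarith [hM.κ_lt]
  have hd2 : 0 < 2 * Λ - κ := by linarith [hM.lt h]
  have hC0 := hM.C0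
  have hCd := Cd_nonneg hM
  have hr0 := rq_pos h hM
  have hb0 := bq_nonneg h hM
  have har := aq_lt_rq h hM
  have hqr := q_lt_rq h hM
  induction k generalizing θ s with
  | zero =>
    have h1 := Sk_le h hM 1 θ s
    simp only [Sk, sub_zero, pow_zero, mul_one, zero_add] at h1 ⊢
    refine h1.trans ?_
    gcongr
    have h4 : 0 < rq lam Λ κ - aq lam Λ κ := sub_pos.2 har
    unfold bq
    have h5 : 0 ≤ Cd lam κ C / rq lam Λ κ := by positivity
    have h6 : 0 ≤ 2 * Cd lam κ C * (Λ - lam) / (2 * Λ - κ) / (rq lam Λ κ - aq lam Λ κ) := by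
      positivity
    linarith
  | succ k ih =>
    have hb : ∀ (k : ℕ) (θ : Θ) r,
        ‖M θ r + (Sk Λ N M k θ r * Tk Λ N k θ r + Tk Λ N k θ r * Sk Λ N M k θ r)‖ ≤
        (C + 2 * (Λ - lam) * Cd lam κ C) * Real.exp (κ * |r|) := by
      intro k θ r
      refine (norm_add_le _ _).trans ?_
      rw [add_mul]
      exact add_le_add (hM.bound θ r) (lin_bound h hM (Sk_le h hM k θ r) (Tk_le h k θ r))
    have hB : 0 ≤ C + 2 * (Λ - lam) * Cd lam κ C := by positivity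
    have hc : ∀ k, Continuous fun r =>
        M θ r + (Sk Λ N M k θ r * Tk Λ N k θ r + Tk Λ N k θ r * Sk Λ N M k θ r) := fun k =>
      (hM.cont' θ).add (((Sk_cont' h hM k θ).mul (Tk_cont' h k θ)).add
        ((Tk_cont' h k θ).mul (Sk_cont' h hM k θ)))
    have e : Sk Λ N M (k + 1 + 1) θ s - Sk Λ N M (k + 1) θ s =
        L Λ (fun θ r => (M θ r + (Sk Λ N M (k + 1) θ r * Tk Λ N (k + 1) θ r
            + Tk Λ N (k + 1) θ r * Sk Λ N M (k + 1) θ r))
          - (M θ r + (Sk Λ N M k θ r * Tk Λ N k θ r + Tk Λ N k θ r * Sk Λ N M k θ r))) θ s :=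
      L_sub hM.κ0 (hM.lt h) hB hB (hc (k + 1)) (hc k) (hb (k + 1) θ) (hb k θ) s
    rw [e]
    have hb2 : ∀ r, ‖(M θ r + (Sk Λ N M (k + 1) θ r * Tk Λ N (k + 1) θ r
            + Tk Λ N (k + 1) θ r * Sk Λ N M (k + 1) θ r))
          - (M θ r + (Sk Λ N M k θ r * Tk Λ N k θ r + Tk Λ N k θ r * Sk Λ N M k θ r))‖
          ≤ (2 * (Λ - lam) * (bq lam Λ κ C * rq lam Λ κ ^ k)
            + 2 * Cd lam κ C * ((Λ - lam) * rq lam Λ κ ^ k)) * Real.exp (κ * |r|) := by
      intro r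
      set S' := Sk Λ N M (k + 1) θ r
      set S := Sk Λ N M k θ r
      set T' := Tk Λ N (k + 1) θ r
      set T := Tk Λ N k θ r
      have e1 : (M θ r + (S' * T' + T' * S')) - (M θ r + (S * T + T * S))
          = ((S' - S) * T' + T' * (S' - S)) + (S * (T' - T) + (T' - T) * S) := by noncomm_ring
      rw [e1]
      have hTT : ‖T' - T‖ ≤ (Λ - lam) * rq lam Λ κ ^ k := by
        refine (Tk_sub_le h k θ r).trans ?_
        gcongr
      have hS : ‖S‖ ≤ Cd lam κ C * Real.exp (κ * |r|) := Sk_le h hM k θ r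
      have h1 : ‖(S' - S) * T' + T' * (S' - S)‖
          ≤ 2 * (Λ - lam) * (bq lam Λ κ C * rq lam Λ κ ^ k) * Real.exp (κ * |r|) :=
        lin_bound h hM (ih θ r) (Tk_le h (k + 1) θ r)
      have h2 : ‖S * (T' - T) + (T' - T) * S‖
          ≤ 2 * Cd lam κ C * ((Λ - lam) * rq lam Λ κ ^ k) * Real.exp (κ * |r|) := by
        calc ‖S * (T' - T) + (T' - T) * S‖ ≤ ‖S‖ * ‖T' - T‖ + ‖T' - T‖ * ‖S‖ :=
              (norm_add_le _ _).trans (add_le_add (norm_mul_le _ _) (norm_mul_le _ _))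
          _ ≤ Cd lam κ C * Real.exp (κ * |r|) * ((Λ - lam) * rq lam Λ κ ^ k)
              + ((Λ - lam) * rq lam Λ κ ^ k) * (Cd lam κ C * Real.exp (κ * |r|)) := by gcongr
          _ = _ := by ring
      refine (norm_add_le _ _).trans ?_
      rw [add_mul]
      exact add_le_add h1 h2
    refine (norm_L_le hM.κ0 (hM.lt h) (by positivity) hb2 s).trans ?_
    refine mul_le_mul_of_nonneg_right ?_ (Real.exp_pos _).le
    rw [pow_succ]
    have h4 : 0 < rq lam Λ κ - aq lam Λ κ := sub_pos.2 har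
    have key : aq lam Λ κ * bq lam Λ κ C + 2 * Cd lam κ C * (Λ - lam) / (2 * Λ - κ)
        ≤ bq lam Λ κ C * rq lam Λ κ := by
      have h5 : 2 * Cd lam κ C * (Λ - lam) / (2 * Λ - κ)
          ≤ bq lam Λ κ C * (rq lam Λ κ - aq lam Λ κ) := by
        rw [← div_le_iff₀ h4]
        unfold bq
        have h5 : 0 ≤ Cd lam κ C / rq lam Λ κ := by positivity
        linarith
      nlinarith
    calc (2 * (Λ - lam) * (bq lam Λ κ C * rq lam Λ κ ^ k)
            + 2 * Cd lam κ C * ((Λ - lam) * rq lam Λ κ ^ k)) / (2 * Λ - κ)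
        = (aq lam Λ κ * bq lam Λ κ C + 2 * Cd lam κ C * (Λ - lam) / (2 * Λ - κ))
            * rq lam Λ κ ^ k := by
          unfold aq
          field_simp
      _ ≤ bq lam Λ κ C * rq lam Λ κ * rq lam Λ κ ^ k := by gcongr
      _ = _ := by ring

/-- the limit of the derivatives -/
def S (Λ : ℝ) (N M : Θ → ℝ → A) (θ : Θ) (s : ℝ) : A := limUnder atTop fun k => Sk Λ N M k θ s

theorem Sk_tendsto (h : HypN lam Λ N) (hM : HypM lam Λ κ C M) (θ : Θ) (s : ℝ) :
    Tendsto (fun k => Sk Λ N M k θ s) atTop (𝓝 (S Λ N M θ s)) := by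
  refine CauchySeq.tendsto_limUnder ?_
  refine cauchySeq_of_le_geometric _ (bq lam Λ κ C * Real.exp (κ * |s|)) (rq_lt_one h hM)
    fun k => ?_
  rw [dist_comm, dist_eq_norm]
  refine (Sk_sub_le h hM k θ s).trans (le_of_eq ?_)
  ring

theorem Sk_dist_le (h : HypN lam Λ N) (hM : HypM lam Λ κ C M) (k : ℕ) (θ : Θ) (s : ℝ) :
    dist (Sk Λ N M k θ s) (S Λ N M θ s)
      ≤ bq lam Λ κ C * Real.exp (κ * |s|) * rq lam Λ κ ^ k / (1 - rq lam Λ κ) :=
  dist_le_of_le_geometric_of_tendsto _ _ (rq_lt_one h hM) (fun k => by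
    rw [dist_comm, dist_eq_norm]
    refine (Sk_sub_le h hM k θ s).trans (le_of_eq ?_)
    ring) (Sk_tendsto h hM θ s) k

theorem S_le (h : HypN lam Λ N) (hM : HypM lam Λ κ C M) (θ : Θ) (s : ℝ) :
    ‖S Λ N M θ s‖ ≤ Cd lam κ C * Real.exp (κ * |s|) :=
  le_of_tendsto ((Sk_tendsto h hM θ s).norm) (Eventually.of_forall fun k => Sk_le h hM k θ s)

theorem Sk_unif (h : HypN lam Λ N) (hM : HypM lam Λ κ C M) (R : ℝ) :
    TendstoUniformlyOn (fun k (p : Θ × ℝ) => Sk Λ N M k p.1 p.2) (fun p => S Λ N M p.1 p.2) atTop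
      {p | |p.2| < R} := by
  rw [Metric.tendstoUniformlyOn_iff]
  intro ε hε
  have hr0 := rq_pos h hM
  have hr1 := rq_lt_one h hM
  have hb0 := bq_nonneg h hM
  have h1 : Tendsto (fun k : ℕ => bq lam Λ κ C * Real.exp (κ * R) * rq lam Λ κ ^ k /
      (1 - rq lam Λ κ)) atTop (𝓝 (bq lam Λ κ C * Real.exp (κ * R) * 0 / (1 - rq lam Λ κ))) :=
    ((tendsto_pow_atTop_nhds_zero_of_lt_one hr0.le hr1).const_mul _).div_const _
  rw [mul_zero, zero_div] at h1
  filter_upwards [h1.eventually_lt_const hε] with k hk p hp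
  rw [dist_comm]
  refine (Sk_dist_le h hM k p.1 p.2).trans_lt (lt_of_le_of_lt ?_ hk)
  have hκ := hM.κ0
  have h2 : 0 < 1 - rq lam Λ κ := by linarith
  have h3 : |p.2| ≤ R := le_of_lt hp
  gcongr

theorem S_cont (h : HypN lam Λ N) (hM : HypM lam Λ κ C M) :
    Continuous (Function.uncurry (S Λ N M)) := by
  rw [continuous_iff_continuousAt]
  intro p
  have ho' : IsOpen {q : Θ × ℝ | |q.2| < |p.2| + 1} :=
    isOpen_lt continuous_snd.abs continuous_const
  have h1 : ContinuousOn (Function.uncurry (S Λ N M)) {q : Θ × ℝ | |q.2| < |p.2| + 1} :=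
    (Sk_unif h hM (|p.2| + 1)).continuousOn
      (Frequently.of_forall fun k => (Sk_cont h hM k).continuousOn)
  exact h1.continuousAt (ho'.mem_nhds (by simp))

/-- differentiability of the iterates along a curve -/
theorem hasDerivAt_Tk (h : HypN lam Λ N) (hM : HypM lam Λ κ C M) {c : ℝ → Θ}
    (hd : ∀ x r, HasDerivAt (fun x => N (c x) r) (M (c x) r) x) (k : ℕ) (x s : ℝ) :
    HasDerivAt (fun x => Tk Λ N k (c x) s) (Sk Λ N M k (c x) s) x := by
  have hΛ := h.Λ_pos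
  have hle : 0 ≤ Λ - lam := sub_nonneg.2 h.le
  have hCd := Cd_nonneg hM
  have hC0 := hM.C0
  induction k generalizing x s with
  | zero => exact hasDerivAt_const x (0 : A)
  | succ k ih =>
    have hB : 0 ≤ (Λ ^ 2 - lam ^ 2) + (Λ - lam) * (Λ - lam) := by
      have := h.lam_pos
      nlinarith [h.le]
    have hb : ∀ (θ : Θ) r, ‖N θ r + Tk Λ N k θ r * Tk Λ N k θ r‖ ≤
        ((Λ ^ 2 - lam ^ 2) + (Λ - lam) * (Λ - lam)) * Real.exp (κ * |r|) := by
      intro θ r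
      have h1 : ‖N θ r + Tk Λ N k θ r * Tk Λ N k θ r‖ ≤
          (Λ ^ 2 - lam ^ 2) + (Λ - lam) * (Λ - lam) := by
        refine (norm_add_le _ _).trans (add_le_add (h.bound θ r) ((norm_mul_le _ _).trans ?_))
        gcongr
        · exact Tk_le h k θ r
        · exact Tk_le h k θ r
      refine h1.trans (le_mul_of_one_le_right hB ?_)
      exact Real.one_le_exp (mul_nonneg hM.κ0 (abs_nonneg _))
    have hb' : ∀ (θ : Θ) r,
        ‖M θ r + (Sk Λ N M k θ r * Tk Λ N k θ r + Tk Λ N k θ r * Sk Λ N M k θ r)‖ ≤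
        (C + 2 * (Λ - lam) * Cd lam κ C) * Real.exp (κ * |r|) := by
      intro θ r
      refine (norm_add_le _ _).trans ?_
      rw [add_mul]
      exact add_le_add (hM.bound θ r) (lin_bound h hM (Sk_le h hM k θ r) (Tk_le h k θ r))
    refine hasDerivAt_L hM.κ0 (hM.lt h) hB (by positivity)
      (G := fun θ r => N θ r + Tk Λ N k θ r * Tk Λ N k θ r)
      (G' := fun θ r => M θ r + (Sk Λ N M k θ r * Tk Λ N k θ r + Tk Λ N k θ r * Sk Λ N M k θ r))
      (fun x => (h.cont' _).add ((Tk_cont' h k _).mul (Tk_cont' h k _)))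
      (fun x => (hM.cont' _).add (((Sk_cont' h hM k _).mul (Tk_cont' h k _)).add
        ((Tk_cont' h k _).mul (Sk_cont' h hM k _))))
      (fun x r => hb _ r) (fun x r => hb' _ r) (fun x r => ?_) x s
    exact (hd x r).add ((ih x r).mul (ih x r))

/-- **Differentiability of `T` along a curve.** -/
theorem hasDerivAt_T_param (h : HypN lam Λ N) (hM : HypM lam Λ κ C M) {c : ℝ → Θ}
    (hd : ∀ x r, HasDerivAt (fun x => N (c x) r) (M (c x) r) x) (x s : ℝ) :
    HasDerivAt (fun x => T Λ N (c x) s) (S Λ N M (c x) s) x := by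
  refine hasDerivAt_of_tendstoUniformly (l := atTop) (f := fun k x => Tk Λ N k (c x) s)
    (f' := fun k x => Sk Λ N M k (c x) s) (g' := fun x => S Λ N M (c x) s) ?_
    (Eventually.of_forall fun k x => hasDerivAt_Tk h hM hd k x s)
    (fun x => Tk_tendsto h (c x) s) x
  rw [Metric.tendstoUniformly_iff]
  intro ε hε
  have := Metric.tendstoUniformlyOn_iff.1 (Sk_unif h hM (|s| + 1)) ε hε
  filter_upwards [this] with k hk y
  exact hk (c y, s) (by simp)

/-- the derivative equation -/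
theorem S_eq (h : HypN lam Λ N) (hM : HypM lam Λ κ C M) (θ : Θ) (s : ℝ) :
    HasDerivAt (S Λ N M θ) (M θ s + (S Λ N M θ s * T Λ N θ s + T Λ N θ s * S Λ N M θ s)
      - (2 * Λ) • S Λ N M θ s) s := by
  have hΛ := h.Λ_pos
  have hle : 0 ≤ Λ - lam := sub_nonneg.2 h.le
  have hCd := Cd_nonneg hM
  have hC0 := hM.C0
  have hd2 : 0 < 2 * Λ - κ := by linarith [hM.lt h]
  have hr0 := rq_pos h hM
  have hr1 := rq_lt_one h hM
  have hb0 := bq_nonneg h hM
  have hcS : Continuous (S Λ N M θ) := (S_cont h hM).comp (continuous_const.prodMk continuous_id)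
  have hb : ∀ {U V : ℝ → A} {D : ℝ}, (∀ r, ‖U r‖ ≤ D * Real.exp (κ * |r|)) → (∀ r, ‖V r‖ ≤ Λ - lam)
      → ∀ r, ‖M θ r + (U r * V r + V r * U r)‖ ≤
        (C + 2 * (Λ - lam) * D) * Real.exp (κ * |r|) := by
    intro U V D hU hV r
    refine (norm_add_le _ _).trans ?_
    rw [add_mul]
    exact add_le_add (hM.bound θ r) (lin_bound h hM (hU r) (hV r))
  have hB : 0 ≤ C + 2 * (Λ - lam) * Cd lam κ C := by positivity
  have hcG : Continuous fun r => M θ r + (S Λ N M θ r * T Λ N θ r + T Λ N θ r * S Λ N M θ r) :=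
    (hM.cont' θ).add ((hcS.mul (T_cont' h θ)).add ((T_cont' h θ).mul hcS))
  have hcGk : ∀ k, Continuous fun r =>
      M θ r + (Sk Λ N M k θ r * Tk Λ N k θ r + Tk Λ N k θ r * Sk Λ N M k θ r) := fun k =>
    (hM.cont' θ).add (((Sk_cont' h hM k θ).mul (Tk_cont' h k θ)).add
      ((Tk_cont' h k θ).mul (Sk_cont' h hM k θ)))
  have hSL : ∀ s, S Λ N M θ s = L Λ (fun θ r => M θ r + (S Λ N M θ r * T Λ N θ r
      + T Λ N θ r * S Λ N M θ r)) θ s := by
    intro s
    have h1 : Tendsto (fun k => Sk Λ N M (k + 1) θ s) atTop (𝓝 (S Λ N M θ s)) :=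
      (Sk_tendsto h hM θ s).comp (tendsto_add_atTop_nat 1)
    refine tendsto_nhds_unique h1 ?_
    rw [tendsto_iff_dist_tendsto_zero]
    set q := (Λ - lam) / Λ with hq
    have hq0 : 0 ≤ q := q_nonneg h
    have hq1 : q < 1 := q_lt_one h
    have h1q : 0 < 1 - q := by linarith
    have h1r : 0 < 1 - rq lam Λ κ := by linarith
    have h2 : Tendsto (fun k : ℕ => (2 * (Λ - lam) * (bq lam Λ κ C * rq lam Λ κ ^ k /
        (1 - rq lam Λ κ)) + 2 * Cd lam κ C * ((Λ - lam) * q ^ k / (1 - q))) / (2 * Λ - κ)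
          * Real.exp (κ * |s|)) atTop
        (𝓝 ((2 * (Λ - lam) * (bq lam Λ κ C * 0 /
        (1 - rq lam Λ κ)) + 2 * Cd lam κ C * ((Λ - lam) * 0 / (1 - q))) / (2 * Λ - κ)
          * Real.exp (κ * |s|))) := by
      have ha := tendsto_pow_atTop_nhds_zero_of_lt_one hr0.le hr1
      have hb := tendsto_pow_atTop_nhds_zero_of_lt_one hq0 hq1
      exact (((((ha.const_mul _).div_const _).const_mul _).add
        (((hb.const_mul _).div_const _).const_mul _)).div_const _).mul_const _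
    simp only [mul_zero, zero_div, add_zero, zero_mul] at h2
    refine squeeze_zero (fun _ => dist_nonneg) (fun k => ?_) h2
    rw [dist_eq_norm]
    have e : Sk Λ N M (k + 1) θ s - L Λ (fun θ r => M θ r + (S Λ N M θ r * T Λ N θ r
        + T Λ N θ r * S Λ N M θ r)) θ s =
        L Λ (fun θ r => (M θ r + (Sk Λ N M k θ r * Tk Λ N k θ r
            + Tk Λ N k θ r * Sk Λ N M k θ r))
          - (M θ r + (S Λ N M θ r * T Λ N θ r + T Λ N θ r * S Λ N M θ r))) θ s :=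
      L_sub (G := fun θ r => M θ r + (Sk Λ N M k θ r * Tk Λ N k θ r
            + Tk Λ N k θ r * Sk Λ N M k θ r))
        (G' := fun θ r => M θ r + (S Λ N M θ r * T Λ N θ r + T Λ N θ r * S Λ N M θ r))
        hM.κ0 (hM.lt h) hB hB (hcGk k) hcG
        (hb (Sk_le h hM k θ) (Tk_le h k θ)) (hb (S_le h hM θ) (T_le h θ)) s
    rw [e]
    have hb2 : ∀ r, ‖(M θ r + (Sk Λ N M k θ r * Tk Λ N k θ r + Tk Λ N k θ r * Sk Λ N M k θ r))
          - (M θ r + (S Λ N M θ r * T Λ N θ r + T Λ N θ r * S Λ N M θ r))‖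
          ≤ (2 * (Λ - lam) * (bq lam Λ κ C * rq lam Λ κ ^ k / (1 - rq lam Λ κ))
            + 2 * Cd lam κ C * ((Λ - lam) * q ^ k / (1 - q))) * Real.exp (κ * |r|) := by
      intro r
      have hS1 := Sk_dist_le h hM k θ r
      have hT1 := Tk_dist_le h k θ r
      rw [dist_eq_norm] at hS1 hT1
      have hSb := S_le h hM θ r
      have hTb := Tk_le h k θ r
      set S' := Sk Λ N M k θ r
      set S₁ := S Λ N M θ r
      set T' := Tk Λ N k θ r
      set T₁ := T Λ N θ r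
      have e1 : (M θ r + (S' * T' + T' * S')) - (M θ r + (S₁ * T₁ + T₁ * S₁))
          = ((S' - S₁) * T' + T' * (S' - S₁)) + (S₁ * (T' - T₁) + (T' - T₁) * S₁) := by
        noncomm_ring
      rw [e1]
      have hS2 : ‖S' - S₁‖ ≤ (bq lam Λ κ C * rq lam Λ κ ^ k / (1 - rq lam Λ κ))
          * Real.exp (κ * |r|) := by
        refine hS1.trans (le_of_eq ?_)
        ring
      have h1 := lin_bound h hM hS2 hTb
      have h2 : ‖S₁ * (T' - T₁) + (T' - T₁) * S₁‖
          ≤ 2 * Cd lam κ C * ((Λ - lam) * q ^ k / (1 - q)) * Real.exp (κ * |r|) := by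
        calc ‖S₁ * (T' - T₁) + (T' - T₁) * S₁‖ ≤ ‖S₁‖ * ‖T' - T₁‖ + ‖T' - T₁‖ * ‖S₁‖ :=
              (norm_add_le _ _).trans (add_le_add (norm_mul_le _ _) (norm_mul_le _ _))
          _ ≤ Cd lam κ C * Real.exp (κ * |r|) * ((Λ - lam) * q ^ k / (1 - q))
              + ((Λ - lam) * q ^ k / (1 - q)) * (Cd lam κ C * Real.exp (κ * |r|)) := by
                gcongr
          _ = _ := by ring
      refine (norm_add_le _ _).trans ?_
      rw [add_mul]
      exact add_le_add h1 h2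
    exact norm_L_le hM.κ0 (hM.lt h) (by positivity)
      (G := fun θ r => (M θ r + (Sk Λ N M k θ r * Tk Λ N k θ r + Tk Λ N k θ r * Sk Λ N M k θ r))
          - (M θ r + (S Λ N M θ r * T Λ N θ r + T Λ N θ r * S Λ N M θ r))) hb2 s
  have h1 := hasDerivAt_L_time hM.κ0 (hM.lt h) hB
    (G := fun θ r => M θ r + (S Λ N M θ r * T Λ N θ r + T Λ N θ r * S Λ N M θ r)) (θ := θ)
    hcG (hb (S_le h hM θ) (T_le h θ)) s
  have e : S Λ N M θ = L Λ (fun θ r => M θ r + (S Λ N M θ r * T Λ N θ r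
      + T Λ N θ r * S Λ N M θ r)) θ := funext hSL
  rw [← e] at h1
  exact h1

end Vale.Agent.P207.Q.Ric
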