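import Mathlib

/-!
# P207: the Jacobi tensor with `J 0 = 0` along a geodesic, the spherical Riccati solution
`J' J⁻¹` and its distance to a bounded solution `u` on the half line
-/

open Set Filter Topology
open scoped InnerProductSpace RealInnerProductSpace

set_option linter.unusedSectionVars false
set_option linter.deprecated false

noncomputable section

namespace Vale.Agent.P207.Q.Ric

/-- decay from a differential inequality on the half line -/
theorem decay {f f' : ℝ → ℝ} {c : ℝ} (hf : ∀ s, 0 ≤ s → HasDerivAt f (f' s) s)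
    (h : ∀ s, 0 ≤ s → f' s ≤ c * f s) {r s : ℝ} (hr : 0 ≤ r) (hrs : r ≤ s) :
    f s ≤ Real.exp (c * (s - r)) * f r := by
  have hd : ∀ t, 0 ≤ t → HasDerivAt (fun t => Real.exp (-(c * t)) * f t)
      (Real.exp (-(c * t)) * (f' t - c * f t)) t := by
    intro t ht
    have h1 : HasDerivAt (fun t : ℝ => -(c * t)) (-c) t := by
      simpa [neg_mul] using (hasDerivAt_id t).const_mul (-c)
    have h2 := (h1.exp.mul (hf t ht))
    refine h2.congr_deriv ?_
    ring
  have hanti : AntitoneOn (fun t => Real.exp (-(c * t)) * f t) (Ici 0) := by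
    refine antitoneOn_of_deriv_nonpos (convex_Ici 0)
      (fun t ht => (hd t ht).continuousAt.continuousWithinAt)
      (fun t ht => ((hd t ?_).differentiableAt).differentiableWithinAt) ?_
    · rw [interior_Ici] at ht; exact le_of_lt ht
    · intro t ht
      rw [interior_Ici] at ht
      rw [(hd t (le_of_lt ht)).deriv]
      exact mul_nonpos_of_nonneg_of_nonpos (Real.exp_pos _).le
        (by have := h t (le_of_lt ht); linarith)
  have h3 := hanti (mem_Ici.2 hr) (mem_Ici.2 (hr.trans hrs)) hrs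
  simp only at h3
  have h4 : f s = Real.exp (c * s) * (Real.exp (-(c * s)) * f s) := by
    rw [← mul_assoc, ← Real.exp_add]; simp
  have h5 : Real.exp (c * (s - r)) * f r = Real.exp (c * s) * (Real.exp (-(c * r)) * f r) := by
    rw [← mul_assoc, ← Real.exp_add]; congr 2; ring
  rw [h4, h5]
  exact mul_le_mul_of_nonneg_left h3 (Real.exp_pos _).le

/-- growth from a differential inequality on the half line -/
theorem growth {f f' : ℝ → ℝ} {c : ℝ} (hf : ∀ s, 0 ≤ s → HasDerivAt f (f' s) s)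
    (h : ∀ s, 0 ≤ s → c * f s ≤ f' s) {r s : ℝ} (hr : 0 ≤ r) (hrs : r ≤ s) :
    Real.exp (c * (s - r)) * f r ≤ f s := by
  have := decay (f := fun s => -f s) (f' := fun s => -f' s) (c := c)
    (fun s hs => (hf s hs).neg) (fun s hs => by have := h s hs; linarith) hr hrs
  linarith

section Sph

variable {E : Type*} [NormedAddCommGroup E] [InnerProductSpace ℝ E] [FiniteDimensional ℝ E]

/-- the Jacobi tensor vanishing at `0` -/
structure Jac (k J J' : ℝ → E →L[ℝ] E) : Prop where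
  J0 : J 0 = 0
  J0' : J' 0 = 1
  hJ : ∀ s, 0 ≤ s → HasDerivAt J (J' s) s
  hJ' : ∀ s, 0 ≤ s → HasDerivAt J' (k s * J s) s

/-- a bounded symmetric solution of the Riccati equation -/
structure URic (lam Λ : ℝ) (k u : ℝ → E →L[ℝ] E) : Prop where
  lam_pos : 0 < lam
  Λ_pos : 0 < Λ
  symm : ∀ s, 0 ≤ s → ∀ x y, ⟪u s x, y⟫ = ⟪x, u s y⟫
  lower : ∀ s, 0 ≤ s → ∀ x, lam * ‖x‖ ^ 2 ≤ ⟪u s x, x⟫
  upper : ∀ s, 0 ≤ s → ∀ x, ⟪u s x, x⟫ ≤ Λ * ‖x‖ ^ 2
  deriv : ∀ s, 0 ≤ s → HasDerivAt u (k s - u s * u s) s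

variable {lam Λ : ℝ} {k u J J' : ℝ → E →L[ℝ] E}

/-- `G = J' - u J` -/
def GJ (u J J' : ℝ → E →L[ℝ] E) (s : ℝ) : E →L[ℝ] E := J' s - u s * J s

theorem GJ_zero (hJ : Jac k J J') : GJ u J J' 0 = 1 := by
  simp [GJ, hJ.J0, hJ.J0']

theorem hasDerivAt_GJ (hJ : Jac k J J') (hu : URic lam Λ k u) {s : ℝ} (hs : 0 ≤ s) :
    HasDerivAt (GJ u J J') (-(u s * GJ u J J' s)) s := by
  have h := (hJ.hJ' s hs).sub ((hu.deriv s hs).mul (hJ.hJ s hs))
  refine h.congr_deriv ?_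
  simp only [GJ]
  noncomm_ring

theorem hasDerivAt_apply {F : ℝ → E →L[ℝ] E} {F' : E →L[ℝ] E} {s : ℝ} (h : HasDerivAt F F' s)
    (x : E) : HasDerivAt (fun s => F s x) (F' x) s := by
  simpa using h.clm_apply (hasDerivAt_const s x)

theorem hasDerivAt_normsq {F : ℝ → E} {F' : E} {s : ℝ} (h : HasDerivAt F F' s) :
    HasDerivAt (fun s => ‖F s‖ ^ 2) (2 * ⟪F', F s⟫) s := by
  have h1 := h.inner ℝ h
  have e : (fun s => ‖F s‖ ^ 2) = fun s => ⟪F s, F s⟫ := by
    funext s; rw [real_inner_self_eq_norm_sq]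
  rw [e]
  refine h1.congr_deriv ?_
  rw [real_inner_comm F' (F s)]; ring

theorem GJ_le (hJ : Jac k J J') (hu : URic lam Λ k u) (x : E) {r s : ℝ} (hr : 0 ≤ r)
    (hrs : r ≤ s) : ‖GJ u J J' s x‖ ≤ Real.exp (-(lam * (s - r))) * ‖GJ u J J' r x‖ := by
  have hd : ∀ s, 0 ≤ s → HasDerivAt (fun s => ‖GJ u J J' s x‖ ^ 2)
      (2 * ⟪(-(u s * GJ u J J' s)) x, GJ u J J' s x⟫) s :=
    fun s hs => hasDerivAt_normsq (hasDerivAt_apply (hasDerivAt_GJ hJ hu hs) x)
  have h1 := decay (c := -(2 * lam)) hd (fun s hs => by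
    have := hu.lower s hs (GJ u J J' s x)
    simp only [ContinuousLinearMap.neg_apply, ContinuousLinearMap.mul_apply, inner_neg_left]
    linarith) hr hrs
  have h2 : Real.exp (-(2 * lam) * (s - r)) = Real.exp (-(lam * (s - r))) ^ 2 := by
    rw [← Real.exp_nat_mul]; congr 1; push_cast; ring
  rw [h2, ← mul_pow] at h1
  exact le_of_sq_le_sq h1 (by positivity)

theorem le_GJ (hJ : Jac k J J') (hu : URic lam Λ k u) (x : E) {r s : ℝ} (hr : 0 ≤ r)
    (hrs : r ≤ s) : Real.exp (-(Λ * (s - r))) * ‖GJ u J J' r x‖ ≤ ‖GJ u J J' s x‖ := by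
  have hd : ∀ s, 0 ≤ s → HasDerivAt (fun s => ‖GJ u J J' s x‖ ^ 2)
      (2 * ⟪(-(u s * GJ u J J' s)) x, GJ u J J' s x⟫) s :=
    fun s hs => hasDerivAt_normsq (hasDerivAt_apply (hasDerivAt_GJ hJ hu hs) x)
  have h1 := growth (c := -(2 * Λ)) hd (fun s hs => by
    have := hu.upper s hs (GJ u J J' s x)
    simp only [ContinuousLinearMap.neg_apply, ContinuousLinearMap.mul_apply, inner_neg_left]
    linarith) hr hrs
  have h2 : Real.exp (-(2 * Λ) * (s - r)) = Real.exp (-(Λ * (s - r))) ^ 2 := by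
    rw [← Real.exp_nat_mul]; congr 1; push_cast; ring
  rw [h2, ← mul_pow] at h1
  exact le_of_sq_le_sq h1 (by positivity)

/-- `Φ = ⟪J x, G x⟫` -/
theorem hasDerivAt_Phi (hJ : Jac k J J') (hu : URic lam Λ k u) (x : E) {s : ℝ} (hs : 0 ≤ s) :
    HasDerivAt (fun s => ⟪J s x, GJ u J J' s x⟫) (‖GJ u J J' s x‖ ^ 2) s := by
  have h1 := (hasDerivAt_apply (hJ.hJ s hs) x).inner ℝ
    (hasDerivAt_apply (hasDerivAt_GJ hJ hu hs) x)
  refine h1.congr_deriv ?_
  have e : J' s x = u s (J s x) + GJ u J J' s x := by simp [GJ]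
  rw [e]
  simp only [ContinuousLinearMap.neg_apply, ContinuousLinearMap.mul_apply, inner_neg_right,
    inner_add_left]
  rw [hu.symm s hs, real_inner_self_eq_norm_sq]
  ring

theorem Phi_zero (hJ : Jac k J J') (x : E) : ⟪J 0 x, GJ u J J' 0 x⟫ = 0 := by
  simp [hJ.J0]

theorem Phi_nonneg (hJ : Jac k J J') (hu : URic lam Λ k u) (x : E) {s : ℝ} (hs : 0 ≤ s) :
    0 ≤ ⟪J s x, GJ u J J' s x⟫ := by
  have := growth (c := 0) (fun s hs => hasDerivAt_Phi hJ hu x hs) (fun s hs => by simp)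
    le_rfl hs
  simpa [Phi_zero hJ x] using this

/-- the lower bound for `Φ` -/
theorem Phi_ge (hJ : Jac k J J') (hu : URic lam Λ k u) (x : E) {s : ℝ} (hs : 0 ≤ s) :
    ‖x‖ * ‖GJ u J J' s x‖ * Real.exp (lam * s) * (1 - Real.exp (-((Λ + lam) * s))) / (Λ + lam)
      ≤ ⟪J s x, GJ u J J' s x⟫ := by
  have hpos : 0 < Λ + lam := add_pos hu.Λ_pos hu.lam_pos
  set c : ℝ := ‖x‖ * ‖GJ u J J' s x‖ * Real.exp (lam * s) / (Λ + lam) with hc
  set F : ℝ → ℝ := fun r => ⟪J r x, GJ u J J' r x⟫ + c * Real.exp (-((Λ + lam) * r)) with hF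
  have hd : ∀ r, 0 ≤ r → HasDerivAt F (‖GJ u J J' r x‖ ^ 2
      - ‖x‖ * ‖GJ u J J' s x‖ * Real.exp (lam * s) * Real.exp (-((Λ + lam) * r))) r := by
    intro r hr
    have h1 : HasDerivAt (fun r : ℝ => -((Λ + lam) * r)) (-(Λ + lam)) r := by
      simpa [neg_mul] using (hasDerivAt_id r).const_mul (-(Λ + lam))
    have h2 := (hasDerivAt_Phi hJ hu x hr).add (h1.exp.const_mul c)
    refine h2.congr_deriv ?_
    rw [hc]; field_simp; ring
  have hge : ∀ r ∈ Icc 0 s, 0 ≤ ‖GJ u J J' r x‖ ^ 2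
      - ‖x‖ * ‖GJ u J J' s x‖ * Real.exp (lam * s) * Real.exp (-((Λ + lam) * r)) := by
    intro r hr
    have h1 := le_GJ hJ hu x le_rfl hr.1
    rw [GJ_zero hJ] at h1
    have h2 := GJ_le hJ hu x hr.1 hr.2
    have h3 : Real.exp (lam * (s - r)) * ‖GJ u J J' s x‖ ≤ ‖GJ u J J' r x‖ := by
      have := mul_le_mul_of_nonneg_left h2 (Real.exp_pos (lam * (s - r))).le
      rwa [← mul_assoc, ← Real.exp_add, add_neg_cancel, Real.exp_zero, one_mul] at this
    have h4 : Real.exp (-(Λ * r)) * ‖x‖ ≤ ‖GJ u J J' r x‖ := by simpa using h1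
    have h5 := mul_le_mul h4 h3 (by positivity) (norm_nonneg _)
    have h6 : ‖x‖ * ‖GJ u J J' s x‖ * Real.exp (lam * s) * Real.exp (-((Λ + lam) * r))
        = Real.exp (-(Λ * r)) * ‖x‖ * (Real.exp (lam * (s - r)) * ‖GJ u J J' s x‖) := by
      have : Real.exp (lam * s) * Real.exp (-((Λ + lam) * r))
          = Real.exp (-(Λ * r)) * Real.exp (lam * (s - r)) := by
        rw [← Real.exp_add, ← Real.exp_add]; congr 1; ring
      calc _ = ‖x‖ * ‖GJ u J J' s x‖ * (Real.exp (lam * s) * Real.exp (-((Λ + lam) * r))) := by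
            ring
        _ = _ := by rw [this]; ring
    rw [h6]
    nlinarith
  have hmono : MonotoneOn F (Icc 0 s) := by
    refine monotoneOn_of_deriv_nonneg (convex_Icc 0 s)
      (fun r hr => (hd r hr.1).continuousAt.continuousWithinAt)
      (fun r hr => ((hd r ?_).differentiableAt).differentiableWithinAt) ?_
    · rw [interior_Icc] at hr; exact hr.1.le
    · intro r hr
      rw [interior_Icc] at hr
      rw [(hd r hr.1.le).deriv]
      exact hge r ⟨hr.1.le, hr.2.le⟩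
  have h := hmono (left_mem_Icc.2 hs) (right_mem_Icc.2 hs) hs
  simp only [hF, Phi_zero hJ x, mul_zero, neg_zero, Real.exp_zero, mul_one, zero_add] at h
  have e : ‖x‖ * ‖GJ u J J' s x‖ * Real.exp (lam * s) * (1 - Real.exp (-((Λ + lam) * s)))
      / (Λ + lam) = c - c * Real.exp (-((Λ + lam) * s)) := by
    rw [hc]; ring
  rw [e]; linarith

/-- the quantitative lower bound for `J` -/
def jl (lam Λ s : ℝ) : ℝ := Real.exp (lam * s) * (1 - Real.exp (-((Λ + lam) * s))) / (Λ + lam)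

theorem jl_pos (hu : URic lam Λ k u) {s : ℝ} (hs : 0 < s) : 0 < jl lam Λ s := by
  have hpos : 0 < Λ + lam := add_pos hu.Λ_pos hu.lam_pos
  have : Real.exp (-((Λ + lam) * s)) < 1 := by
    rw [Real.exp_lt_one_iff]; nlinarith
  unfold jl
  have h1 : 0 < 1 - Real.exp (-((Λ + lam) * s)) := by linarith
  positivity

theorem J_ge (hJ : Jac k J J') (hu : URic lam Λ k u) (x : E) {s : ℝ} (hs : 0 ≤ s) :
    jl lam Λ s * ‖x‖ ≤ ‖J s x‖ := by
  have hpos : 0 < Λ + lam := add_pos hu.Λ_pos hu.lam_pos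
  rcases eq_or_ne x 0 with rfl | hx
  · simp
  have hG : 0 < ‖GJ u J J' s x‖ := by
    have h1 := le_GJ hJ hu x le_rfl hs
    rw [GJ_zero hJ] at h1
    have h2 : 0 < ‖x‖ := norm_pos_iff.2 hx
    refine lt_of_lt_of_le ?_ h1
    simp only [ContinuousLinearMap.one_apply]
    positivity
  have h1 := Phi_ge hJ hu x hs
  have h2 := real_inner_le_norm (J s x) (GJ u J J' s x)
  have h3 : jl lam Λ s * ‖x‖ * ‖GJ u J J' s x‖ ≤ ‖J s x‖ * ‖GJ u J J' s x‖ := by
    refine le_trans (le_of_eq ?_) (h1.trans h2)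
    unfold jl; ring
  exact le_of_mul_le_mul_right h3 hG

theorem isUnit_J (hJ : Jac k J J') (hu : URic lam Λ k u) {s : ℝ} (hs : 0 < s) :
    IsUnit (J s) := by
  have hinj : Function.Injective (J s) := by
    rw [injective_iff_map_eq_zero]
    intro x hx
    have h1 := J_ge hJ hu x hs.le
    rw [hx, norm_zero] at h1
    have h2 := jl_pos hu hs
    have h3 : ‖x‖ ≤ 0 := by
      by_contra h
      push Not at h
      have := mul_pos h2 h
      linarith
    exact norm_le_zero_iff.1 h3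
  rw [ContinuousLinearMap.isUnit_iff_bijective]
  exact ⟨hinj, (LinearMap.injective_iff_surjective (f := (J s : E →ₗ[ℝ] E))).1 hinj⟩

/-- the inverse of `J` -/
def Ji (J : ℝ → E →L[ℝ] E) (s : ℝ) : E →L[ℝ] E := Ring.inverse (J s)

theorem J_mul_Ji (hJ : Jac k J J') (hu : URic lam Λ k u) {s : ℝ} (hs : 0 < s) :
    J s * Ji J s = 1 := Ring.mul_inverse_cancel _ (isUnit_J hJ hu hs)

theorem Ji_mul_J (hJ : Jac k J J') (hu : URic lam Λ k u) {s : ℝ} (hs : 0 < s) :
    Ji J s * J s = 1 := Ring.inverse_mul_cancel _ (isUnit_J hJ hu hs)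

theorem norm_Ji_le (hJ : Jac k J J') (hu : URic lam Λ k u) {s : ℝ} (hs : 0 < s) :
    ‖Ji J s‖ ≤ (jl lam Λ s)⁻¹ := by
  have h2 := jl_pos hu hs
  refine ContinuousLinearMap.opNorm_le_bound _ (by positivity) fun y => ?_
  have h1 := J_ge hJ hu (Ji J s y) hs.le
  have h3 : J s (Ji J s y) = y := by
    have := congrArg (fun F : E →L[ℝ] E => F y) (J_mul_Ji hJ hu hs)
    simpa using this
  rw [h3] at h1
  rw [inv_mul_eq_div, le_div_iff₀ h2, mul_comm]
  exact h1

/-- the spherical solution -/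
def Us (J J' : ℝ → E →L[ℝ] E) (s : ℝ) : E →L[ℝ] E := J' s * Ji J s

theorem Us_mul_J (hJ : Jac k J J') (hu : URic lam Λ k u) {s : ℝ} (hs : 0 < s) :
    Us J J' s * J s = J' s := by
  rw [Us, mul_assoc, Ji_mul_J hJ hu hs, mul_one]

theorem Us_sub (hJ : Jac k J J') (hu : URic lam Λ k u) {s : ℝ} (hs : 0 < s) :
    Us J J' s - u s = GJ u J J' s * Ji J s := by
  rw [GJ, sub_mul, mul_assoc, J_mul_Ji hJ hu hs, mul_one, Us]

theorem norm_GJ_le (hJ : Jac k J J') (hu : URic lam Λ k u) {s : ℝ} (hs : 0 ≤ s) :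
    ‖GJ u J J' s‖ ≤ Real.exp (-(lam * s)) := by
  refine ContinuousLinearMap.opNorm_le_bound _ (Real.exp_pos _).le fun x => ?_
  have := GJ_le hJ hu x le_rfl hs
  rw [GJ_zero hJ] at this
  simpa using this

/-- the constant of `norm_Us_sub_le` -/
def cU (lam Λ s₀ : ℝ) : ℝ := (Λ + lam) / (1 - Real.exp (-((Λ + lam) * s₀)))

theorem cU_pos (hu : URic lam Λ k u) {s : ℝ} (hs : 0 < s) : 0 < cU lam Λ s := by
  have hpos : 0 < Λ + lam := add_pos hu.Λ_pos hu.lam_pos
  have : Real.exp (-((Λ + lam) * s)) < 1 := by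
    rw [Real.exp_lt_one_iff]; nlinarith
  unfold cU
  have h1 : 0 < 1 - Real.exp (-((Λ + lam) * s)) := by linarith
  positivity

/-- **The spherical solution is exponentially close to `u`.** -/
theorem norm_Us_sub_le (hJ : Jac k J J') (hu : URic lam Λ k u) {s₀ s : ℝ} (h0 : 0 < s₀)
    (hs : s₀ ≤ s) : ‖Us J J' s - u s‖ ≤ cU lam Λ s₀ * Real.exp (-(2 * lam * s)) := by
  have hs' : 0 < s := h0.trans_le hs
  have hpos : 0 < Λ + lam := add_pos hu.Λ_pos hu.lam_pos
  rw [Us_sub hJ hu hs']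
  refine (norm_mul_le _ _).trans ?_
  refine (mul_le_mul (norm_GJ_le hJ hu hs'.le) (norm_Ji_le hJ hu hs') (norm_nonneg _)
    (Real.exp_pos _).le).trans ?_
  have e1 : Real.exp (-((Λ + lam) * s)) ≤ Real.exp (-((Λ + lam) * s₀)) := by
    apply Real.exp_le_exp.2; nlinarith
  have e2 : Real.exp (-((Λ + lam) * s₀)) < 1 := by
    rw [Real.exp_lt_one_iff]; nlinarith
  have e3 : 0 < 1 - Real.exp (-((Λ + lam) * s₀)) := by linarith
  have e4 : 0 < 1 - Real.exp (-((Λ + lam) * s)) := by linarith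
  have e5 : Real.exp (-(lam * s)) * (jl lam Λ s)⁻¹
      = (Λ + lam) / (1 - Real.exp (-((Λ + lam) * s))) * Real.exp (-(2 * lam * s)) := by
    unfold jl
    rw [show -(2 * lam * s) = -(lam * s) + -(lam * s) by ring, Real.exp_add,
      show lam * s = -(-(lam * s)) by ring, Real.exp_neg (-(lam * s))]
    field_simp
  rw [e5]
  refine mul_le_mul_of_nonneg_right ?_ (Real.exp_pos _).le
  unfold cU
  exact div_le_div_of_nonneg_left hpos.le e3 (by linarith)

theorem hasDerivAt_Ji (hJ : Jac k J J') (hu : URic lam Λ k u) {s : ℝ} (hs : 0 < s) :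
    HasDerivAt (Ji J) (-(Ji J s * J' s * Ji J s)) s := by
  obtain ⟨U, hU⟩ := isUnit_J hJ hu hs
  have h1 := (hasFDerivAt_ringInverse (𝕜 := ℝ) U)
  rw [hU] at h1
  have h2 := h1.comp_hasDerivAt s (hJ.hJ s hs.le)
  refine h2.congr_deriv ?_
  have h3 : (↑U⁻¹ : E →L[ℝ] E) = Ji J s := by
    rw [Ji, ← hU, Ring.inverse_unit]
  simp [h3]

theorem hasDerivAt_Us (hJ : Jac k J J') (hu : URic lam Λ k u) {s : ℝ} (hs : 0 < s) :
    HasDerivAt (Us J J') (k s - Us J J' s * Us J J' s) s := by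
  have h := (hJ.hJ' s hs.le).mul (hasDerivAt_Ji hJ hu hs)
  refine h.congr_deriv ?_
  have h1 := J_mul_Ji hJ hu hs
  rw [mul_assoc, h1, mul_one, Us]
  noncomm_ring

/-- the Wronskian vanishes -/
theorem wronskian (hJ : Jac k J J')
    (hk : ∀ s, 0 ≤ s → ∀ x y, ⟪k s x, y⟫ = ⟪x, k s y⟫) (x y : E) {s : ℝ} (hs : 0 ≤ s) :
    ⟪J' s x, J s y⟫ = ⟪J s x, J' s y⟫ := by
  have hd : ∀ s, 0 ≤ s → HasDerivAt (fun s => ⟪J' s x, J s y⟫ - ⟪J s x, J' s y⟫) 0 s := by
    intro s hs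
    have h1 := (hasDerivAt_apply (hJ.hJ' s hs) x).inner ℝ (hasDerivAt_apply (hJ.hJ s hs) y)
    have h2 := (hasDerivAt_apply (hJ.hJ s hs) x).inner ℝ (hasDerivAt_apply (hJ.hJ' s hs) y)
    refine (h1.sub h2).congr_deriv ?_
    simp only [ContinuousLinearMap.mul_apply]
    rw [hk s hs]; ring
  have h1 := growth (c := 0) hd (fun s hs => by simp) le_rfl hs
  have h2 := decay (c := 0) hd (fun s hs => by simp) le_rfl hs
  simp only [hJ.J0, ContinuousLinearMap.zero_apply, inner_zero_right, inner_zero_left, sub_self,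
    mul_zero] at h1 h2
  linarith

theorem J_Ji_apply (hJ : Jac k J J') (hu : URic lam Λ k u) {s : ℝ} (hs : 0 < s) (y : E) :
    J s (Ji J s y) = y := by
  have := congrArg (fun F : E →L[ℝ] E => F y) (J_mul_Ji hJ hu hs)
  simpa using this

/-- the spherical solution is symmetric -/
theorem Us_symm (hJ : Jac k J J') (hu : URic lam Λ k u)
    (hk : ∀ s, 0 ≤ s → ∀ x y, ⟪k s x, y⟫ = ⟪x, k s y⟫) {s : ℝ} (hs : 0 < s) (x y : E) :
    ⟪Us J J' s x, y⟫ = ⟪x, Us J J' s y⟫ := by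
  have h := wronskian hJ hk (Ji J s x) (Ji J s y) hs.le
  rw [J_Ji_apply hJ hu hs, J_Ji_apply hJ hu hs] at h
  simpa [Us] using h

/-- the spherical solution is at least `u` -/
theorem u_le_Us (hJ : Jac k J J') (hu : URic lam Λ k u) {s : ℝ} (hs : 0 < s) (x : E) :
    ⟪u s x, x⟫ ≤ ⟪Us J J' s x, x⟫ := by
  have h := Phi_nonneg hJ hu (Ji J s x) hs.le
  rw [J_Ji_apply hJ hu hs] at h
  have e : Us J J' s x - u s x = GJ u J J' s (Ji J s x) := by
    have := congrArg (fun F : E →L[ℝ] E => F x) (Us_sub hJ hu hs)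
    simpa using this
  rw [← e, inner_sub_right] at h
  rw [real_inner_comm x (u s x), real_inner_comm x (Us J J' s x)]
  linarith

theorem lam_le_Us (hJ : Jac k J J') (hu : URic lam Λ k u) {s : ℝ} (hs : 0 < s) (x : E) :
    lam * ‖x‖ ^ 2 ≤ ⟪Us J J' s x, x⟫ :=
  (hu.lower s hs.le x).trans (u_le_Us hJ hu hs x)

/-- `|J(r) x| ≤ e^{-lam (s-r)} |J(s) x|` -/
theorem J_le (hJ : Jac k J J') (hu : URic lam Λ k u) (x : E) {r s : ℝ} (hr : 0 ≤ r)
    (hrs : r ≤ s) : ‖J r x‖ ≤ Real.exp (-(lam * (s - r))) * ‖J s x‖ := by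
  have hd : ∀ s, 0 ≤ s → HasDerivAt (fun s => ‖J s x‖ ^ 2) (2 * ⟪J' s x, J s x⟫) s :=
    fun s hs => hasDerivAt_normsq (hasDerivAt_apply (hJ.hJ s hs) x)
  have h1 := growth (c := 2 * lam) hd (fun s hs => by
    have h1 := hu.lower s hs (J s x)
    have h2 := Phi_nonneg hJ hu x hs
    have e : J' s x = u s (J s x) + GJ u J J' s x := by simp [GJ]
    rw [e, inner_add_left, real_inner_comm (J s x) (GJ u J J' s x)] 
    linarith) hr hrs
  have h2 : Real.exp (2 * lam * (s - r)) = Real.exp (lam * (s - r)) ^ 2 := by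
    rw [← Real.exp_nat_mul]; congr 1; push_cast; ring
  rw [h2, ← mul_pow] at h1
  have h3 : Real.exp (lam * (s - r)) * ‖J r x‖ ≤ ‖J s x‖ := le_of_sq_le_sq h1 (by positivity)
  have := mul_le_mul_of_nonneg_left h3 (Real.exp_pos (-(lam * (s - r)))).le
  rwa [← mul_assoc, ← Real.exp_add, neg_add_cancel, Real.exp_zero, one_mul] at this

end Sph

end Vale.Agent.P207.Q.Ric
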