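import Vale.Agent.P207.Q.WD0
import Vale.Agent.P207.Q.H892.PEq
import Mathlib.Topology.ContinuousMap.Bounded.Basic

/-!
# P207: the unstable derivatives of `t ∘ φ_{-s}`
-/

open MeasureTheory Filter Topology Set

noncomputable section

namespace Vale.Agent.P207.Q.WD

open Vale.Agent.P207.Q.H413
open Vale.Agent.P207.Q.H892 (Curv)
open Vale.Agent.P207.Q.H183 (FlowS)

variable {P : Type*} [TopologicalSpace P] [CompactSpace P] [MeasurableSpace P] [BorelSpace P]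
  {m : Measure P} [IsFiniteMeasure m]
  {c : Cal (intL m)} {C : Curv c} (D : UData c C) {F : FlowS c} {lam : ℝ}

theorem X_pull (r : ℝ) (f : c.S) : c.Y .X (F.pull r f) = F.pull r (c.Y .X f) := by
  apply Subtype.ext
  refine ContinuousMap.ext fun p => ?_
  have h1 := F.deriv (F.pull r f) p 0
  have h2 : HasDerivAt (fun s => (f : C(P, ℝ)) (F.φ (r + s) p))
      (((c.Y .X f : c.S) : C(P, ℝ)) (F.φ (r + 0) p)) 0 := by
    have := (F.deriv f p (r + 0)).comp_const_add r 0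
    exact this
  have e : (fun s => ((F.pull r f : c.S) : C(P, ℝ)) (F.φ s p)) =
      fun s => (f : C(P, ℝ)) (F.φ (r + s) p) := by
    funext s
    rw [F.pull_apply, ← F.add]
  rw [e, F.zero] at h1
  rw [add_zero] at h2
  rw [F.pull_apply]
  exact h1.unique h2

/-- `[X, D_i] = - U_ij D_j - ρ_i R`, tested -/
theorem int_DS_X (g χ : c.S) (i : Fin 2) :
    intL m (DS D (c.Y .X g) i * χ) = - intL m (DS D g i * (c.Y .X χ : c.S)) +
      ∑ j, intL m (DS D g j * (D.U i j * χ)) +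
      intL m ((rho C i : c.S) * (c.Y .R g : c.S) * χ) := by
  have j0 := (Jet.of_mem (c := c) (c.Y (.H i) g)).add
    (((D.jU i 0).mul (Jet.of_mem (c.Y (.V 0) g))).add
      ((D.jU i 1).mul (Jet.of_mem (c.Y (.V 1) g))))
  have h1 := j0.int_mul (Jet.of_mem χ) .X
  have e1 : ((c.Y (.H i) g : c.S) : C(P, ℝ)) +
      (D.U i 0 * (c.Y (.V 0) g : c.S) + D.U i 1 * (c.Y (.V 1) g : c.S)) = DS D g i := by
    simp only [DS, Fin.sum_univ_two]
  have hX := HX C i g
  have hV0 := congrArg (fun z : c.S => (z : C(P, ℝ))) (c.VX 0 g)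
  have hV1 := congrArg (fun z : c.S => (z : C(P, ℝ))) (c.VX 1 g)
  have hr0 := D.ric i 0
  have hr1 := D.ric i 1
  simp only [AddSubgroupClass.coe_sub, Fin.sum_univ_two] at hX hV0 hV1 hr0 hr1
  have e2 : (χ : C(P, ℝ)) * (((c.Y .X (c.Y (.H i) g) : c.S) : C(P, ℝ)) +
      (D.U i 0 * (c.Y .X (c.Y (.V 0) g) : c.S) + (c.Y (.V 0) g : c.S) * D.dU i 0 .X +
        (D.U i 1 * (c.Y .X (c.Y (.V 1) g) : c.S) + (c.Y (.V 1) g : c.S) * D.dU i 1 .X))) =
      DS D (c.Y .X g) i * χ - ∑ j, DS D g j * (D.U i j * χ) -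
        (rho C i : c.S) * (c.Y .R g : c.S) * χ := by
    simp only [DS, Fin.sum_univ_two, hr0, hr1]
    linear_combination (-(χ : C(P, ℝ))) * hX - (χ : C(P, ℝ)) * D.U i 0 * hV0
      - (χ : C(P, ℝ)) * D.U i 1 * hV1
  rw [e1] at h1
  rw [h1]
  rw [e2]
  simp only [map_sub, map_sum]
  ring

theorem cont_DS_pull (f : c.S) (i : Fin 2) :
    Continuous fun q : ℝ × P => DS D (F.pull (-|q.1|) f) i q.2 := by
  have h : ∀ k, Continuous fun q : ℝ × P =>
      ((c.Y k (F.pull (-|q.1|) f) : c.S) : C(P, ℝ)) q.2 := fun k =>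
    (F.contY k f).comp (f := fun q : ℝ × P => (-|q.1|, q.2)) (by fun_prop)
  have e : (fun q : ℝ × P => DS D (F.pull (-|q.1|) f) i q.2) = fun q : ℝ × P =>
      ((c.Y (.H i) (F.pull (-|q.1|) f) : c.S) : C(P, ℝ)) q.2 +
        (D.U i 0 q.2 * ((c.Y (.V 0) (F.pull (-|q.1|) f) : c.S) : C(P, ℝ)) q.2 +
          D.U i 1 q.2 * ((c.Y (.V 1) (F.pull (-|q.1|) f) : c.S) : C(P, ℝ)) q.2) := by
    funext q
    simp only [DS, Fin.sum_univ_two, ContinuousMap.add_apply, ContinuousMap.mul_apply]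
  rw [e]
  exact (h _).add ((((D.U i 0).continuous.comp continuous_snd).mul (h _)).add
    (((D.U i 1).continuous.comp continuous_snd).mul (h _)))

/-- the constant in the estimate of the unstable derivatives in the past -/
def Cr (C : Curv c) (lam : ℝ) : ℝ :=
  (‖((rho C 0 : c.S) : C(P, ℝ))‖ + ‖((rho C 1 : c.S) : C(P, ℝ))‖) / lam

theorem Cr_nonneg (hl : 0 < lam) : 0 ≤ Cr C lam := by unfold Cr; positivity

theorem abs_DS_abs_le (H : Hyp D F lam) (f : c.S) (i : Fin 2) (q : ℝ × P) :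
    |DS D (F.pull (-|q.1|) f) i q.2| ≤ Real.exp (-(lam / 2 * |q.1|)) * (∑ j, ‖DS D f j‖) +
      Cr C lam * ‖((c.Y .R f : c.S) : C(P, ℝ))‖ :=
  abs_DS_pull_le D H f i (abs_nonneg _) q.2

theorem norm_DS_abs_le (H : Hyp D F lam) (f : c.S) (i : Fin 2) (q : ℝ × P) :
    ‖DS D (F.pull (-|q.1|) f) i q.2‖ ≤ (∑ j, ‖DS D f j‖) +
      Cr C lam * ‖((c.Y .R f : c.S) : C(P, ℝ))‖ := by
  rw [Real.norm_eq_abs]
  refine (abs_DS_abs_le D H f i q).trans ?_
  have h1 : Real.exp (-(lam / 2 * |q.1|)) ≤ 1 := by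
    rw [Real.exp_le_one_iff]
    have := mul_nonneg (half_pos H.lam_pos).le (abs_nonneg q.1)
    linarith
  have h2 : 0 ≤ ∑ j, ‖DS D f j‖ := Finset.sum_nonneg fun j _ => norm_nonneg _
  have := mul_le_mul_of_nonneg_right h1 h2
  linarith

/-- the unstable derivative of `f ∘ φ_{-|s|}` as a bounded continuous function of `(s, x)` -/
def eB (H : Hyp D F lam) (f : c.S) (i : Fin 2) : BoundedContinuousFunction (ℝ × P) ℝ :=
  BoundedContinuousFunction.ofNormedAddCommGroup (fun q => DS D (F.pull (-|q.1|) f) i q.2)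
    (cont_DS_pull D f i) _ (norm_DS_abs_le D H f i)

theorem eB_apply (H : Hyp D F lam) (f : c.S) (i : Fin 2) (q : ℝ × P) :
    eB D H f i q = DS D (F.pull (-|q.1|) f) i q.2 := rfl

theorem dist_eB_le (H : Hyp D F lam) (f g : c.S) (i : Fin 2) :
    dist (eB D H f i) (eB D H g i) ≤ (∑ j, dist (DS D f j) (DS D g j)) +
      Cr C lam * dist ((c.Y .R f : c.S) : C(P, ℝ)) ((c.Y .R g : c.S) : C(P, ℝ)) := by
  rw [BoundedContinuousFunction.dist_le (add_nonneg (Finset.sum_nonneg fun _ _ => dist_nonneg)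
    (mul_nonneg (Cr_nonneg H.lam_pos) dist_nonneg))]
  intro q
  have h := norm_DS_abs_le D H (f - g) i q
  rw [pull_sub, DS_sub] at h
  simp only [DS_sub, map_sub, AddSubgroupClass.coe_sub] at h
  rw [eB_apply, eB_apply, dist_eq_norm]
  simp only [dist_eq_norm]
  exact h

theorem DS_tendsto {d : Idx → C(P, ℝ)} {u : ℕ → c.S}
    (hu : ∀ k, Tendsto (fun n => ((c.Y k (u n) : c.S) : C(P, ℝ))) atTop (𝓝 (d k))) (i : Fin 2) :
    Tendsto (fun n => DS D (u n) i) atTop (𝓝 (DJ D d i)) := by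
  unfold DS DJ
  exact (hu _).add (tendsto_finsetSum _ fun j _ => (hu _).const_mul _)

/-- The unstable derivatives of `f ∘ φ_{-s}` for an `R`-invariant jet `f`. -/
theorem exists_E (H : Hyp D F lam) {f : C(P, ℝ)} {d : Idx → C(P, ℝ)} (hf : Jet c f d)
    (hR : d .R = 0) :
    ∃ (E : Fin 2 → BoundedContinuousFunction (ℝ × P) ℝ) (u : ℕ → c.S),
      Tendsto (fun n => (u n : C(P, ℝ))) atTop (𝓝 f) ∧
      (∀ k, Tendsto (fun n => ((c.Y k (u n) : c.S) : C(P, ℝ))) atTop (𝓝 (d k))) ∧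
      (∀ i, Tendsto (fun n => eB D H (u n) i) atTop (𝓝 (E i))) ∧
      ∀ i q, |E i q| ≤ Real.exp (-(lam / 2 * |q.1|)) * ∑ j, ‖DJ D d j‖ := by
  obtain ⟨u, hu, hu'⟩ := hf
  have hDS := DS_tendsto D hu'
  have hc : ∀ i, CauchySeq fun n => eB D H (u n) i := by
    intro i
    rw [cauchySeq_iff_tendsto_dist_atTop_0]
    have h1 : Tendsto (fun n : ℕ × ℕ => (∑ j, dist (DS D (u n.1) j) (DS D (u n.2) j)) +
        Cr C lam * dist ((c.Y .R (u n.1) : c.S) : C(P, ℝ)) ((c.Y .R (u n.2) : c.S) : C(P, ℝ)))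
        atTop (𝓝 ((∑ _j : Fin 2, 0) + Cr C lam * 0)) :=
      (tendsto_finsetSum _ fun j _ =>
        cauchySeq_iff_tendsto_dist_atTop_0.1 (hDS j).cauchySeq).add
        ((cauchySeq_iff_tendsto_dist_atTop_0.1 (hu' .R).cauchySeq).const_mul _)
    simp only [Finset.sum_const_zero, mul_zero, add_zero] at h1
    exact squeeze_zero (fun _ => dist_nonneg) (fun n => dist_eB_le D H _ _ i) h1
  choose E hE using fun i => cauchySeq_tendsto_of_complete (hc i)
  refine ⟨E, u, hu, hu', hE, fun i q => ?_⟩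
  have h1 : Tendsto (fun n => |eB D H (u n) i q|) atTop (𝓝 |E i q|) := by
    have := ((BoundedContinuousFunction.evalCLM ℝ q).continuous.tendsto _).comp (hE i)
    exact this.abs
  have h2 : Tendsto (fun n => Real.exp (-(lam / 2 * |q.1|)) * (∑ j, ‖DS D (u n) j‖) +
      Cr C lam * ‖((c.Y .R (u n) : c.S) : C(P, ℝ))‖) atTop
      (𝓝 (Real.exp (-(lam / 2 * |q.1|)) * (∑ j, ‖DJ D d j‖) + Cr C lam * ‖(0 : C(P, ℝ))‖)) := by
    refine ((tendsto_finsetSum _ fun j _ => (hDS j).norm).const_mul _).add ?_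
    rw [← hR]
    exact (hu' .R).norm.const_mul _
  rw [norm_zero, mul_zero, add_zero] at h2
  exact le_of_tendsto_of_tendsto' h1 h2 fun n => abs_DS_abs_le D H (u n) i q

end Vale.Agent.P207.Q.WD
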