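import Vale.Agent.P207.Q.WD1
import Mathlib.MeasureTheory.Integral.IntegralEqImproper

/-!
# P207: the weak unstable derivative of the transfer function
-/

open MeasureTheory Filter Topology Set

set_option linter.unusedSectionVars false

noncomputable section

namespace Vale.Agent.P207.Q.WD

open Vale.Agent.P207.Q.H413
open Vale.Agent.P207.Q.H892 (Curv)
open Vale.Agent.P207.Q.H183 (FlowS)

variable {P : Type*} [TopologicalSpace P] [CompactSpace P] [MeasurableSpace P] [BorelSpace P]
  {m : Measure P} [IsFiniteMeasure m]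
  {c : Cal (intL m)} {C : Curv c} (D : UData c C) {F : FlowS c} {lam : ℝ}

/-- composition with the flow -/
def cpull (F : FlowS c) (r : ℝ) (f : C(P, ℝ)) : C(P, ℝ) :=
  f.comp ⟨F.φ r, F.cont.comp (continuous_const.prodMk continuous_id)⟩

@[simp] theorem cpull_apply (r : ℝ) (f : C(P, ℝ)) (x : P) : cpull F r f x = f (F.φ r x) := rfl

theorem pull_eq (r : ℝ) (f : c.S) : ((F.pull r f : c.S) : C(P, ℝ)) = cpull F r f :=
  ContinuousMap.ext fun x => F.pull_apply r f x

theorem cpull_continuous (r : ℝ) : Continuous (cpull F r) :=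
  ContinuousMap.continuous_precomp _

/-- slice of a bounded continuous function on `ℝ × P` -/
def slice (s : ℝ) (E : BoundedContinuousFunction (ℝ × P) ℝ) : C(P, ℝ) :=
  ⟨fun x => E (s, x), E.continuous.comp (continuous_const.prodMk continuous_id)⟩

@[simp] theorem slice_apply (s : ℝ) (E : BoundedContinuousFunction (ℝ × P) ℝ) (x : P) :
    slice s E x = E (s, x) := rfl

theorem slice_continuous (s : ℝ) :
    Continuous (slice s : BoundedContinuousFunction (ℝ × P) ℝ → C(P, ℝ)) := by
  have h : LipschitzWith 1 (slice s : BoundedContinuousFunction (ℝ × P) ℝ → C(P, ℝ)) := by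
    refine LipschitzWith.of_dist_le_mul fun E E' => ?_
    rw [NNReal.coe_one, one_mul, ContinuousMap.dist_le dist_nonneg]
    intro x
    exact BoundedContinuousFunction.dist_coe_le_dist (s, x)
  exact h.continuous

theorem slice_eB (H : Hyp D F lam) (f : c.S) (i : Fin 2) {s : ℝ} (hs : 0 ≤ s) :
    slice s (eB D H f i) = DS D (F.pull (-s) f) i := by
  refine ContinuousMap.ext fun x => ?_
  rw [slice_apply, eB_apply, abs_of_nonneg hs]

/-- adjoint of the unstable derivative, jets -/
theorem adjJ {f : C(P, ℝ)} {e : Idx → C(P, ℝ)} (hf : Jet c f e) {χ : C(P, ℝ)}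
    {d : Idx → C(P, ℝ)} (hχ : Jet c χ d) (i : Fin 2) :
    intL m (DJ D e i * χ) = intL m (f * del D χ d i) := by
  obtain ⟨u, hu, hu'⟩ := hf
  have h1 : Tendsto (fun n => intL m (DS D (u n) i * χ)) atTop (𝓝 (intL m (DJ D e i * χ))) :=
    ((intL m).continuous.tendsto _).comp ((DS_tendsto D hu' i).mul_const χ)
  have h2 : Tendsto (fun n => intL m ((u n : C(P, ℝ)) * del D χ d i)) atTop
      (𝓝 (intL m (f * del D χ d i))) :=
    ((intL m).continuous.tendsto _).comp (hu.mul_const _)
  exact tendsto_nhds_unique h1 (h2.congr fun n => (adj D (u n) hχ i).symm)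

/-- derivative of a pairing along the flow -/
theorem hasDerivAt_pair {f : C(P, ℝ)} {d : Idx → C(P, ℝ)} (hf : Jet c f d) (g : C(P, ℝ))
    (s : ℝ) :
    HasDerivAt (fun s => intL m (cpull F (-s) f * g)) (- intL m (cpull F (-s) (d .X) * g)) s := by
  simp only [intL_apply, ContinuousMap.mul_apply, cpull_apply]
  rw [← integral_neg]
  have hb : ∀ (f : C(P, ℝ)) s, Continuous fun x => f (F.φ (-s) x) := fun f s =>
    (cpull F (-s) f).continuous
  refine (hasDerivAt_integral_of_dominated_loc_of_deriv_le (μ := m) (s := univ)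
    (F := fun s x => f (F.φ (-s) x) * g x) (F' := fun s x => -((d .X) (F.φ (-s) x) * g x))
    (bound := fun _ => ‖d .X‖ * ‖g‖) Filter.univ_mem ?_ ?_ ?_ ?_ (integrable_const _) ?_).2
  · exact Eventually.of_forall fun t => ((hb f t).mul g.continuous).aestronglyMeasurable
  · exact integrable_cont ((hb f s).mul g.continuous)
  · exact ((hb (d .X) s).mul g.continuous).neg.aestronglyMeasurable
  · refine Eventually.of_forall fun x t _ => ?_
    rw [norm_neg, norm_mul]
    exact mul_le_mul ((d .X).norm_coe_le_norm _) (g.norm_coe_le_norm x) (norm_nonneg _)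
      (norm_nonneg _)
  · refine Eventually.of_forall fun x t _ => ?_
    have h1 := jet_hasDerivAt F hf x (-t)
    have h2 : HasDerivAt (fun r => f (F.φ (-r) x)) (d .X (F.φ (-t) x) * -1) t :=
      h1.comp t (hasDerivAt_neg' t)
    refine (h2.mul_const (g x)).congr_deriv ?_
    ring

section

variable [FirstCountableTopology P] (E : Fin 2 → BoundedContinuousFunction (ℝ × P) ℝ) {A : ℝ}
  (hE : ∀ i q, |E i q| ≤ Real.exp (-(lam / 2 * |q.1|)) * A)

theorem integrable_exp (hl : 0 < lam) :
    Integrable (fun s : ℝ => Real.exp (-(lam / 2 * |s|))) (volume.restrict (Ioi 0)) := by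
  have h := integrableOn_exp_mul_Ioi (a := -(lam / 2)) (by linarith) 0
  refine h.congr ?_
  filter_upwards [ae_restrict_mem measurableSet_Ioi] with s hs
  rw [abs_of_pos hs]
  ring_nf

include hE in
theorem integrable_E (hl : 0 < lam) (i : Fin 2) (x : P) :
    Integrable (fun s : ℝ => E i (s, x)) (volume.restrict (Ioi 0)) := by
  refine ((integrable_exp hl).mul_const A).mono' ?_ (Eventually.of_forall fun s => ?_)
  · exact ((E i).continuous.comp (continuous_id.prodMk continuous_const)).aestronglyMeasurable
  · rw [Real.norm_eq_abs]; exact hE i (s, x)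

/-- `G_i = ∫_0^∞ D_i (f ∘ φ_{-s}) ds` -/
def GG (hl : 0 < lam) (i : Fin 2) : C(P, ℝ) :=
  ⟨fun x => ∫ s in Ioi (0 : ℝ), E i (s, x), by
    refine continuous_of_dominated (bound := fun s => Real.exp (-(lam / 2 * |s|)) * A)
      (fun x => ?_) (fun x => Eventually.of_forall fun s => ?_)
      ((integrable_exp hl).mul_const A) (Eventually.of_forall fun s => ?_)
    · exact ((E i).continuous.comp (continuous_id.prodMk continuous_const)).aestronglyMeasurable
    · rw [Real.norm_eq_abs]; exact hE i (s, x)
    · exact (E i).continuous.comp (continuous_const.prodMk continuous_id)⟩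

theorem integrable_prod (hl : 0 < lam) (i : Fin 2) (g : C(P, ℝ))
    (hE : ∀ i q, |E i q| ≤ Real.exp (-(lam / 2 * |q.1|)) * A) :
    Integrable (Function.uncurry fun (x : P) (s : ℝ) => E i (s, x) * g x)
      (m.prod (volume.restrict (Ioi (0 : ℝ)))) := by
  have h1 : Integrable (fun q : P × ℝ => Real.exp (-(lam / 2 * |q.2|)) * A * ‖g‖)
      (m.prod (volume.restrict (Ioi (0 : ℝ)))) :=
    (((integrable_exp hl).mul_const A).mul_const ‖g‖).comp_snd m
  refine h1.mono' ?_ (Eventually.of_forall fun q => ?_)
  · have hc : Continuous fun q : P × ℝ => E i (q.2, q.1) * g q.1 :=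
      ((E i).continuous.comp (continuous_snd.prodMk continuous_fst)).mul
        (g.continuous.comp continuous_fst)
    exact hc.measurable.aestronglyMeasurable
  · simp only [Function.uncurry, norm_mul]
    exact mul_le_mul (by rw [Real.norm_eq_abs]; exact hE i _) (g.norm_coe_le_norm _)
      (norm_nonneg _) ((abs_nonneg _).trans (hE i (q.2, q.1)))

/-- Fubini -/
theorem intL_GG (hl : 0 < lam) (i : Fin 2) (g : C(P, ℝ)) :
    intL m (GG E hE hl i * g) = ∫ s in Ioi (0 : ℝ), intL m (slice s (E i) * g) := by
  simp only [intL_apply, ContinuousMap.mul_apply, slice_apply]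
  rw [← integral_integral_swap (integrable_prod E hl i g hE)]
  congr 1
  funext x
  rw [integral_mul_const]
  rfl

theorem integrable_slice (hl : 0 < lam) (i : Fin 2) (g : C(P, ℝ))
    (hE : ∀ i q, |E i q| ≤ Real.exp (-(lam / 2 * |q.1|)) * A) :
    Integrable (fun s => intL m (slice s (E i) * g)) (volume.restrict (Ioi (0 : ℝ))) := by
  have := (integrable_prod (m := m) E hl i g hE).integral_prod_right
  simp only [intL_apply, ContinuousMap.mul_apply, slice_apply]
  exact this

end

end Vale.Agent.P207.Q.WD
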