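import Vale.Agent.P207.Q.WD2

/-!
# P207: `D_i ψ = - p_i` weakly
-/

open MeasureTheory Filter Topology Set

set_option linter.unusedSectionVars false

noncomputable section

namespace Vale.Agent.P207.Q.WD

open Vale.Agent.P207.Q.H413
open Vale.Agent.P207.Q.H892 (Curv wx_p wx_add)
open Vale.Agent.P207.Q.H183 (FlowS)

variable {P : Type*} [TopologicalSpace P] [CompactSpace P] [MeasurableSpace P] [BorelSpace P]
  {m : Measure P}

section

variable [IsFiniteMeasure m]
  {c : Cal (intL m)} {C : Curv c} (D : UData c C) {F : FlowS c} {lam : ℝ}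

/-- the pairing of the unstable derivatives of `f ∘ φ_{-s}` -/
theorem slice_pair (H : Hyp D F lam) {f : C(P, ℝ)} {E : Fin 2 → BoundedContinuousFunction (ℝ × P) ℝ}
    {u : ℕ → c.S} (hu : Tendsto (fun n => (u n : C(P, ℝ))) atTop (𝓝 f))
    (hE : ∀ i, Tendsto (fun n => eB D H (u n) i) atTop (𝓝 (E i))) {χ : C(P, ℝ)}
    {dχ : Idx → C(P, ℝ)} (hχ : Jet c χ dχ) (i : Fin 2) {s : ℝ} (hs : 0 ≤ s) :
    intL m (slice s (E i) * χ) = intL m (cpull F (-s) f * del D χ dχ i) := by
  have h1 : Tendsto (fun n => intL m (slice s (eB D H (u n) i) * χ)) atTop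
      (𝓝 (intL m (slice s (E i) * χ))) :=
    ((intL m).continuous.tendsto _).comp
      ((((slice_continuous s).tendsto _).comp (hE i)).mul_const χ)
  have h2 : Tendsto (fun n => intL m (cpull F (-s) (u n) * del D χ dχ i)) atTop
      (𝓝 (intL m (cpull F (-s) f * del D χ dχ i))) :=
    ((intL m).continuous.tendsto _).comp
      ((((cpull_continuous (-s)).tendsto _).comp hu).mul_const _)
  refine tendsto_nhds_unique h1 (h2.congr fun n => ?_)
  rw [slice_eB D H (u n) i hs, adj D (F.pull (-s) (u n)) hχ i, pull_eq]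

/-- the derivative of the pairing -/
theorem slice_pair' (H : Hyp D F lam) {d : Idx → C(P, ℝ)} (hR : d .R = 0)
    {E : Fin 2 → BoundedContinuousFunction (ℝ × P) ℝ}
    {u : ℕ → c.S}
    (hu' : ∀ k, Tendsto (fun n => ((c.Y k (u n) : c.S) : C(P, ℝ))) atTop (𝓝 (d k)))
    (hE : ∀ i, Tendsto (fun n => eB D H (u n) i) atTop (𝓝 (E i))) (χ : c.S) (i : Fin 2)
    {s : ℝ} (hs : 0 ≤ s) :
    intL m (cpull F (-s) (d .X) * del D χ (fun k => ((c.Y k χ : c.S) : C(P, ℝ))) i) =
      - intL m (slice s (E i) * (c.Y .X χ : c.S)) +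
        ∑ j, intL m (slice s (E j) * (D.U i j * χ)) := by
  have h1 : Tendsto (fun n => intL m (cpull F (-s) (c.Y .X (u n) : c.S) *
      del D χ (fun k => ((c.Y k χ : c.S) : C(P, ℝ))) i)) atTop
      (𝓝 (intL m (cpull F (-s) (d .X) * del D χ (fun k => ((c.Y k χ : c.S) : C(P, ℝ))) i))) :=
    ((intL m).continuous.tendsto _).comp
      ((((cpull_continuous (-s)).tendsto _).comp (hu' .X)).mul_const _)
  have h2 : Tendsto (fun n => - intL m (slice s (eB D H (u n) i) * (c.Y .X χ : c.S)) +
      ∑ j, intL m (slice s (eB D H (u n) j) * (D.U i j * χ)) +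
      intL m ((rho C i : c.S) * cpull F (-s) (c.Y .R (u n) : c.S) * χ)) atTop
      (𝓝 (- intL m (slice s (E i) * (c.Y .X χ : c.S)) +
        ∑ j, intL m (slice s (E j) * (D.U i j * χ)) +
        intL m ((rho C i : c.S) * cpull F (-s) (d .R) * χ))) := by
    refine Tendsto.add (Tendsto.add ?_ (tendsto_finsetSum _ fun j _ => ?_)) ?_
    · exact (((intL m).continuous.tendsto _).comp
        ((((slice_continuous s).tendsto _).comp (hE i)).mul_const _)).neg
    · exact ((intL m).continuous.tendsto _).comp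
        ((((slice_continuous s).tendsto _).comp (hE j)).mul_const _)
    · exact ((intL m).continuous.tendsto _).comp
        (((((cpull_continuous (-s)).tendsto _).comp (hu' .R)).const_mul _).mul_const _)
  have h3 : intL m ((rho C i : c.S) * cpull F (-s) (d .R) * χ) = 0 := by
    have e : cpull F (-s) (d .R) = 0 := by
      rw [hR]; exact ContinuousMap.ext fun x => rfl
    rw [e, mul_zero, zero_mul, map_zero]
  rw [h3, add_zero] at h2
  refine tendsto_nhds_unique h1 (h2.congr fun n => ?_)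
  have k1 := int_DS_X D (F.pull (-s) (u n)) χ i
  rw [adj D _ (Jet.of_mem χ) i, X_pull, pull_eq, H.R_pull] at k1
  simp only [slice_eB D H (u n) _ hs]
  rw [pull_eq] at k1
  exact k1.symm

theorem tendsto_slice (hl : 0 < lam) {E : BoundedContinuousFunction (ℝ × P) ℝ} {A : ℝ}
    (hE : ∀ q, |E q| ≤ Real.exp (-(lam / 2 * |q.1|)) * A) (g : C(P, ℝ)) :
    Tendsto (fun s => intL m (slice s E * g)) atTop (𝓝 0) := by
  have h1 : Tendsto (fun s : ℝ => Real.exp (-(lam / 2 * s)) * A * ‖g‖ * m.real univ) atTop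
      (𝓝 (0 * A * ‖g‖ * m.real univ)) := by
    have h2 : Tendsto (fun s : ℝ => -(lam / 2 * s)) atTop atBot :=
      tendsto_neg_atTop_atBot.comp (tendsto_id.const_mul_atTop (half_pos hl))
    exact (((Real.tendsto_exp_atBot.comp h2).mul_const A).mul_const _).mul_const _
  simp only [zero_mul] at h1
  refine squeeze_zero_norm' ?_ h1
  filter_upwards [eventually_ge_atTop (0 : ℝ)] with s hs
  rw [intL_apply]
  refine norm_integral_le_of_norm_le_const (Eventually.of_forall fun x => ?_)
  rw [ContinuousMap.mul_apply, norm_mul, slice_apply]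
  have h3 : |E (s, x)| ≤ Real.exp (-(lam / 2 * s)) * A := by
    have := hE (s, x)
    simpa only [abs_of_nonneg hs] using this
  exact mul_le_mul h3 (g.norm_coe_le_norm x) (norm_nonneg _) ((abs_nonneg _).trans h3)

/-- the weak equation of `G` -/
theorem wx_GG [FirstCountableTopology P] (H : Hyp D F lam) {f : C(P, ℝ)} {d : Idx → C(P, ℝ)}
    (hf : Jet c f d) (hR : d .R = 0)
    {E : Fin 2 → BoundedContinuousFunction (ℝ × P) ℝ} {u : ℕ → c.S}
    (hu : Tendsto (fun n => (u n : C(P, ℝ))) atTop (𝓝 f))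
    (hu' : ∀ k, Tendsto (fun n => ((c.Y k (u n) : c.S) : C(P, ℝ))) atTop (𝓝 (d k)))
    (hE : ∀ i, Tendsto (fun n => eB D H (u n) i) atTop (𝓝 (E i))) {A : ℝ}
    (hA : ∀ i q, |E i q| ≤ Real.exp (-(lam / 2 * |q.1|)) * A) (i : Fin 2) :
    WX c (GG E hA H.lam_pos i) (DJ D d i - ∑ j, D.U i j * GG E hA H.lam_pos j) := by
  intro χ
  have hl := H.lam_pos
  set δ := del D χ (fun k => ((c.Y k χ : c.S) : C(P, ℝ))) i with hδ
  have h1 : ∀ s, HasDerivAt (fun s => intL m (cpull F (-s) f * δ))
      (- intL m (cpull F (-s) (d .X) * δ)) s := fun s => hasDerivAt_pair hf δ s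
  have hpair : ∀ s, 0 ≤ s → intL m (slice s (E i) * χ) = intL m (cpull F (-s) f * δ) := fun s hs =>
    slice_pair D H hu hE (Jet.of_mem χ) i hs
  have h2 : Tendsto (fun s => intL m (cpull F (-s) f * δ)) atTop (𝓝 0) := by
    refine (tendsto_slice (m := m) hl (hA i) (χ : C(P, ℝ))).congr' ?_
    filter_upwards [eventually_ge_atTop (0 : ℝ)] with s hs
    exact hpair s hs
  have e1 : ∀ s ∈ Ioi (0 : ℝ), - intL m (cpull F (-s) (d .X) * δ) =
      intL m (slice s (E i) * (c.Y .X χ : c.S)) -
        ∑ j, intL m (slice s (E j) * (D.U i j * χ)) := by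
    intro s hs
    rw [slice_pair' D H hR hu' hE χ i (le_of_lt hs)]
    ring
  have hint : Integrable (fun s => intL m (slice s (E i) * (c.Y .X χ : c.S)) -
      ∑ j, intL m (slice s (E j) * (D.U i j * χ))) (volume.restrict (Ioi (0 : ℝ))) :=
    (integrable_slice E hl i _ hA).sub (integrable_finsetSum _ fun j _ =>
      integrable_slice E hl j _ hA)
  have hint' : IntegrableOn (fun s => - intL m (cpull F (-s) (d .X) * δ)) (Ioi (0 : ℝ)) := by
    refine hint.congr ?_
    filter_upwards [ae_restrict_mem measurableSet_Ioi] with s hs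
    exact (e1 s hs).symm
  have h3 := integral_Ioi_of_hasDerivAt_of_tendsto (a := (0 : ℝ))
    (h1 0).continuousAt.continuousWithinAt (fun s _ => h1 s) hint' h2
  rw [setIntegral_congr_fun measurableSet_Ioi e1,
    integral_sub (integrable_slice E hl i _ hA) (integrable_finsetSum _ fun j _ =>
      integrable_slice E hl j _ hA), integral_finsetSum _ (fun j _ =>
      integrable_slice E hl j _ hA), ← intL_GG E hA hl] at h3
  simp only [← intL_GG E hA hl] at h3
  have h4 : intL m (cpull F (-0) f * δ) = intL m (DJ D d i * χ) := by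
    rw [adjJ D hf (Jet.of_mem χ) i]
    congr 1
    rw [hδ]
    congr 1
    refine ContinuousMap.ext fun x => ?_
    rw [cpull_apply, neg_zero, F.zero]
  rw [h4] at h3
  have h5 : (DJ D d i - ∑ j, D.U i j * GG E hA hl j) * (χ : C(P, ℝ)) =
      DJ D d i * χ - ∑ j, GG E hA hl j * (D.U i j * χ) := by
    simp only [Fin.sum_univ_two]; ring
  rw [h5, map_sub, map_sum]
  linarith

/-- `p_i = Σ_j V_j U_ij` -/
def pp (i : Fin 2) : C(P, ℝ) := ∑ j, D.dU i j (.V j)

/-- `t = tr U` -/
def tt : C(P, ℝ) := D.U 0 0 + D.U 1 1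

/-- derivatives of `t` -/
def dtt (k : Idx) : C(P, ℝ) := D.dU 0 0 k + D.dU 1 1 k

theorem jtt : Jet c (tt D) (dtt D) := (D.jU 0 0).add (D.jU 1 1)

theorem dtt_R : dtt D .R = 0 := by
  simp only [dtt, D.R00, D.R11]; ring

/-- `G = - p` -/
theorem GG_eq [FirstCountableTopology P] [m.IsOpenPosMeasure] (H : Hyp D F lam)
    (wpx : ∀ F F' : C(P, ℝ), WX c F F' → intL m (F * F') = 0)
    {E : Fin 2 → BoundedContinuousFunction (ℝ × P) ℝ} {u : ℕ → c.S}
    (hu : Tendsto (fun n => (u n : C(P, ℝ))) atTop (𝓝 (tt D)))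
    (hu' : ∀ k, Tendsto (fun n => ((c.Y k (u n) : c.S) : C(P, ℝ))) atTop (𝓝 (dtt D k)))
    (hE : ∀ i, Tendsto (fun n => eB D H (u n) i) atTop (𝓝 (E i))) {A : ℝ}
    (hA : ∀ i q, |E i q| ≤ Real.exp (-(lam / 2 * |q.1|)) * A) (i : Fin 2) :
    GG E hA H.lam_pos i = - pp D i := by
  have hl := H.lam_pos
  have hw : ∀ i, WX c (GG E hA hl i + pp D i) (- ∑ j, D.U i j * (GG E hA hl j + pp D j)) := by
    intro i
    have h1 := wx_GG D H (jtt D) (dtt_R D) hu hu' hE hA i
    have h2 := wx_p C D.jU D.symU D.symd D.ric D.R00 D.R01 D.R11 wpx hl H.pos i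
    have h3 := wx_add h1 h2
    refine H892.wx_congr h3 rfl ?_
    simp only [DJ, dtt, pp, Fin.sum_univ_two]
    ring
  set Z : Fin 2 → C(P, ℝ) := fun i => GG E hA hl i + pp D i with hZ
  have h0 := wpx _ _ (hw 0)
  have h1 := wpx _ _ (hw 1)
  have h2 : ∫ x, lam * (Z 0 x ^ 2 + Z 1 x ^ 2) ∂m ≤ 0 := by
    have h3 : ∫ x, (D.U 0 0 x * Z 0 x ^ 2 + 2 * D.U 0 1 x * (Z 0 x * Z 1 x) +
        D.U 1 1 x * Z 1 x ^ 2) ∂m = 0 := by
      have h4 : intL m (Z 0 * (- ∑ j, D.U 0 j * Z j) + Z 1 * (- ∑ j, D.U 1 j * Z j)) = 0 := by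
        rw [map_add]
        linarith
      rw [intL_apply] at h4
      rw [← neg_eq_zero, ← h4, ← integral_neg]
      congr 1
      funext x
      simp only [Fin.sum_univ_two, ContinuousMap.add_apply, ContinuousMap.mul_apply,
        ContinuousMap.neg_apply, D.symU]
      ring
    rw [← h3]
    refine integral_mono (integrable_cont (by fun_prop)) (integrable_cont (by fun_prop))
      fun x => ?_
    exact H.pos x _ _
  have h5 : (fun x => lam * (Z 0 x ^ 2 + Z 1 x ^ 2)) = 0 := by
    have hc : Continuous fun x => lam * (Z 0 x ^ 2 + Z 1 x ^ 2) := by fun_prop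
    have h6 : 0 ≤ fun x => lam * (Z 0 x ^ 2 + Z 1 x ^ 2) := fun x => by
      simp only [Pi.zero_apply]; positivity
    have h7 := (integral_eq_zero_iff_of_nonneg (μ := m) h6 (integrable_cont hc)).1
      (le_antisymm h2 (integral_nonneg h6))
    exact Continuous.ae_eq_iff_eq m hc continuous_const |>.1 h7
  have h6 : ∀ x, Z 0 x ^ 2 + Z 1 x ^ 2 = 0 := fun x => by
    have := congrFun h5 x
    simp only [Pi.zero_apply, mul_eq_zero] at this
    exact this.resolve_left hl.ne'
  have h7 : Z i = 0 := by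
    refine ContinuousMap.ext fun x => ?_
    have := h6 x
    have a0 : Z 0 x ^ 2 = 0 := by nlinarith [sq_nonneg (Z 0 x), sq_nonneg (Z 1 x)]
    have a1 : Z 1 x ^ 2 = 0 := by nlinarith [sq_nonneg (Z 0 x), sq_nonneg (Z 1 x)]
    rw [ContinuousMap.zero_apply]
    fin_cases i
    · exact pow_eq_zero_iff (two_ne_zero) |>.1 a0
    · exact pow_eq_zero_iff (two_ne_zero) |>.1 a1
  exact eq_neg_of_add_eq_zero_left h7

end

section

variable [IsProbabilityMeasure m]
  {c : Cal (intL m)} {C : Curv c} (D : UData c C) {F : FlowS c} {lam : ℝ}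

/-- an integrable solution of the cohomological equation, approximated by smooth `R`-invariant
functions -/
structure Sol (F : FlowS c) (h : ℝ) (ψ : P → ℝ) : Prop where
  meas : Measurable ψ
  int : Integrable ψ m
  coc : ∀ r, ∀ᵐ x ∂m, ψ (F.φ r x) - ψ x = WW F.φ (fun x => tt D x - h) r x
  app : ∀ ε > 0, ∃ f : c.S, c.Y .R f = 0 ∧ ∫ x, |ψ x - (f : C(P, ℝ)) x| ∂m ≤ ε

theorem int_del {χ : C(P, ℝ)} {dχ : Idx → C(P, ℝ)} (hχ : Jet c χ dχ) (i : Fin 2) :
    intL m (del D χ dχ i) = 0 := by
  have h := adj D (1 : c.S) hχ i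
  have e : DS D (1 : c.S) i = 0 := by
    simp [DS, Derivation.map_one_eq_zero]
  rw [e, zero_mul, map_zero, OneMemClass.coe_one, one_mul] at h
  exact h.symm

/-- **The weak unstable derivative of `ψ` is `- p`.** -/
theorem W1 [FirstCountableTopology P] [m.IsOpenPosMeasure] (H : Hyp D F lam)
    (hφ : MFlow m F.φ) (wpx : ∀ F F' : C(P, ℝ), WX c F F' → intL m (F * F') = 0)
    {h : ℝ} {ψ : P → ℝ} (hψ : Sol D F h ψ) {χ : C(P, ℝ)} {dχ : Idx → C(P, ℝ)}
    (hχ : Jet c χ dχ) (i : Fin 2) :
    ∫ x, ψ x * (dχ (.H i) + ∑ j, D.U i j * dχ (.V j) + pp D i * χ : C(P, ℝ)) x ∂m =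
      intL m (pp D i * χ) := by
  obtain ⟨E, u, hu, hu', hE, hA⟩ := exists_E D H (jtt D) (dtt_R D)
  have hl := H.lam_pos
  set δ := del D χ dχ i with hδ
  have hG := GG_eq D H wpx hu hu' hE hA i
  have key : ∫ x, ψ x * δ x ∂m = intL m (GG E hA hl i * χ) := by
    have hw : Measurable fun x => tt D x - h := ((tt D).continuous.sub continuous_const).measurable
    have hK : ∀ x, |tt D x - h| ≤ ‖tt D‖ + |h| := fun x =>
      (abs_sub _ _).trans (add_le_add ((tt D).norm_coe_le_norm x) le_rfl)
    refine hφ.integral_eq_of_approx hw hK hψ.meas hψ.int hψ.coc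
      (r := fun n => (n : ℝ)) (δ := fun _ => δ) (δ' := δ) (B := ‖δ‖)
      (fun _ => δ.continuous.measurable) (fun _ x => δ.norm_coe_le_norm x)
      (Eventually.of_forall fun x => tendsto_const_nhds)
      {g | ∃ f : c.S, c.Y .R f = 0 ∧ g = fun x => (f : C(P, ℝ)) x} ?_ ?_ ?_ ?_
    · rintro g ⟨f, -, rfl⟩
      exact ⟨(f : C(P, ℝ)).continuous.measurable, integrable_cont (f : C(P, ℝ)).continuous⟩
    · intro ε hε
      obtain ⟨f, hf, hf'⟩ := hψ.app ε hε
      exact ⟨_, ⟨f, hf, rfl⟩, hf'⟩
    · rintro g ⟨f, hf, rfl⟩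
      have h1 : ∀ n : ℕ, ∫ x, (f : C(P, ℝ)) (F.φ (-(n : ℝ)) x) * δ x ∂m =
          intL m (DS D (F.pull (-(n : ℝ)) f) i * χ) := by
        intro n
        rw [adj D _ hχ i, pull_eq, intL_apply]
        rfl
      simp only [h1]
      have h2 : Tendsto (fun n : ℕ => Real.exp (-(lam / 2 * (n : ℝ))) * (∑ j, ‖DS D f j‖) * ‖χ‖)
          atTop (𝓝 (0 * (∑ j, ‖DS D f j‖) * ‖χ‖)) := by
        have h3 : Tendsto (fun s : ℝ => -(lam / 2 * s)) atTop atBot :=
          tendsto_neg_atTop_atBot.comp (tendsto_id.const_mul_atTop (half_pos hl))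
        exact (((Real.tendsto_exp_atBot.comp (h3.comp tendsto_natCast_atTop_atTop))).mul_const
          _).mul_const _
      simp only [zero_mul] at h2
      refine squeeze_zero_norm' (Eventually.of_forall fun n => ?_) h2
      rw [intL_apply]
      refine (norm_integral_le_of_norm_le_const (μ := m)
        (C := Real.exp (-(lam / 2 * (n : ℝ))) * (∑ j, ‖DS D f j‖) * ‖χ‖)
        (Eventually.of_forall fun x => ?_)).trans (by simp)
      rw [ContinuousMap.mul_apply, norm_mul]
      have h4 := abs_DS_pull_le D H f i (Nat.cast_nonneg n) x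
      rw [hf] at h4
      simp only [ZeroMemClass.coe_zero, norm_zero, mul_zero, add_zero] at h4
      exact mul_le_mul h4 (χ.norm_coe_le_norm x) (norm_nonneg _)
        ((abs_nonneg _).trans h4)
    · have h1 : ∀ n : ℕ, ∫ x, WW F.φ (fun x => tt D x - h) (n : ℝ) (F.φ (-(n : ℝ)) x) * δ x ∂m =
          ∫ s in (0 : ℝ)..(n : ℝ), intL m (slice s (E i) * χ) := by
        intro n
        have e1 : ∀ x, WW F.φ (fun x => tt D x - h) (n : ℝ) (F.φ (-(n : ℝ)) x) =
            ∫ s in (0 : ℝ)..(n : ℝ), (tt D (F.φ (-s) x) - h) := by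
          intro x
          unfold WW
          have e2 := intervalIntegral.integral_comp_sub_left (a := 0) (b := (n : ℝ))
            (fun s => tt D (F.φ (-s) x) - h) (n : ℝ)
          rw [sub_self, sub_zero] at e2
          rw [← e2]
          refine intervalIntegral.integral_congr fun s _ => ?_
          simp only [← F.add]
          congr 3
          ring
        have hn : (0 : ℝ) ≤ n := Nat.cast_nonneg n
        simp only [e1, ← intervalIntegral.integral_mul_const]
        simp only [intervalIntegral.integral_of_le hn]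
        rw [integral_integral_swap]
        · refine setIntegral_congr_fun measurableSet_Ioc fun s hs => ?_
          rw [slice_pair D H hu hE hχ i hs.1.le, intL_apply]
          have e3 : ∫ x, (tt D (F.φ (-s) x) - h) * δ x ∂m =
              ∫ x, (cpull F (-s) (tt D) * δ) x ∂m - h * ∫ x, δ x ∂m := by
            rw [← integral_const_mul, ← integral_sub]
            · congr 1; funext x
              simp only [ContinuousMap.mul_apply, cpull_apply]; ring
            · exact integrable_cont (cpull F (-s) (tt D) * δ).continuous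
            · exact (integrable_cont δ.continuous).const_mul h
          rw [e3]
          have e4 := int_del D hχ i
          rw [intL_apply] at e4
          rw [← hδ] at e4
          rw [e4, mul_zero, sub_zero, hδ]
        · have hc : Continuous fun q : P × ℝ => (tt D (F.φ (-q.2) q.1) - h) * δ q.1 := by
            have h5 : Continuous fun q : P × ℝ => F.φ (-q.2) q.1 :=
              F.cont.comp (continuous_snd.neg.prodMk continuous_fst)
            exact (((tt D).continuous.comp h5).sub continuous_const).mul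
              (δ.continuous.comp continuous_fst)
          refine Integrable.of_bound (C := (‖tt D‖ + |h|) * ‖δ‖)
            hc.measurable.aestronglyMeasurable (Eventually.of_forall fun q => ?_)
          simp only [Function.uncurry, norm_mul]
          exact mul_le_mul (hK _) (δ.norm_coe_le_norm _) (norm_nonneg _)
            (by positivity)
      simp only [h1]
      rw [intL_GG E hA hl i χ]
      exact intervalIntegral_tendsto_integral_Ioi 0 (integrable_slice E hl i χ hA)
        tendsto_natCast_atTop_atTop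
  have e1 : ∀ x, (dχ (.H i) + ∑ j, D.U i j * dχ (.V j) + pp D i * χ : C(P, ℝ)) x = - δ x := by
    intro x
    rw [hδ]
    simp only [del, pp, Fin.sum_univ_two, ContinuousMap.add_apply, ContinuousMap.neg_apply,
      ContinuousMap.mul_apply]
    ring
  simp only [e1, mul_neg, integral_neg, key, hG, neg_mul, map_neg, neg_neg]

end

end Vale.Agent.P207.Q.WD
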