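import Vale.Agent.P207.Q.WeakLim

/-!
# P207: the weak unstable derivative of the transfer function, abstract form

`D k s g` is the derivative of `g` in the `k`-th approximate unstable direction `D^s_k`
(`D^s = H + U_s V`, `U_s` the second fundamental form of the spheres of radius `s`), for `g` in a
class `𝒮` of smooth functions (invariant under the rotation of the frame); `t s = tr U_s`,
`ℓ s = log det J(s) ∘ φ_{-s}`, `p s = div_V U_s`.
-/

open MeasureTheory Filter Set Topology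
open scoped ENNReal NNReal

noncomputable section

namespace Vale.Agent.P207.Q

variable {P : Type*} [TopologicalSpace P] [CompactSpace P] [MeasurableSpace P] [BorelSpace P]

/-- The data and hypotheses for the weak unstable derivative. -/
structure WData (φ : ℝ → P → P) (ι : Type*) where
  /-- the class of smooth functions -/
  𝒮 : Set (P → ℝ)
  /-- the approximate unstable derivatives -/
  D : ι → ℝ → (P → ℝ) → P → ℝ
  /-- the mean curvature of the spheres -/
  t : ℝ → P → ℝ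
  /-- the mean curvature of the horospheres -/
  t' : P → ℝ
  /-- the logarithm of the Jacobian -/
  ℓ : ℝ → P → ℝ
  /-- the rate -/
  c : ℝ
  C₀ : ℝ
  C₁ : ℝ
  c_pos : 0 < c
  flow_cont : Continuous fun q : ℝ × P => φ q.1 q.2
  cont : ∀ g ∈ 𝒮, Continuous g
  const : ∀ a : ℝ, (fun _ => a) ∈ 𝒮
  sub : ∀ g ∈ 𝒮, ∀ g' ∈ 𝒮, (fun x => g x - g' x) ∈ 𝒮
  comp : ∀ g ∈ 𝒮, ∀ r, (fun x => g (φ r x)) ∈ 𝒮
  D_const : ∀ k, ∀ s, 1 ≤ s → ∀ a x, D k s (fun _ => a) x = 0
  D_bdd : ∀ g ∈ 𝒮, ∃ B, ∀ k x, |D k 1 g x| ≤ B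
  D_contr : ∀ k, ∀ s R, 1 ≤ s → s ≤ R → ∀ g ∈ 𝒮, ∀ b, (∀ k x, |D k s g x| ≤ b) →
    ∀ x, |D k R (fun y => g (φ (s - R) y)) x| ≤ C₀ * Real.exp (-(c * (R - s))) * b
  t_cont : Continuous fun q : ℝ × P => t q.1 q.2
  t_mem : ∀ s, 1 ≤ s → t s ∈ 𝒮
  t_lim : TendstoUniformly t t' atTop
  D_t : ∀ k, ∀ s S, 1 ≤ s → s ≤ S → ∀ x, |D k s (fun y => t S y - t s y) x| ≤
    C₁ * Real.exp (-(c * s))
  ℓ_mem : ∀ s, 1 ≤ s → ℓ s ∈ 𝒮
  ℓ_eq : ∀ R, 1 ≤ R → ∀ x, ℓ R x = ℓ 1 (φ (1 - R) x) + ∫ s in (1 : ℝ)..R, t s (φ (s - R) x)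

/-- A test function for the `j`-th unstable derivative: its adjoint derivatives `δ R`, their limit,
and the limit of the divergences `p R = - D^R ℓ_R`. -/
structure WTest {φ : ℝ → P → P} {ι : Type*} (W : WData φ ι) (m : Measure P) (j : ι) where
  χ : P → ℝ
  δ : ℝ → P → ℝ
  δ' : P → ℝ
  p : ℝ → P → ℝ
  p' : P → ℝ
  B : ℝ
  χ_cont : Continuous χ
  δ_cont : ∀ R, 1 ≤ R → Continuous (δ R)
  δ_bdd : ∀ R, 1 ≤ R → ∀ x, |δ R x| ≤ B
  δ_lim : ∀ x, Tendsto (fun R => δ R x) atTop (𝓝 (δ' x))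
  adj : ∀ R, 1 ≤ R → ∀ g ∈ W.𝒮, ∫ x, W.D j R g x * χ x ∂m = ∫ x, g x * δ R x ∂m
  D_meas : ∀ R, 1 ≤ R → ∀ g ∈ W.𝒮, Continuous (W.D j R g)
  D_ℓ : ∀ R, 1 ≤ R → ∀ x, W.D j R (W.ℓ R) x = - p R x
  p_cont : ∀ R, 1 ≤ R → Continuous (p R)
  p_lim : TendstoUniformly p p' atTop

variable {m : Measure P} [IsProbabilityMeasure m] {φ : ℝ → P → P} (hφ : MFlow m φ)
  {ι : Type*} {W : WData φ ι} {j : ι} (Z : WTest W m j)

omit [MeasurableSpace P] [BorelSpace P] in
theorem exists_bdd_of_cont {f : P → ℝ} (hf : Continuous f) : ∃ B, 0 ≤ B ∧ ∀ x, |f x| ≤ B := by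
  obtain ⟨B, hB⟩ := isCompact_univ.exists_bound_of_continuousOn (f := f) hf.continuousOn
  exact ⟨|B|, abs_nonneg _, fun x => (hB x (mem_univ x)).trans (le_abs_self B)⟩

theorem integrable_of_cont {f : P → ℝ} (hf : Continuous f) : Integrable f m := by
  obtain ⟨B, _, hB⟩ := exists_bdd_of_cont hf
  exact Integrable.of_bound hf.measurable.aestronglyMeasurable B (Eventually.of_forall hB)

namespace WTest

omit [CompactSpace P] [BorelSpace P] in
theorem B_nonneg : 0 ≤ Z.B := by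
  obtain ⟨x⟩ : Nonempty P := by
    by_contra h
    rw [not_nonempty_iff] at h
    have : m univ = 0 := by simp [Subsingleton.elim (univ : Set P) ∅]
    simp at this
  exact (abs_nonneg _).trans (Z.δ_bdd 1 le_rfl x)

omit [CompactSpace P] [BorelSpace P] in
/-- bound of `∫ (D g) χ` from a bound of `D g` -/
theorem abs_integral_le {R : ℝ} (hR : 1 ≤ R) {g : P → ℝ} (hg : g ∈ W.𝒮) {b Bχ : ℝ}
    (hBχ : ∀ x, |Z.χ x| ≤ Bχ) (hb : ∀ x, |W.D j R g x| ≤ b) :
    |∫ x, g x * Z.δ R x ∂m| ≤ b * Bχ := by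
  rw [← Z.adj R hR g hg, ← Real.norm_eq_abs]
  have h1 : ∀ x, ‖W.D j R g x * Z.χ x‖ ≤ b * Bχ := fun x => by
    rw [Real.norm_eq_abs, abs_mul]
    exact mul_le_mul (hb x) (hBχ x) (abs_nonneg _) ((abs_nonneg _).trans (hb x))
  have := norm_integral_le_of_norm_le_const (μ := m) (Eventually.of_forall h1)
  simpa using this

/-- Decay of the pairing of `g ∘ φ_{-R}` with the adjoint derivatives, `g` smooth. -/
theorem tendsto_of_mem {g : P → ℝ} (hg : g ∈ W.𝒮) :
    Tendsto (fun R => ∫ x, g (φ (1 - R) x) * Z.δ R x ∂m) atTop (𝓝 0) := by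
  obtain ⟨b, hb⟩ := W.D_bdd g hg
  obtain ⟨Bχ, hB0, hBχ⟩ := exists_bdd_of_cont Z.χ_cont
  have hle : ∀ᶠ R in atTop, ‖∫ x, g (φ (1 - R) x) * Z.δ R x ∂m‖ ≤
      W.C₀ * Real.exp (-(W.c * (R - 1))) * b * Bχ := by
    filter_upwards [eventually_ge_atTop (1 : ℝ)] with R hR
    exact Z.abs_integral_le hR (W.comp g hg (1 - R)) hBχ
      (W.D_contr j 1 R le_rfl hR g hg b hb)
  refine squeeze_zero_norm' hle ?_
  have h1 : Tendsto (fun R : ℝ => -(W.c * (R - 1))) atTop atBot := by
    apply tendsto_neg_atTop_atBot.comp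
    exact (tendsto_id.atTop_add tendsto_const_nhds).const_mul_atTop W.c_pos
  have h2 := (Real.tendsto_exp_atBot.comp h1).const_mul W.C₀ |>.mul_const b |>.mul_const Bχ
  simpa using h2

include hφ in
/-- The same for uniform limits of smooth functions. -/
theorem tendsto_of_approx {g : P → ℝ} (hgc : Continuous g)
    (hg : ∀ ε > 0, ∃ g' ∈ W.𝒮, ∀ x, |g x - g' x| ≤ ε) :
    Tendsto (fun R => ∫ x, g (φ (-R) x) * Z.δ R x ∂m) atTop (𝓝 0) := by
  have hB0 := Z.B_nonneg
  rw [Metric.tendsto_atTop]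
  intro ε hε
  obtain ⟨g', hg', hgg⟩ := hg (ε / (2 * (Z.B + 1))) (by positivity)
  have h1 := Z.tendsto_of_mem (W.comp g' hg' (-1))
  obtain ⟨N, hN⟩ := Metric.tendsto_atTop.1 h1 (ε / 2) (by positivity)
  refine ⟨max N 1, fun R hR => ?_⟩
  have hN' := hN R ((le_max_left _ _).trans hR)
  have hR1 : 1 ≤ R := (le_max_right _ _).trans hR
  rw [Real.dist_0_eq_abs] at hN' ⊢
  have hgeq : ∀ x, g' (φ (-1) (φ (1 - R) x)) = g' (φ (-R) x) := fun x => by
    rw [← hφ.add]; congr 2; ring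
  simp only [hgeq] at hN'
  have hfl : ∀ r, Continuous (φ r) := fun r =>
    W.flow_cont.comp (continuous_const.prodMk continuous_id)
  have hδR : Continuous (Z.δ R) := Z.δ_cont R hR1
  have i1 : Integrable (fun x => (g (φ (-R) x) - g' (φ (-R) x)) * Z.δ R x) m :=
    integrable_of_cont (((hgc.comp (hfl _)).sub ((W.cont g' hg').comp (hfl _))).mul hδR)
  have i2 : Integrable (fun x => g' (φ (-R) x) * Z.δ R x) m :=
    integrable_of_cont (((W.cont g' hg').comp (hfl _)).mul hδR)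
  have e1 : ∫ x, g (φ (-R) x) * Z.δ R x ∂m =
      ∫ x, (g (φ (-R) x) - g' (φ (-R) x)) * Z.δ R x ∂m +
        ∫ x, g' (φ (-R) x) * Z.δ R x ∂m := by
    rw [← integral_add i1 i2]
    congr 1; funext x; ring
  have e2 : |∫ x, (g (φ (-R) x) - g' (φ (-R) x)) * Z.δ R x ∂m| ≤
      ε / (2 * (Z.B + 1)) * Z.B := by
    rw [← Real.norm_eq_abs]
    have h1 : ∀ x, ‖(g (φ (-R) x) - g' (φ (-R) x)) * Z.δ R x‖ ≤
        ε / (2 * (Z.B + 1)) * Z.B := fun x => by
      rw [Real.norm_eq_abs, abs_mul]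
      exact mul_le_mul (hgg _) (Z.δ_bdd R hR1 x) (abs_nonneg _) (by positivity)
    have := norm_integral_le_of_norm_le_const (μ := m) (Eventually.of_forall h1)
    simpa using this
  have e4 : ε / (2 * (Z.B + 1)) * Z.B ≤ ε / 2 := by
    rw [div_mul_eq_mul_div, div_le_div_iff₀ (by positivity) (by norm_num)]
    nlinarith
  rw [e1]
  calc |∫ x, (g (φ (-R) x) - g' (φ (-R) x)) * Z.δ R x ∂m +
        ∫ x, g' (φ (-R) x) * Z.δ R x ∂m| ≤ _ := abs_add_le _ _
    _ < ε := by linarith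

omit [CompactSpace P] [BorelSpace P] [IsProbabilityMeasure m] in
theorem integral_δ {R : ℝ} (hR : 1 ≤ R) : ∫ x, Z.δ R x ∂m = 0 := by
  have h := Z.adj R hR _ (W.const 1)
  simp only [W.D_const j R hR, zero_mul, integral_zero, one_mul] at h
  exact h.symm

/-- The error term at time `s`. -/
theorem abs_err_le {Bχ : ℝ} (hBχ : ∀ x, |Z.χ x| ≤ Bχ) (ht' : Continuous W.t') {s R : ℝ}
    (hs : 1 ≤ s) (hsR : s ≤ R) :
    |∫ x, (W.t' (φ (s - R) x) - W.t s (φ (s - R) x)) * Z.δ R x ∂m| ≤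
      W.C₀ * W.C₁ * Real.exp (-(W.c * R)) * Bχ := by
  have hR : 1 ≤ R := hs.trans hsR
  have hfl : ∀ r, Continuous (φ r) := fun r =>
    W.flow_cont.comp (continuous_const.prodMk continuous_id)
  have htc : ∀ s, Continuous (W.t s) := fun s =>
    W.t_cont.comp (continuous_const.prodMk continuous_id)
  have hB0 := Z.B_nonneg
  have hδR : Continuous (Z.δ R) := Z.δ_cont R hR
  -- for finite `S`
  have hfin : ∀ S, s ≤ S →
      |∫ x, (W.t S (φ (s - R) x) - W.t s (φ (s - R) x)) * Z.δ R x ∂m| ≤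
        W.C₀ * W.C₁ * Real.exp (-(W.c * R)) * Bχ := fun S hS => by
    have hmem : (fun y => W.t S y - W.t s y) ∈ W.𝒮 :=
      W.sub _ (W.t_mem S (hs.trans hS)) _ (W.t_mem s hs)
    have h1 := Z.abs_integral_le hR (W.comp _ hmem (s - R)) hBχ
      (W.D_contr j s R hs hsR _ hmem _ (fun k x => W.D_t k s S hs hS x))
    refine h1.trans (le_of_eq ?_)
    have : Real.exp (-(W.c * R)) = Real.exp (-(W.c * (R - s))) * Real.exp (-(W.c * s)) := by
      rw [← Real.exp_add]; congr 1; ring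
    rw [this]; ring
  -- limit
  have hlim : Tendsto (fun S => ∫ x, (W.t S (φ (s - R) x) - W.t s (φ (s - R) x)) * Z.δ R x ∂m)
      atTop (𝓝 (∫ x, (W.t' (φ (s - R) x) - W.t s (φ (s - R) x)) * Z.δ R x ∂m)) := by
    rw [Metric.tendsto_atTop]
    intro ε hε
    have hu := Metric.tendstoUniformly_iff.1 W.t_lim (ε / (2 * (Z.B + 1))) (by positivity)
    obtain ⟨N, hN⟩ := eventually_atTop.1 hu
    refine ⟨N, fun S hS => ?_⟩
    rw [Real.dist_eq, ← integral_sub]
    · have h1 : ∀ x, ‖(W.t S (φ (s - R) x) - W.t s (φ (s - R) x)) * Z.δ R x -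
          (W.t' (φ (s - R) x) - W.t s (φ (s - R) x)) * Z.δ R x‖ ≤
          ε / (2 * (Z.B + 1)) * Z.B := fun x => by
        have h2 := hN S hS (φ (s - R) x)
        rw [dist_comm, Real.dist_eq] at h2
        rw [← sub_mul, Real.norm_eq_abs, abs_mul]
        have h3 : W.t S (φ (s - R) x) - W.t s (φ (s - R) x) -
            (W.t' (φ (s - R) x) - W.t s (φ (s - R) x)) =
            W.t S (φ (s - R) x) - W.t' (φ (s - R) x) := by ring
        rw [h3]
        exact mul_le_mul h2.le (Z.δ_bdd R hR x) (abs_nonneg _) (by positivity)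
      have h4 := norm_integral_le_of_norm_le_const (μ := m) (Eventually.of_forall h1)
      have e4 : ε / (2 * (Z.B + 1)) * Z.B ≤ ε / 2 := by
        rw [div_mul_eq_mul_div, div_le_div_iff₀ (by positivity) (by norm_num)]
        nlinarith
      rw [← Real.norm_eq_abs]
      refine lt_of_le_of_lt h4 ?_
      simp only [probReal_univ, mul_one]
      linarith
    · exact integrable_of_cont ((((htc S).comp (hfl _)).sub ((htc s).comp (hfl _))).mul hδR)
    · exact integrable_of_cont (((ht'.comp (hfl _)).sub ((htc s).comp (hfl _))).mul hδR)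
  refine le_of_tendsto hlim.abs ?_
  filter_upwards [eventually_ge_atTop s] with S hS using hfin S hS

include hφ in
/-- **The weak unstable derivative of the transfer function**: if `ψ` is an integrable solution of
`ψ ∘ φ_r - ψ = ∫_0^r (t' - h) ∘ φ_s`, approximated in `L¹` by smooth functions, then
`∫ ψ δ' = - ∫ p' χ`, i.e. `D_j ψ = - p'_j` weakly. -/
theorem integral_ψ_δ (ht' : Continuous W.t') (h : ℝ) {ψ : P → ℝ} (hψm : Measurable ψ)
    (hψ : Integrable ψ m)
    (hcob : ∀ r, ∀ᵐ x ∂m, ψ (φ r x) - ψ x = WW φ (fun x => W.t' x - h) r x)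
    (happ : ∀ ε > 0, ∃ g ∈ W.𝒮, ∫ x, |ψ x - g x| ∂m ≤ ε) :
    ∫ x, ψ x * Z.δ' x ∂m = - ∫ x, Z.p' x * Z.χ x ∂m := by
  have hfl : ∀ r, Continuous (φ r) := fun r =>
    W.flow_cont.comp (continuous_const.prodMk continuous_id)
  have htc : ∀ s, Continuous (W.t s) := fun s =>
    W.t_cont.comp (continuous_const.prodMk continuous_id)
  have hB0 := Z.B_nonneg
  obtain ⟨Bχ, hBχ0, hBχ⟩ := exists_bdd_of_cont Z.χ_cont
  have hwc : Continuous fun x => W.t' x - h := ht'.sub continuous_const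
  obtain ⟨K, hK0, hK⟩ := exists_bdd_of_cont hwc
  obtain ⟨T, hT0, hT⟩ := exists_bdd_of_cont ht'
  set r : ℕ → ℝ := fun n => (n : ℝ) + 1 with hr
  have hr1 : ∀ n, 1 ≤ r n := fun n => by simp [hr]
  have hrlim : Tendsto r atTop atTop := tendsto_natCast_atTop_atTop.atTop_add tendsto_const_nhds
  refine hφ.integral_eq_of_approx hwc.measurable hK hψm hψ hcob (r := r)
    (δ := fun n => Z.δ (r n)) (B := Z.B) (fun n => (Z.δ_cont _ (hr1 n)).measurable)
    (fun n x => Z.δ_bdd _ (hr1 n) x)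
    (Eventually.of_forall fun x => (Z.δ_lim x).comp hrlim) W.𝒮
    (fun g hg => ⟨(W.cont g hg).measurable, integrable_of_cont (W.cont g hg)⟩) happ ?_ ?_
  · intro g hg
    exact (Z.tendsto_of_approx hφ (W.cont g hg) (fun ε hε => ⟨g, hg, fun x => by
      simpa using hε.le⟩)).comp hrlim
  -- the main limit
  -- the five pieces
  have hpA : Tendsto (fun R => ∫ x, W.ℓ R x * Z.δ R x ∂m) atTop
      (𝓝 (- ∫ x, Z.p' x * Z.χ x ∂m)) := by
    have h1 : ∀ᶠ R in atTop, - ∫ x, Z.p R x * Z.χ x ∂m = ∫ x, W.ℓ R x * Z.δ R x ∂m := by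
      filter_upwards [eventually_ge_atTop (1 : ℝ)] with R hR
      rw [← Z.adj R hR _ (W.ℓ_mem R hR), ← integral_neg]
      congr 1; funext x
      rw [Z.D_ℓ R hR]; ring
    refine Tendsto.congr' h1 (Tendsto.neg ?_)
    rw [Metric.tendsto_atTop]
    intro ε hε
    have hu := Metric.tendstoUniformly_iff.1 Z.p_lim (ε / (2 * (Bχ + 1))) (by positivity)
    obtain ⟨N, hN⟩ := eventually_atTop.1 hu
    have hp'c : Continuous Z.p' := Z.p_lim.continuous
      ((eventually_ge_atTop (1 : ℝ)).mono fun R hR => Z.p_cont R hR).frequently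
    refine ⟨max N 1, fun R hR => ?_⟩
    have hR1 : 1 ≤ R := (le_max_right _ _).trans hR
    have hsub : ∫ x, Z.p R x * Z.χ x ∂m - ∫ x, Z.p' x * Z.χ x ∂m =
        ∫ x, (Z.p R x * Z.χ x - Z.p' x * Z.χ x) ∂m :=
      (integral_sub (integrable_of_cont ((Z.p_cont R hR1).mul Z.χ_cont))
        (integrable_of_cont (hp'c.mul Z.χ_cont))).symm
    rw [Real.dist_eq, hsub]
    have h2 : ∀ x, ‖Z.p R x * Z.χ x - Z.p' x * Z.χ x‖ ≤ ε / (2 * (Bχ + 1)) * Bχ := fun x => by
      have h3 := hN R ((le_max_left _ _).trans hR) x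
      rw [dist_comm, Real.dist_eq] at h3
      rw [← sub_mul, Real.norm_eq_abs, abs_mul]
      exact mul_le_mul h3.le (hBχ x) (abs_nonneg _) (by positivity)
    have h4 := norm_integral_le_of_norm_le_const (μ := m) (Eventually.of_forall h2)
    have e4 : ε / (2 * (Bχ + 1)) * Bχ ≤ ε / 2 := by
      rw [div_mul_eq_mul_div, div_le_div_iff₀ (by positivity) (by norm_num)]
      nlinarith
    rw [← Real.norm_eq_abs]
    refine lt_of_le_of_lt h4 ?_
    simp only [probReal_univ, mul_one]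
    linarith
  have hpC : Tendsto (fun R => ∫ x, W.ℓ 1 (φ (1 - R) x) * Z.δ R x ∂m) atTop (𝓝 0) :=
    Z.tendsto_of_mem (W.ℓ_mem 1 le_rfl)
  -- piece B
  have hbs : ∀ s : ℝ, Tendsto (fun R => ∫ x, W.t' (φ (s - R) x) * Z.δ R x ∂m) atTop (𝓝 0) :=
    fun s => by
      have h1 := Z.tendsto_of_approx hφ (g := fun x => W.t' (φ s x)) (ht'.comp (hfl s))
        (fun ε hε => by
          obtain ⟨N, hN⟩ := eventually_atTop.1 (Metric.tendstoUniformly_iff.1 W.t_lim ε hε)
          refine ⟨fun x => W.t (max N 1) (φ s x),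
            W.comp _ (W.t_mem _ (le_max_right _ _)) s, fun x => ?_⟩
          have h2 := hN (max N 1) (le_max_left _ _) (φ s x)
          rw [Real.dist_eq] at h2
          exact h2.le)
      refine h1.congr fun R => ?_
      congr 1; funext x
      rw [← hφ.add, sub_eq_add_neg]
  have hjc : ∀ R, Continuous fun q : ℝ × P => φ (q.1 - R) q.2 := fun R =>
    W.flow_cont.comp ((continuous_fst.sub continuous_const).prodMk continuous_snd)
  have hpB : Tendsto (fun n => ∫ s in (0 : ℝ)..1, ∫ x, W.t' (φ (s - r n) x) * Z.δ (r n) x ∂m)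
      atTop (𝓝 0) := by
    have h1 := intervalIntegral.tendsto_integral_filter_of_dominated_convergence
      (μ := volume) (a := 0) (b := 1) (l := atTop)
      (F := fun n s => ∫ x, W.t' (φ (s - r n) x) * Z.δ (r n) x ∂m) (f := fun _ => (0 : ℝ))
      (fun _ => T * Z.B) ?_ ?_ ?_ ?_
    · simpa using h1
    · refine Eventually.of_forall fun n => ?_
      have hc : Continuous fun q : ℝ × P => W.t' (φ (q.1 - r n) q.2) * Z.δ (r n) q.2 :=
        (ht'.comp (hjc _)).mul ((Z.δ_cont _ (hr1 n)).comp continuous_snd)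
      have hc2 : Continuous fun s => ∫ x, W.t' (φ (s - r n) x) * Z.δ (r n) x ∂m := by
        apply continuous_parametric_integral_of_continuous
          (s := univ) (μ := m) (f := fun s x => W.t' (φ (s - r n) x) * Z.δ (r n) x) ?_ ?_
          |> fun h => by simpa using h
        · exact hc
        · exact isCompact_univ
      exact hc2.aestronglyMeasurable
    · refine Eventually.of_forall fun n => Eventually.of_forall fun s _ => ?_
      have h2 : ∀ x, ‖W.t' (φ (s - r n) x) * Z.δ (r n) x‖ ≤ T * Z.B := fun x => by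
        rw [Real.norm_eq_abs, abs_mul]
        exact mul_le_mul (hT _) (Z.δ_bdd _ (hr1 n) x) (abs_nonneg _) hT0
      have := norm_integral_le_of_norm_le_const (μ := m) (Eventually.of_forall h2)
      simpa using this
    · exact intervalIntegrable_const
    · exact Eventually.of_forall fun s _ => (hbs s).comp hrlim
  -- piece E
  have hpE : Tendsto (fun n => ∫ s in (1 : ℝ)..(r n),
      ∫ x, (W.t' (φ (s - r n) x) - W.t s (φ (s - r n) x)) * Z.δ (r n) x ∂m) atTop (𝓝 0) := by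
    have hle : ∀ n, ‖∫ s in (1 : ℝ)..(r n),
        ∫ x, (W.t' (φ (s - r n) x) - W.t s (φ (s - r n) x)) * Z.δ (r n) x ∂m‖ ≤
        W.C₀ * W.C₁ * Real.exp (-(W.c * r n)) * Bχ * |r n - 1| := fun n => by
      apply intervalIntegral.norm_integral_le_of_norm_le_const
      intro s hs
      rw [uIoc_of_le (hr1 n)] at hs
      exact Z.abs_err_le hBχ ht' hs.1.le hs.2
    refine squeeze_zero_norm hle ?_
    have h1 : Tendsto (fun R : ℝ => R * Real.exp (-(W.c * R))) atTop (𝓝 0) := by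
      have h2 := Real.tendsto_pow_mul_exp_neg_atTop_nhds_zero 1
      have h3 : Tendsto (fun R : ℝ => W.c * R) atTop atTop :=
        tendsto_id.const_mul_atTop W.c_pos
      have h4 := (h2.comp h3).const_mul W.c⁻¹
      simp only [pow_one, mul_zero] at h4
      refine h4.congr fun R => ?_
      simp only [Function.comp_apply]
      rw [← mul_assoc, ← mul_assoc, inv_mul_cancel₀ W.c_pos.ne', one_mul]
    have h2 : Tendsto (fun R : ℝ => Real.exp (-(W.c * R))) atTop (𝓝 0) :=
      Real.tendsto_exp_atBot.comp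
        (tendsto_neg_atTop_atBot.comp (tendsto_id.const_mul_atTop W.c_pos))
    have h3 : Tendsto (fun R : ℝ => W.C₀ * W.C₁ * Bχ *
        (R * Real.exp (-(W.c * R)) - Real.exp (-(W.c * R)))) atTop (𝓝 0) := by
      simpa using (h1.sub h2).const_mul (W.C₀ * W.C₁ * Bχ)
    refine (h3.comp hrlim).congr fun n => ?_
    simp only [Function.comp_apply]
    rw [abs_of_nonneg (by linarith [hr1 n])]
    ring
  -- assembly
  have hdec : ∀ n, ∫ x, WW φ (fun x => W.t' x - h) (r n) (φ (-r n) x) * Z.δ (r n) x ∂m =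
      ∫ x, W.ℓ (r n) x * Z.δ (r n) x ∂m +
      (∫ s in (0 : ℝ)..1, ∫ x, W.t' (φ (s - r n) x) * Z.δ (r n) x ∂m) -
      ∫ x, W.ℓ 1 (φ (1 - r n) x) * Z.δ (r n) x ∂m +
      ∫ s in (1 : ℝ)..(r n),
        ∫ x, (W.t' (φ (s - r n) x) - W.t s (φ (s - r n) x)) * Z.δ (r n) x ∂m := fun n => by
    set R := r n with hRn
    have hR : 1 ≤ R := hr1 n
    have hδR : Continuous (Z.δ R) := Z.δ_cont R hR
    have hcs : ∀ x, Continuous fun s => φ (s - R) x := fun x =>
      W.flow_cont.comp ((continuous_id.sub continuous_const).prodMk continuous_const)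
    have hIt : ∀ x a b, IntervalIntegrable (fun s => W.t' (φ (s - R) x)) volume a b :=
      fun x a b => (ht'.comp (hcs x)).intervalIntegrable a b
    have hIts : ∀ x a b, IntervalIntegrable (fun s => W.t s (φ (s - R) x)) volume a b :=
      fun x a b => (W.t_cont.comp (continuous_id.prodMk (hcs x))).intervalIntegrable a b
    have hpt : ∀ x, WW φ (fun x => W.t' x - h) R (φ (-R) x) =
        W.ℓ R x + (∫ s in (0 : ℝ)..1, W.t' (φ (s - R) x)) - W.ℓ 1 (φ (1 - R) x) +
          (∫ s in (1 : ℝ)..R, (W.t' (φ (s - R) x) - W.t s (φ (s - R) x))) - h * R := fun x => by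
      unfold WW
      have e0 : (fun s => W.t' (φ s (φ (-R) x)) - h) = fun s => W.t' (φ (s - R) x) - h := by
        funext s; rw [← hφ.add, sub_eq_add_neg s R]
      rw [e0, intervalIntegral.integral_sub (hIt x 0 R) intervalIntegrable_const,
        intervalIntegral.integral_const, intervalIntegral.integral_sub (hIt x 1 R) (hIts x 1 R),
        W.ℓ_eq R hR x, ← intervalIntegral.integral_add_adjacent_intervals (hIt x 0 1) (hIt x 1 R)]
      simp only [sub_zero, smul_eq_mul]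
      ring
    -- integrability of the pieces and Fubini
    have fub : ∀ (a b : ℝ) (F : ℝ × P → ℝ), Continuous F →
        Integrable (fun x => (∫ s in a..b, F (s, x)) * Z.δ R x) m ∧
        ∫ x, (∫ s in a..b, F (s, x)) * Z.δ R x ∂m =
          ∫ s in a..b, ∫ x, F (s, x) * Z.δ R x ∂m := fun a b F hF => by
      have hc1 : Continuous fun x => ∫ s in a..b, F (s, x) := by
        apply intervalIntegral.continuous_parametric_intervalIntegral_of_continuous'
        exact hF.comp (continuous_snd.prodMk continuous_fst)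
      refine ⟨integrable_of_cont (hc1.mul hδR), ?_⟩
      have hG : Continuous fun q : ℝ × P => F q * Z.δ R q.2 := hF.mul (hδR.comp continuous_snd)
      rw [intervalIntegral_integral_swap (f := fun s x => F (s, x) * Z.δ R x)]
      · congr 1; funext x
        rw [intervalIntegral.integral_mul_const]
      · have hcpt : IsCompact (uIcc a b ×ˢ (univ : Set P)) := isCompact_uIcc.prod isCompact_univ
        obtain ⟨C, hC⟩ := hcpt.exists_bound_of_continuousOn hG.continuousOn
        have hfin : IsFiniteMeasure (volume.restrict (uIoc a b)) := by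
          rw [uIoc]; infer_instance
        refine Integrable.mono' (g := fun _ => C) (integrable_const _)
          hG.aestronglyMeasurable ?_
        rw [Measure.ae_prod_iff_ae_ae]
        · filter_upwards [ae_restrict_mem measurableSet_uIoc] with s hs
          exact Eventually.of_forall fun x => hC (s, x) ⟨uIoc_subset_uIcc hs, mem_univ _⟩
        · exact (isClosed_le hG.norm continuous_const).measurableSet
    have c1 : Continuous fun q : ℝ × P => W.t' (φ (q.1 - R) q.2) := ht'.comp (hjc _)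
    have c2 : Continuous fun q : ℝ × P =>
        W.t' (φ (q.1 - R) q.2) - W.t q.1 (φ (q.1 - R) q.2) :=
      c1.sub (W.t_cont.comp (continuous_fst.prodMk (hjc _)))
    obtain ⟨i1, f1⟩ := fub 0 1 _ c1
    obtain ⟨i2, f2⟩ := fub 1 R _ c2
    simp only at i1 f1 i2 f2
    have i3 : Integrable (fun x => W.ℓ R x * Z.δ R x) m :=
      integrable_of_cont ((W.cont _ (W.ℓ_mem R hR)).mul hδR)
    have i4 : Integrable (fun x => W.ℓ 1 (φ (1 - R) x) * Z.δ R x) m :=
      integrable_of_cont (((W.cont _ (W.ℓ_mem 1 le_rfl)).comp (hfl _)).mul hδR)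
    have i5 : Integrable (fun x => h * R * Z.δ R x) m :=
      integrable_of_cont (continuous_const.mul hδR)
    have e5 : ∫ x, h * R * Z.δ R x ∂m = 0 := by
      rw [integral_const_mul, Z.integral_δ hR, mul_zero]
    have e1 : ∫ x, WW φ (fun x => W.t' x - h) R (φ (-R) x) * Z.δ R x ∂m =
        ∫ x, ((((W.ℓ R x * Z.δ R x + (∫ s in (0 : ℝ)..1, W.t' (φ (s - R) x)) * Z.δ R x) -
          W.ℓ 1 (φ (1 - R) x) * Z.δ R x) +
          (∫ s in (1 : ℝ)..R, (W.t' (φ (s - R) x) - W.t s (φ (s - R) x))) * Z.δ R x) -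
          h * R * Z.δ R x) ∂m := by
      congr 1; funext x; rw [hpt x]; ring
    have a1 := integral_add i3 i1
    have a2 := integral_sub (i3.add i1) i4
    have a3 := integral_add ((i3.add i1).sub i4) i2
    have a4 := integral_sub (((i3.add i1).sub i4).add i2) i5
    simp only [Pi.add_apply, Pi.sub_apply] at a1 a2 a3 a4
    rw [e1, a4, a3, a2, a1, e5, f1, f2, sub_zero]
  have hsum : Tendsto (fun n => ∫ x, W.ℓ (r n) x * Z.δ (r n) x ∂m +
      (∫ s in (0 : ℝ)..1, ∫ x, W.t' (φ (s - r n) x) * Z.δ (r n) x ∂m) -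
      ∫ x, W.ℓ 1 (φ (1 - r n) x) * Z.δ (r n) x ∂m +
      ∫ s in (1 : ℝ)..(r n),
        ∫ x, (W.t' (φ (s - r n) x) - W.t s (φ (s - r n) x)) * Z.δ (r n) x ∂m) atTop
      (𝓝 (- ∫ x, Z.p' x * Z.χ x ∂m)) := by
    have := (((hpA.comp hrlim).add hpB).sub (hpC.comp hrlim)).add hpE
    simpa using this
  exact hsum.congr fun n => (hdec n).symm

end WTest

end Vale.Agent.P207.Q
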